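import Vale.Agent.P084.Avg

/-! Alexandrov's theorem: the gradient of a convex function is a.e. differentiable. -/

open MeasureTheory Filter Topology Set Metric
open scoped NNReal ENNReal RealInnerProductSpace

namespace Vale.Agent.P084

variable {E : Type*} [NormedAddCommGroup E] [InnerProductSpace ℝ E] [FiniteDimensional ℝ E]

/-- Vector to covector. -/
noncomputable def rl : E →L[ℝ] (E →L[ℝ] ℝ) :=
  LinearMap.toContinuousLinearMap
    { toFun := fun a => innerSL ℝ a
      map_add' := fun a b => by ext v; simp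
      map_smul' := fun c a => by ext v; simp }

@[simp] theorem rl_apply (a b : E) : rl a b = ⟪a, b⟫ := rfl

/-- Covector to vector. -/
noncomputable def rz : (E →L[ℝ] ℝ) →L[ℝ] E :=
  LinearMap.toContinuousLinearMap
    { toFun := fun ξ => (InnerProductSpace.toDual ℝ E).symm ξ
      map_add' := fun a b => by simp
      map_smul' := fun c a => by simp }

@[simp] theorem inner_rz (ξ : E →L[ℝ] ℝ) (v : E) : ⟪rz ξ, v⟫ = ξ v :=
  InnerProductSpace.toDual_symm_apply

@[simp] theorem rl_rz (ξ : E →L[ℝ] ℝ) : rl (rz ξ) = ξ := by ext v; simp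

/-- The adjoint as a real linear map. -/
noncomputable def adj : (E →L[ℝ] E) →L[ℝ] (E →L[ℝ] E) :=
  LinearMap.toContinuousLinearMap
    { toFun := fun A => ContinuousLinearMap.adjoint A
      map_add' := fun a b => by simp
      map_smul' := fun c a => by simp }

theorem adj_eq (A : E →L[ℝ] E) : adj A = ContinuousLinearMap.adjoint A := rfl

@[simp] theorem inner_adj (A : E →L[ℝ] E) (u v : E) : ⟪adj A u, v⟫ = ⟪u, A v⟫ :=
  ContinuousLinearMap.adjoint_inner_left A v u

@[simp] theorem inner_adj' (A : E →L[ℝ] E) (u v : E) : ⟪u, adj A v⟫ = ⟪A u, v⟫ :=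
  ContinuousLinearMap.adjoint_inner_right A u v

/-- Points of differentiability. -/
def DS (h : E → ℝ) : Set E := {x | DifferentiableAt ℝ h x}

/-- Points of second order differentiability in the sense of Alexandrov. -/
def AG (h : E → ℝ) : Set E :=
  {x | DifferentiableAt ℝ h x ∧ DifferentiableWithinAt ℝ (fderiv ℝ h) (DS h) x}

/-- The gradient. -/
noncomputable def gr (h : E → ℝ) (x : E) : E := rz (fderiv ℝ h x)

@[simp] theorem inner_gr (h : E → ℝ) (x v : E) : ⟪gr h x, v⟫ = fderiv ℝ h x v := by simp [gr]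

omit [FiniteDimensional ℝ E] in
theorem convex_fderiv_le {h : E → ℝ} (hc : ConvexOn ℝ univ h) {x : E}
    (hx : DifferentiableAt ℝ h x) (y : E) : h x + fderiv ℝ h x (y - x) ≤ h y := by
  have h1 : ConvexOn ℝ univ (h ∘ (AffineMap.lineMap x y : ℝ →ᵃ[ℝ] E)) := by
    simpa using hc.comp_affineMap (AffineMap.lineMap x y : ℝ →ᵃ[ℝ] E)
  have h2 : HasDerivAt (fun t : ℝ => (AffineMap.lineMap x y t : E)) (y - x) 0 :=
    AffineMap.hasDerivAt_lineMap
  have h3 : HasDerivAt (h ∘ (AffineMap.lineMap x y : ℝ →ᵃ[ℝ] E)) (fderiv ℝ h x (y - x)) 0 := by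
    refine HasFDerivAt.comp_hasDerivAt (0 : ℝ) ?_ h2
    simpa using hx.hasFDerivAt
  have := h1.le_slope_of_hasDerivAt (mem_univ 0) (mem_univ 1) zero_lt_one h3
  simp [slope] at this
  rw [map_sub]
  linarith

theorem convex_gr_mono {h : E → ℝ} (hc : ConvexOn ℝ univ h) {x y : E} (hx : x ∈ DS h)
    (hy : y ∈ DS h) : 0 ≤ ⟪gr h y - gr h x, y - x⟫ := by
  have h1 := convex_fderiv_le hc hx y
  have h2 := convex_fderiv_le hc hy x
  rw [← neg_sub y x, map_neg] at h2
  rw [inner_sub_left, inner_gr, inner_gr]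
  linarith

theorem convex_LL {h : E → ℝ} (hc : ConvexOn ℝ univ h) (x : E) : LL h x := by
  obtain ⟨K, t, ht, hK⟩ := hc.locallyLipschitzOn isOpen_univ (mem_univ x)
  exact ⟨K, t, by simpa using ht, hK⟩

theorem convex_fderiv_tendsto {h : E → ℝ} (hc : ConvexOn ℝ univ h) {x : E} (hx : x ∈ DS h) :
    Tendsto (fderiv ℝ h) (𝓝[DS h] x) (𝓝 (fderiv ℝ h x)) := by
  obtain ⟨K, t, ht, hK⟩ := convex_LL hc x
  rw [Metric.tendsto_nhds]
  intro ε hε
  have hη : 0 < ε / 4 := by positivity
  have a1 := (DifferentiableAt.hasFDerivAt hx).isLittleO.def hη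
  obtain ⟨δ, hδ, hb⟩ := Metric.mem_nhds_iff.1 (a1.and ht)
  have hρ : 0 < min (δ / 4) (ε / 4 * (δ / 2) / (2 * K + 1)) := by positivity
  filter_upwards [mem_nhdsWithin_of_mem_nhds (ball_mem_nhds x hρ), self_mem_nhdsWithin] with
    y hy hyD
  have hy' : ‖y - x‖ < min (δ / 4) (ε / 4 * (δ / 2) / (2 * K + 1)) := by
    simpa [dist_eq_norm] using hy
  have y1 : ‖y - x‖ < δ / 4 := hy'.trans_le (min_le_left _ _)
  have y2 : ‖y - x‖ * (2 * K + 1) < ε / 4 * (δ / 2) :=
    (lt_div_iff₀ (by positivity)).1 (hy'.trans_le (min_le_right _ _))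
  have key : ∀ v : E, ‖v‖ = 1 → (fderiv ℝ h y - fderiv ℝ h x) v ≤ ε / 2 := by
    intro v hv
    have nv : ‖(δ / 2) • v‖ = δ / 2 := by rw [norm_smul_of_nonneg (by positivity), hv, mul_one]
    have m0 : x ∈ ball x δ := mem_ball_self hδ
    have m1 : y ∈ ball x δ := by rw [mem_ball, dist_eq_norm]; linarith
    have m2 : x + (δ / 2) • v ∈ ball x δ := by
      rw [mem_ball, dist_eq_norm, add_sub_cancel_left, nv]; linarith
    have m3 : y + (δ / 2) • v ∈ ball x δ := by
      rw [mem_ball, dist_eq_norm]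
      have : y + (δ / 2) • v - x = (y - x) + (δ / 2) • v := by abel
      rw [this]
      have := norm_add_le (y - x) ((δ / 2) • v)
      linarith
    have b1 := convex_fderiv_le hc hyD (y + (δ / 2) • v)
    rw [add_sub_cancel_left, map_smul, smul_eq_mul] at b1
    have b2 := (hb m2).1
    simp only [add_sub_cancel_left, map_smul, smul_eq_mul, nv, Real.norm_eq_abs] at b2
    have b3 := hK.dist_le_mul _ (hb m3).2 _ (hb m2).2
    have b4 := hK.dist_le_mul _ (hb m1).2 _ (hb m0).2
    rw [dist_add_right, Real.dist_eq, dist_eq_norm] at b3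
    rw [Real.dist_eq, dist_eq_norm] at b4
    have c2 := (abs_le.1 b2).2
    have c3 := (abs_le.1 b3).2
    have c4 := (abs_le.1 b4).1
    rw [_root_.sub_apply]
    have : δ / 2 * (fderiv ℝ h y v - fderiv ℝ h x v) ≤ δ / 2 * (ε / 2) := by
      nlinarith [norm_nonneg (y - x)]
    exact le_of_mul_le_mul_left this (by positivity)
  rw [dist_eq_norm]
  refine lt_of_le_of_lt (ContinuousLinearMap.opNorm_le_of_unit_norm (C := ε / 2) (by positivity)
    fun v hv => ?_) (by linarith)
  have h1 := key v hv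
  have h2 := key (-v) (by rw [norm_neg, hv])
  rw [map_neg] at h2
  rw [Real.norm_eq_abs, abs_le]
  constructor <;> linarith

variable [MeasurableSpace E] [BorelSpace E] {μ : Measure E} [Measure.IsAddHaarMeasure μ]

theorem convex_ae_DS {h : E → ℝ} (hc : ConvexOn ℝ univ h) : ∀ᵐ x ∂μ, x ∈ DS h := by
  have := ae_differentiableAt_of_locally (μ := μ) (U := univ) fun x _ => convex_LL hc x
  filter_upwards [this] with x hx using hx (mem_univ x)

theorem convex_full {h : E → ℝ} (hc : ConvexOn ℝ univ h) : Full μ (DS h) univ := by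
  filter_upwards [convex_ae_DS (μ := μ) hc] with x hx _ using hx

/-- **Alexandrov's theorem**. -/
theorem alexandrov {h : E → ℝ} (hc : ConvexOn ℝ univ h) : ∀ᵐ x ∂μ, x ∈ AG h := by
  set m : E → E := fun x => x + gr h x with hm
  have hexp : ∀ x ∈ DS h, ∀ y ∈ DS h, ‖y - x‖ ≤ ‖m y - m x‖ := by
    intro x hx y hy
    have h1 := convex_gr_mono hc hx hy
    have h2 : m y - m x = (y - x) + (gr h y - gr h x) := by simp only [hm]; abel
    have h3 : ‖y - x‖ * ‖y - x‖ ≤ ‖m y - m x‖ * ‖y - x‖ := by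
      refine le_trans ?_ (real_inner_le_norm _ _)
      rw [h2, inner_add_left, real_inner_self_eq_norm_mul_norm]
      linarith
    rcases (norm_nonneg (y - x)).eq_or_lt with h0 | h0
    · rw [← h0]; exact norm_nonneg _
    · exact le_of_mul_le_mul_right h3 h0
  have hinj : InjOn m (DS h) := fun x hx y hy hxy => by
    have := hexp x hx y hy
    rw [hxy, sub_self, norm_zero, norm_le_zero_iff, sub_eq_zero] at this
    exact this.symm
  have hl : LipschitzOnWith 1 (Function.invFunOn m (DS h)) (m '' DS h) := by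
    refine LipschitzOnWith.of_dist_le_mul ?_
    rintro _ ⟨x, hx, rfl⟩ _ ⟨y, hy, rfl⟩
    rw [hinj.leftInvOn_invFunOn hx, hinj.leftInvOn_invFunOn hy, dist_eq_norm, dist_eq_norm]
    simpa using hexp y hy x hx
  obtain ⟨r, hr, hrr⟩ := hl.extend_finite_dimension
  have hrm : ∀ x ∈ DS h, r (m x) = x := fun x hx => by
    rw [← hrr (mem_image_of_mem m hx), hinj.leftInvOn_invFunOn hx]
  have z1 : μ (r '' {ζ | ¬DifferentiableAt ℝ r ζ}) = 0 :=
    null_image hr.lipschitzOnWith (ae_iff.1 hr.ae_differentiableAt)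
  have z2 : μ (r '' {ζ | DifferentiableAt ℝ r ζ ∧ (fderiv ℝ r ζ).det = 0}) = 0 :=
    addHaar_image_eq_zero_of_det_fderivWithin_eq_zero μ (f' := fderiv ℝ r)
      (fun x hx => hx.1.hasFDerivAt.hasFDerivWithinAt) fun x hx => hx.2
  filter_upwards [convex_ae_DS (μ := μ) hc, measure_eq_zero_iff_ae_notMem.1 z1,
    measure_eq_zero_iff_ae_notMem.1 z2] with x hx h1 h2
  have d1 : DifferentiableAt ℝ r (m x) := by
    by_contra hcon
    exact h1 ⟨m x, hcon, hrm x hx⟩
  have d2 : (fderiv ℝ r (m x)).det ≠ 0 := fun hcon => h2 ⟨m x, ⟨d1, hcon⟩, hrm x hx⟩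
  have t1 : Tendsto m (𝓝[DS h] x) (𝓝[univ] (m x)) := by
    rw [nhdsWithin_univ]
    exact (tendsto_nhdsWithin_of_tendsto_nhds tendsto_id).add
      ((rz.continuous.tendsto _).comp (convex_fderiv_tendsto hc hx))
  have d3 := HasFDerivWithinAt.of_local_left_inverse (f := r)
    (f' := (fderiv ℝ r (m x)).toContinuousLinearEquivOfDetNeZero d2) t1
    (by simpa using d1.hasFDerivAt) hx
    (by filter_upwards [self_mem_nhdsWithin] with y hy using hrm y hy)
  refine ⟨hx, ?_⟩
  have d4 : DifferentiableWithinAt ℝ (fun y => rl (m y - y)) (DS h) x :=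
    rl.differentiableAt.comp_differentiableWithinAt x
      (d3.differentiableWithinAt.sub differentiableWithinAt_id)
  refine d4.congr (fun y _ => ?_) ?_ <;> simp [hm, gr]

omit [MeasurableSpace E] [BorelSpace E] in
theorem AG.hasFDerivWithinAt_gr {h : E → ℝ} {x : E} (hx : x ∈ AG h) :
    HasFDerivWithinAt (gr h) (fderivWithin ℝ (gr h) (DS h) x) (DS h) x :=
  (rz.differentiableAt.comp_differentiableWithinAt x hx.2).hasFDerivWithinAt

include μ in
theorem hess_nonneg {h : E → ℝ} (hc : ConvexOn ℝ univ h) {x : E} (hx : x ∈ DS h)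
    {A : E →L[ℝ] E} (hA : HasFDerivWithinAt (gr h) A (DS h) x) (u : E) : 0 ≤ ⟪A u, u⟫ := by
  have hd := (convex_full (μ := μ) hc).dn isOpen_univ (mem_univ x)
  exact hd.mono_nonneg hA (hasFDerivWithinAt_id x _) (fun y hy => convex_gr_mono hc hx hy) u

include μ in
theorem hess_symm {h : E → ℝ} (hc : ConvexOn ℝ univ h) {x : E}
    {A : E →L[ℝ] E} (hA : HasFDerivWithinAt (gr h) A (DS h) x) (u v : E) :
    ⟪A u, v⟫ = ⟪u, A v⟫ := by
  have h1 : HasFDerivWithinAt (fun y => rl (gr h y)) (rl.comp A) (DS h) x :=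
    rl.hasFDerivAt.comp_hasFDerivWithinAt x hA
  have := second_symm (convex_LL hc x) (convex_full (μ := μ) hc) isOpen_univ (mem_univ x)
    (g' := fun y => rl (gr h y)) (fun y hy => by
      simpa [gr] using (DifferentiableAt.hasFDerivAt hy)) h1 u v
  simpa [real_inner_comm] using this

end Vale.Agent.P084
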