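import Vale.Agent.P084.Tools

/-! Averaged mean value estimates for Lipschitz functions and symmetry of second derivatives. -/

open MeasureTheory Filter Topology Set Metric
open scoped NNReal ENNReal

namespace Vale.Agent.P084

variable {V W : Type*} [NormedAddCommGroup V] [NormedSpace ℝ V] [FiniteDimensional ℝ V]
  [MeasurableSpace V] [BorelSpace V] {μ : Measure V} [Measure.IsAddHaarMeasure μ]
  [NormedAddCommGroup W] [NormedSpace ℝ W] [FiniteDimensional ℝ W]

theorem hasDerivAt_avg {g : V → W} {K : ℝ≥0} (hg : LipschitzWith K g) (x : V) (r : ℝ) (e : V)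
    (t : ℝ) :
    HasDerivAt (fun s : ℝ => ∫ y in closedBall x r, g (y + s • e) ∂μ)
      (∫ y in closedBall x r, fderiv ℝ g (y + t • e) e ∂μ) t := by
  borelize W
  have hfin : μ (closedBall x r) < ∞ := (isCompact_closedBall x r).measure_lt_top
  have : IsFiniteMeasure (μ.restrict (closedBall x r)) := ⟨by simpa using hfin⟩
  have hc : ∀ s : ℝ, Continuous fun y => g (y + s • e) := fun s =>
    hg.continuous.comp (continuous_id.add continuous_const)
  refine (hasDerivAt_integral_of_dominated_loc_of_lip (μ := μ.restrict (closedBall x r))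
    (F := fun s y => g (y + s • e)) (bound := fun _ => K * ‖e‖) (s := univ) univ_mem
    (Eventually.of_forall fun s => (hc s).aestronglyMeasurable)
    ((hc t).continuousOn.integrableOn_compact (isCompact_closedBall x r))
    (((measurable_fderiv_apply_const ℝ g e).comp (measurable_add_const _)).aestronglyMeasurable)
    (Eventually.of_forall fun y => ?_) (integrable_const _) ?_).2
  · refine LipschitzOnWith.of_dist_le_mul fun a _ b _ => ?_
    have h1 := hg.dist_le_mul (y + a • e) (y + b • e)
    have h2 : dist (y + a • e) (y + b • e) = ‖e‖ * dist a b := by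
      rw [dist_add_left, dist_eq_norm, ← sub_smul, norm_smul, dist_eq_norm, mul_comm]
    rw [h2] at h1
    rw [Real.coe_nnabs, abs_of_nonneg (by positivity)]
    linarith
  · have h1 : ∀ᵐ y ∂μ, DifferentiableAt ℝ g (y + t • e) :=
      (measurePreserving_add_right μ (t • e)).quasiMeasurePreserving.ae hg.ae_differentiableAt
    refine ae_restrict_of_ae ?_
    filter_upwards [h1] with y hy
    have h2 : HasDerivAt (fun s : ℝ => y + s • e) e t := by
      simpa using ((hasDerivAt_id t).smul_const e).const_add y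
    exact hy.hasFDerivAt.comp_hasDerivAt t h2

/-- Averaged mean value inequality. -/
theorem avg_mean_value {g : V → W} {K : ℝ≥0} (hg : LipschitzWith K g) (x : V) (r : ℝ) (e : V)
    (L : W) (C : ℝ)
    (h : ∀ t ∈ Icc (0 : ℝ) 1, ∀ᵐ y ∂μ, y ∈ closedBall x r → ‖fderiv ℝ g (y + t • e) e - L‖ ≤ C) :
    ‖(∫ y in closedBall x r, (g (y + e) - g y) ∂μ) - μ.real (closedBall x r) • L‖ ≤
      C * μ.real (closedBall x r) := by
  borelize W
  have hfin : μ (closedBall x r) < ∞ := (isCompact_closedBall x r).measure_lt_top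
  have : IsFiniteMeasure (μ.restrict (closedBall x r)) := ⟨by simpa using hfin⟩
  set m := μ.real (closedBall x r) with hm
  have hd : ∀ t : ℝ, HasDerivAt (fun s : ℝ => (∫ y in closedBall x r, g (y + s • e) ∂μ) - s • m • L)
      ((∫ y in closedBall x r, fderiv ℝ g (y + t • e) e ∂μ) - m • L) t := by
    intro t
    have := (hasDerivAt_avg (μ := μ) hg x r e t).fun_sub ((hasDerivAt_id t).smul_const (m • L))
    simpa using this
  have hb : ∀ t ∈ Ico (0 : ℝ) 1,
      ‖(∫ y in closedBall x r, fderiv ℝ g (y + t • e) e ∂μ) - m • L‖ ≤ C * m := by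
    intro t ht
    have hi : IntegrableOn (fun y => fderiv ℝ g (y + t • e) e) (closedBall x r) μ := by
      refine Integrable.of_bound (C := K * ‖e‖)
        (((measurable_fderiv_apply_const ℝ g e).comp
          (measurable_add_const _)).aestronglyMeasurable) (Eventually.of_forall fun y => ?_)
      exact ((fderiv ℝ g (y + t • e)).le_opNorm e).trans
        (mul_le_mul_of_nonneg_right (norm_fderiv_le_of_lipschitz ℝ hg) (norm_nonneg _))
    have e1 : (∫ y in closedBall x r, fderiv ℝ g (y + t • e) e ∂μ) - m • L =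
        ∫ y in closedBall x r, (fderiv ℝ g (y + t • e) e - L) ∂μ := by
      rw [integral_sub hi (integrable_const _), setIntegral_const]
    rw [e1]
    exact norm_setIntegral_le_of_norm_le_const_ae' hfin (h t (Ico_subset_Icc_self ht))
  have key := norm_image_sub_le_of_norm_deriv_le_segment_01'
    (fun t _ => (hd t).hasDerivWithinAt) hb
  have hc : ∀ v : V, IntegrableOn (fun y => g (y + v)) (closedBall x r) μ := fun v =>
    (hg.continuous.comp (continuous_id.add continuous_const)).continuousOn.integrableOn_compact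
      (isCompact_closedBall x r)
  have h0 : IntegrableOn g (closedBall x r) μ :=
    hg.continuous.continuousOn.integrableOn_compact (isCompact_closedBall x r)
  rw [integral_sub (hc e) h0]
  simp only [one_smul, zero_smul, add_zero, sub_zero] at key
  convert key using 2
  abel

/-- A Lipschitz function with a.e. vanishing directional derivative is constant along lines. -/
theorem eq_of_fderiv_eq_zero {g : V → W} {K : ℝ≥0} (hg : LipschitzWith K g) {U : Set V}
    (hU : IsOpen U) {x e : V} (hseg : ∀ t ∈ Icc (0 : ℝ) 1, x + t • e ∈ U)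
    (h0 : ∀ᵐ y ∂μ, y ∈ U → fderiv ℝ g y e = 0) : g (x + e) = g x := by
  have hcomp : IsCompact ((fun t : ℝ => x + t • e) '' Icc 0 1) :=
    isCompact_Icc.image (by fun_prop)
  obtain ⟨ρ, hρ, hρU⟩ := hcomp.exists_cthickening_subset_open hU
    (by rintro _ ⟨t, ht, rfl⟩; exact hseg t ht)
  have key : ∀ r, 0 < r → r ≤ ρ → ‖g (x + e) - g x‖ ≤ 2 * K * r := by
    intro r hr hrρ
    have hfin : μ (closedBall x r) < ∞ := (isCompact_closedBall x r).measure_lt_top
    have : IsFiniteMeasure (μ.restrict (closedBall x r)) := ⟨by simpa using hfin⟩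
    have hpos : 0 < μ.real (closedBall x r) :=
      ENNReal.toReal_pos (measure_closedBall_pos μ x hr).ne' hfin.ne
    have h1 := avg_mean_value (μ := μ) hg x r e 0 0 (fun t ht => by
      have : ∀ᵐ y ∂μ, y + t • e ∈ U → fderiv ℝ g (y + t • e) e = 0 :=
        (measurePreserving_add_right μ (t • e)).quasiMeasurePreserving.ae h0
      filter_upwards [this] with y hy hyb
      rw [hy, sub_zero, norm_zero]
      refine hρU (mem_cthickening_of_dist_le _ (x + t • e) _ _ ⟨t, ht, rfl⟩ ?_)
      rw [dist_add_right]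
      exact (mem_closedBall.1 hyb).trans hrρ)
    rw [smul_zero, sub_zero, zero_mul, norm_le_zero_iff] at h1
    have hi : IntegrableOn (fun y => g (y + e) - g y) (closedBall x r) μ :=
      ((hg.continuous.comp (continuous_id.add continuous_const)).sub
        hg.continuous).continuousOn.integrableOn_compact (isCompact_closedBall x r)
    have h2 : μ.real (closedBall x r) • (g (x + e) - g x) =
        ∫ y in closedBall x r, ((g (x + e) - g x) - (g (y + e) - g y)) ∂μ := by
      rw [integral_sub (integrable_const _) hi, setIntegral_const, h1, sub_zero]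
    have h3 : ‖∫ y in closedBall x r, ((g (x + e) - g x) - (g (y + e) - g y)) ∂μ‖ ≤
        2 * K * r * μ.real (closedBall x r) := by
      refine norm_setIntegral_le_of_norm_le_const hfin fun y hy => ?_
      have a1 := hg.dist_le_mul (x + e) (y + e)
      have a2 := hg.dist_le_mul x y
      rw [dist_add_right] at a1
      have a3 : dist x y ≤ r := by rw [dist_comm]; exact mem_closedBall.1 hy
      rw [dist_eq_norm] at a1
      rw [dist_eq_norm (g x)] at a2
      have : g (x + e) - g x - (g (y + e) - g y) = (g (x + e) - g (y + e)) - (g x - g y) := by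
        abel
      rw [this]
      have a4 := norm_sub_le (g (x + e) - g (y + e)) (g x - g y)
      have a5 : (K : ℝ) * dist x y ≤ K * r := by gcongr
      linarith
    rw [← h2, norm_smul_of_nonneg hpos.le, mul_comm] at h3
    exact le_of_mul_le_mul_right h3 hpos
  rw [← sub_eq_zero, ← norm_le_zero_iff]
  refine le_of_forall_pos_le_add fun ε hε => ?_
  have hK : (0 : ℝ) < 2 * K + 1 := by positivity
  have := key (min ρ (ε / (2 * K + 1))) (lt_min hρ (div_pos hε hK)) (min_le_left _ _)
  have h2 : (2 * K : ℝ) * min ρ (ε / (2 * K + 1)) ≤ (2 * K + 1) * (ε / (2 * K + 1)) :=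
    mul_le_mul (by linarith) (min_le_right _ _) (lt_min hρ (div_pos hε hK)).le hK.le
  rw [mul_div_cancel₀ _ hK.ne'] at h2
  linarith

/-- Locally Lipschitz near a point. -/
def LL (g : V → W) (x : V) : Prop := ∃ K, ∃ t ∈ 𝓝 x, LipschitzOnWith K g t

omit [NormedSpace ℝ V] [FiniteDimensional ℝ V] [MeasurableSpace V] [BorelSpace V] in
theorem LL.exists_global {g : V → W} {x : V} (h : LL g x) :
    ∃ (K : ℝ≥0) (g₁ : V → W) (δ : ℝ), 0 < δ ∧ LipschitzWith K g₁ ∧ EqOn g g₁ (ball x δ) := by
  obtain ⟨K, t, ht, hK⟩ := h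
  obtain ⟨δ, hδ, hb⟩ := Metric.mem_nhds_iff.1 ht
  obtain ⟨g₁, h1, h2⟩ := (hK.mono hb).extend_finite_dimension
  exact ⟨_, g₁, δ, hδ, h1, h2⟩

/-- Locally Lipschitz version, on a convex open set. -/
theorem eq_of_hasFDerivAt_zero {g : V → W} {U : Set V} (hU : IsOpen U) (hg : ∀ x ∈ U, LL g x)
    {e : V} (h0 : ∀ᵐ y ∂μ, y ∈ U → ∃ g' : V →L[ℝ] W, HasFDerivAt g g' y ∧ g' e = 0) {x : V}
    (hseg : ∀ t ∈ Icc (0 : ℝ) 1, x + t • e ∈ U) : g (x + e) = g x := by
  have hloc : ∀ t ∈ Icc (0 : ℝ) 1, ∀ᶠ s in 𝓝 t, g (x + s • e) = g (x + t • e) := by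
    intro t ht
    obtain ⟨K, g₁, δ, hδ, h1, h2⟩ := (hg _ (hseg t ht)).exists_global
    have hO : IsOpen (ball (x + t • e) δ ∩ U) := isOpen_ball.inter hU
    obtain ⟨ρ, hρ, hb⟩ := Metric.isOpen_iff.1 hO _ ⟨mem_ball_self hδ, hseg t ht⟩
    have hc : Tendsto (fun s : ℝ => (s - t) • e) (𝓝 t) (𝓝 0) := by
      have : Continuous fun s : ℝ => (s - t) • e := by fun_prop
      simpa using this.tendsto t
    filter_upwards [hc.eventually (ball_mem_nhds (0 : V) hρ)] with s hs
    have hs' : ‖(s - t) • e‖ < ρ := by simpa using hs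
    have hin : ∀ u ∈ Icc (0 : ℝ) 1, x + t • e + u • (s - t) • e ∈ ball (x + t • e) ρ := by
      intro u hu
      rw [mem_ball, dist_eq_norm, add_sub_cancel_left, norm_smul, Real.norm_of_nonneg hu.1]
      nlinarith [hu.1, hu.2, norm_nonneg ((s - t) • e)]
    have h3 := eq_of_fderiv_eq_zero (μ := μ) h1 isOpen_ball hin (by
      filter_upwards [h0] with y hy hyb
      obtain ⟨g', hg', hge⟩ := hy (hb hyb).2
      have : HasFDerivAt g₁ g' y := hg'.congr_of_eventuallyEq (by
        filter_upwards [isOpen_ball.mem_nhds (hb hyb).1] with z hz using (h2 hz).symm)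
      rw [this.fderiv, map_smul, hge, smul_zero])
    have e1 : x + t • e + (s - t) • e = x + s • e := by rw [sub_smul]; abel
    have m1 := (hb (hin 1 ⟨zero_le_one, le_rfl⟩)).1
    rw [one_smul, e1] at m1
    rw [e1] at h3
    rw [h2 m1, h2 (mem_ball_self hδ), h3]
  have hd : ∀ t ∈ Icc (0 : ℝ) 1, HasDerivAt (fun s : ℝ => g (x + s • e)) 0 t := fun t ht =>
    (hasDerivAt_const t (g (x + t • e))).congr_of_eventuallyEq (hloc t ht)
  have := constant_of_has_deriv_right_zero (f := fun s : ℝ => g (x + s • e)) (a := 0) (b := 1)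
    (fun t ht => (hd t ht).continuousAt.continuousWithinAt)
    (fun t ht => (hd t (Ico_subset_Icc_self ht)).hasDerivWithinAt) 1 ⟨zero_le_one, le_rfl⟩
  simpa using this

theorem symm_aux {g : V → W} {K : ℝ≥0} (hg : LipschitzWith K g) {s : Set V} {x : V} {δ η : ℝ}
    {g' : V → V →L[ℝ] W} {B : V →L[ℝ] V →L[ℝ] W} (hη : 0 ≤ η)
    (hs : ∀ᵐ y ∂μ, y ∈ ball x δ → y ∈ s)
    (hd : ∀ y ∈ s, y ∈ ball x δ → HasFDerivAt g (g' y) y)
    (hB : ∀ y ∈ s, y ∈ ball x δ → ‖g' y - g' x - B (y - x)‖ ≤ η * ‖y - x‖)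
    (h k : V) {r R : ℝ} (hR : r + ‖h‖ + ‖k‖ ≤ R) (hRδ : R < δ) :
    ‖(∫ y in closedBall x r, ((g (y + h + k) - g (y + h)) - (g (y + k) - g y)) ∂μ) -
      μ.real (closedBall x r) • B k h‖ ≤ 2 * η * R * ‖h‖ * μ.real (closedBall x r) := by
  have hl : LipschitzWith (K + K) fun y => g (y + k) - g y :=
    (by simpa [Function.comp_def] using hg.comp (isometry_add_right k).lipschitz : LipschitzWith K
      fun y => g (y + k)).sub hg
  refine avg_mean_value (μ := μ) hl x r h (B k h) _ fun t ht => ?_
  have a1 : ∀ᵐ y ∂μ, y + t • h ∈ ball x δ → y + t • h ∈ s :=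
    (measurePreserving_add_right μ (t • h)).quasiMeasurePreserving.ae hs
  have a2 : ∀ᵐ y ∂μ, y + (t • h + k) ∈ ball x δ → y + (t • h + k) ∈ s :=
    (measurePreserving_add_right μ (t • h + k)).quasiMeasurePreserving.ae hs
  filter_upwards [a1, a2] with y h1 h2 hy
  have hy' : ‖y - x‖ ≤ r := by simpa [dist_eq_norm] using hy
  have n0 : ‖t • h‖ ≤ ‖h‖ := by
    rw [norm_smul, Real.norm_of_nonneg ht.1]; nlinarith [ht.1, ht.2, norm_nonneg h]
  have n1 : ‖y + t • h - x‖ ≤ R := by
    have : y + t • h - x = (y - x) + t • h := by abel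
    rw [this]; have := norm_add_le (y - x) (t • h); linarith [norm_nonneg k]
  have n2 : ‖y + t • h + k - x‖ ≤ R := by
    have : y + t • h + k - x = (y - x) + t • h + k := by abel
    rw [this]; have := norm_add₃_le (a := y - x) (b := t • h) (c := k); linarith
  have m1 : y + t • h ∈ ball x δ := by rw [mem_ball, dist_eq_norm]; linarith
  have m2 : y + t • h + k ∈ ball x δ := by rw [mem_ball, dist_eq_norm]; linarith
  rw [← add_assoc] at h2
  have d1 := hd _ (h1 m1) m1
  have d2 := hd _ (h2 m2) m2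
  have d3 : HasFDerivAt (fun y => g (y + k) - g y) (g' (y + t • h + k) - g' (y + t • h))
      (y + t • h) := by
    refine HasFDerivAt.sub ?_ d1
    simpa [Function.comp_def] using
      d2.comp (y + t • h) ((hasFDerivAt_id (y + t • h)).add_const k)
  rw [d3.fderiv]
  have b1 := hB _ (h1 m1) m1
  have b2 := hB _ (h2 m2) m2
  have e1 : (g' (y + t • h + k) - g' (y + t • h)) h - B k h =
      ((g' (y + t • h + k) - g' x - B (y + t • h + k - x)) -
        (g' (y + t • h) - g' x - B (y + t • h - x))) h := by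
    have : y + t • h + k - x = (y + t • h - x) + k := by abel
    rw [this, map_add]
    simp only [_root_.sub_apply, _root_.add_apply]
    abel
  rw [e1]
  refine (ContinuousLinearMap.le_opNorm _ _).trans ?_
  have b3 := norm_sub_le (g' (y + t • h + k) - g' x - B (y + t • h + k - x))
    (g' (y + t • h) - g' x - B (y + t • h - x))
  have c1 : η * ‖y + t • h - x‖ ≤ η * R := by gcongr
  have c2 : η * ‖y + t • h + k - x‖ ≤ η * R := by gcongr
  have : ‖g' (y + t • h + k) - g' x - B (y + t • h + k - x) -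
    (g' (y + t • h) - g' x - B (y + t • h - x))‖ ≤ 2 * η * R := by linarith
  gcongr

/-- Symmetry of the second derivative, for a locally Lipschitz function whose derivative is
differentiable at the point along a full set. -/
theorem second_symm {g : V → W} {x : V} (hg : LL g x) {s U : Set V} (hs : Full μ s U)
    (hU : IsOpen U) (hx : x ∈ U) {g' : V → V →L[ℝ] W} {B : V →L[ℝ] V →L[ℝ] W}
    (hd : ∀ y ∈ s, HasFDerivAt g (g' y) y) (hB : HasFDerivWithinAt g' B s x) (h k : V) :
    B h k = B k h := by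
  obtain ⟨K, g₁, δ₀, hδ₀, h1, h2⟩ := hg.exists_global
  set R := 1 + ‖h‖ + ‖k‖ with hR
  have hRp : 0 < R := by positivity
  have key : ∀ η : ℝ, 0 < η → ‖B h k - B k h‖ ≤ η * (4 * R * R) := by
    intro η hη
    have a1 := hB.isLittleO.def hη
    rw [eventually_nhdsWithin_iff] at a1
    obtain ⟨δ, hδ, hb⟩ := Metric.mem_nhds_iff.1 ((a1.and (hU.mem_nhds hx)).and
      (ball_mem_nhds x hδ₀))
    set ε := δ / (2 * R) with hε
    have hεp : 0 < ε := by positivity
    have hεR : ε * R < δ := by
      have : ε * R = δ / 2 := by rw [hε]; field_simp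
      linarith
    have hs' : ∀ᵐ y ∂μ, y ∈ ball x δ → y ∈ s := by
      filter_upwards [hs] with y hy hyb using hy (hb hyb).1.2
    have hd' : ∀ y ∈ s, y ∈ ball x δ → HasFDerivAt g₁ (g' y) y := fun y hy hyb =>
      (hd y hy).congr_of_eventuallyEq (by
        filter_upwards [isOpen_ball.mem_nhds (hb hyb).2] with z hz using (h2 hz).symm)
    have hB' : ∀ y ∈ s, y ∈ ball x δ → ‖g' y - g' x - B (y - x)‖ ≤ η * ‖y - x‖ :=
      fun y hy hyb => (hb hyb).1.1 hy
    have nh : ‖ε • h‖ = ε * ‖h‖ := norm_smul_of_nonneg hεp.le _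
    have nk : ‖ε • k‖ = ε * ‖k‖ := norm_smul_of_nonneg hεp.le _
    have s1 := symm_aux h1 hη.le hs' hd' hB' (ε • h) (ε • k) (r := ε) (R := ε * R)
      (by rw [nh, nk, hR]; linarith) hεR
    have s2 := symm_aux h1 hη.le hs' hd' hB' (ε • k) (ε • h) (r := ε) (R := ε * R)
      (by rw [nh, nk, hR]; linarith) hεR
    have hfin : μ (closedBall x ε) < ∞ := (isCompact_closedBall x ε).measure_lt_top
    have hpos : 0 < μ.real (closedBall x ε) :=
      ENNReal.toReal_pos (measure_closedBall_pos μ x hεp).ne' hfin.ne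
    set m := μ.real (closedBall x ε)
    have e1 : (fun y => (g₁ (y + ε • k + ε • h) - g₁ (y + ε • k)) - (g₁ (y + ε • h) - g₁ y)) =
        fun y => (g₁ (y + ε • h + ε • k) - g₁ (y + ε • h)) - (g₁ (y + ε • k) - g₁ y) := by
      funext y
      rw [add_right_comm y (ε • k)]; abel
    rw [e1] at s2
    set I := ∫ y in closedBall x ε,
      ((g₁ (y + ε • h + ε • k) - g₁ (y + ε • h)) - (g₁ (y + ε • k) - g₁ y)) ∂μ
    have e2 : (m * ε * ε) • (B h k - B k h) =
        (I - m • B (ε • k) (ε • h)) - (I - m • B (ε • h) (ε • k)) := by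
      simp only [map_smul, _root_.smul_apply, smul_smul, smul_sub, mul_assoc]
      abel
    have e3 : (m * ε * ε) * ‖B h k - B k h‖ ≤ (m * ε * ε) * (η * (4 * R * R)) := by
      rw [← norm_smul_of_nonneg (by positivity), e2]
      refine (norm_sub_le _ _).trans ((add_le_add s1 s2).trans ?_)
      rw [nh, nk]
      have c1 : ‖h‖ ≤ R := by rw [hR]; linarith [norm_nonneg k]
      have c2 : ‖k‖ ≤ R := by rw [hR]; linarith [norm_nonneg h]
      have : 2 * η * (ε * R) * (ε * ‖h‖) * m + 2 * η * (ε * R) * (ε * ‖k‖) * m =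
          (m * ε * ε) * (η * (2 * R * (‖h‖ + ‖k‖))) := by ring
      rw [this]
      have c3 : 2 * R * (‖h‖ + ‖k‖) ≤ 4 * R * R := by nlinarith
      gcongr
    exact le_of_mul_le_mul_left e3 (by positivity)
  rw [← sub_eq_zero, ← norm_le_zero_iff]
  refine le_of_forall_pos_le_add fun ε hε => ?_
  have hp : 0 < 4 * R * R := by positivity
  have := key (ε / (4 * R * R)) (div_pos hε hp)
  rwa [div_mul_cancel₀ _ hp.ne', ← zero_add ε] at this

end Vale.Agent.P084
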