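import Mathlib

/-! A compact convex set has a relatively interior point fixed by all its linear symmetries. -/

open MeasureTheory Filter Topology Set Metric

namespace Vale.Agent.P084

theorem centroid_aux {W : Type*} [NormedAddCommGroup W] [NormedSpace ℝ W] [FiniteDimensional ℝ W]
    {D : Set W} (hc : IsCompact D) (hv : Convex ℝ D) (hi : (interior D).Nonempty) :
    ∃ c ∈ interior D, ∀ (L : W →L[ℝ] W) (b : W), (fun x => L x + b) '' D = D → L c + b = c := by
  borelize W
  let μ : Measure W := Measure.addHaar
  have hfin : μ D < ⊤ := hc.measure_lt_top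
  have hpos : μ D ≠ 0 := (Measure.measure_pos_of_nonempty_interior μ hi).ne'
  have hm : MeasurableSet D := hc.isClosed.measurableSet
  have : IsFiniteMeasure (μ.restrict D) := ⟨by simpa using hfin⟩
  have hint : IntegrableOn (fun x : W => x) D μ := continuousOn_id.integrableOn_compact hc
  refine ⟨⨍ x in D, x ∂μ, ?_, fun L b hL => ?_⟩
  · obtain ⟨x, hx⟩ := hi
    obtain ⟨r, hr, hb⟩ := Metric.nhds_basis_closedBall.mem_iff.1 (isOpen_interior.mem_nhds hx)
    have hsub : closedBall x r ⊆ D := hb.trans interior_subset
    have e1 : (μ.restrict D).restrict (closedBall x r) = μ.restrict (closedBall x r) := by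
      rw [Measure.restrict_restrict measurableSet_closedBall, inter_eq_left.2 hsub]
    have p1 : μ (closedBall x r) ≠ 0 := (measure_closedBall_pos μ x hr).ne'
    refine hv.average_mem_interior_of_set (μ := μ.restrict D) (t := closedBall x r) ?_
      (ae_restrict_mem hm) hint ?_
    · rwa [Measure.restrict_apply measurableSet_closedBall, inter_eq_left.2 hsub]
    · rw [e1]
      exact hb ((convex_closedBall x r).set_average_mem isClosed_closedBall p1
        (isCompact_closedBall x r).measure_lt_top.ne (ae_restrict_mem measurableSet_closedBall)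
        (hint.mono_set hsub))
  · have e1 : (fun x => L x + b) '' D = (fun x => x + b) '' (L '' D) := by rw [image_image]
    have e2 : μ D = ENNReal.ofReal |L.det| * μ D := by
      conv_lhs => rw [← hL, e1, image_add_right, measure_preimage_add_right,
        Measure.addHaar_image_continuousLinearMap]
    have e3 : ENNReal.ofReal |L.det| = 1 := by
      have : ENNReal.ofReal |L.det| * μ D = 1 * μ D := by rw [one_mul, ← e2]
      exact (ENNReal.mul_left_inj hpos hfin.ne).1 this
    have e4 : |L.det| = 1 := by simpa using e3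
    have hd : L.det ≠ 0 := by intro h; rw [h] at e4; simp at e4
    have hinj : InjOn (fun x => L x + b) D := fun x _ y _ hxy =>
      (L.toContinuousLinearEquivOfDetNeZero hd).injective (by simpa using hxy)
    have e5 := integral_image_eq_integral_abs_det_fderiv_smul μ hm
      (f := fun x => L x + b) (f' := fun _ => L)
      (fun x _ => (L.hasFDerivAt.add_const b).hasFDerivWithinAt) hinj (fun x => x)
    rw [hL, e4] at e5
    simp only [one_smul] at e5
    rw [integral_add (L.integrable_comp hint) (integrable_const _), L.integral_comp_comm hint,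
      setIntegral_const] at e5
    have hr : μ.real D ≠ 0 := ENNReal.toReal_ne_zero.2 ⟨hpos, hfin.ne⟩
    rw [setAverage_eq, map_smul]
    conv_rhs => rw [e5]
    rw [smul_add, smul_smul, inv_mul_cancel₀ hr, one_smul]

theorem exists_centroid {V : Type*} [NormedAddCommGroup V] [NormedSpace ℝ V]
    [FiniteDimensional ℝ V] {D : Set V} (hc : IsCompact D) (hv : Convex ℝ D) (hne : D.Nonempty) :
    ∃ c ∈ D, (∀ g : V →L[ℝ] V, g '' D = D → g c = c) ∧
      ∀ x ∈ D, ∃ l : ℝ, 0 < l ∧ c - l • (x - c) ∈ D := by
  obtain ⟨x₀, hx₀⟩ := hne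
  let s : Set V := (fun x => x - x₀) '' D
  let W : Submodule ℝ V := Submodule.span ℝ s
  let D' : Set W := (fun e : W => x₀ + (e : V)) ⁻¹' D
  have hmem : ∀ x ∈ D, x - x₀ ∈ W := fun x hx => Submodule.subset_span ⟨x, hx, rfl⟩
  have hD' : D' = ((↑) ⁻¹' s : Set W) := by
    ext e
    constructor
    · intro he; exact ⟨_, he, by simp⟩
    · rintro ⟨x, hx, hxe⟩
      change x₀ + (e : V) ∈ D
      rw [← hxe]; simpa using hx
  have hiso : Isometry fun e : W => x₀ + (e : V) :=
    (isometry_add_left x₀).comp isometry_subtype_coe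
  have hc' : IsCompact D' := hiso.isClosedEmbedding.isCompact_preimage hc
  have hv' : Convex ℝ D' := by
    intro a ha b hb α β hα hβ hαβ
    have := hv ha hb hα hβ hαβ
    change x₀ + ((α • a + β • b : W) : V) ∈ D
    convert this using 1
    simp only [Submodule.coe_add, Submodule.coe_smul, smul_add]
    have : x₀ = α • x₀ + β • x₀ := by rw [← add_smul, hαβ, one_smul]
    conv_lhs => rw [this]
    abel
  have h0 : (0 : W) ∈ D' := by change x₀ + ((0 : W) : V) ∈ D; simpa using hx₀
  have hi : (interior D').Nonempty := by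
    rw [hv'.interior_nonempty_iff_affineSpan_eq_top,
      AffineSubspace.affineSpan_eq_top_iff_vectorSpan_eq_top_of_nonempty ℝ W W ⟨0, h0⟩,
      eq_top_iff, ← Submodule.span_span_coe_preimage (R := ℝ) (s := s), ← hD', vectorSpan_def]
    refine Submodule.span_mono fun e he => ?_
    exact ⟨e, he, 0, h0, by simp⟩
  obtain ⟨c, hci, hcfix⟩ := centroid_aux hc' hv' hi
  refine ⟨x₀ + (c : V), (interior_subset hci : c ∈ D'), fun g hg => ?_, fun x hx => ?_⟩
  · have hgD : ∀ x ∈ D, g x ∈ D := fun x hx => hg ▸ mem_image_of_mem g hx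
    have hW : ∀ e ∈ W, (g : V →ₗ[ℝ] V) e ∈ W := by
      intro e he
      have : W ≤ W.comap (g : V →ₗ[ℝ] V) := by
        refine Submodule.span_le.2 ?_
        rintro _ ⟨x, hx, rfl⟩
        change g (x - x₀) ∈ W
        have : g (x - x₀) = (g x - x₀) - (g x₀ - x₀) := by rw [map_sub]; abel
        rw [this]
        exact W.sub_mem (hmem _ (hgD x hx)) (hmem _ (hgD x₀ hx₀))
      exact this he
    let L : W →L[ℝ] W := LinearMap.toContinuousLinearMap ((g : V →ₗ[ℝ] V).restrict hW)
    let b : W := ⟨g x₀ - x₀, hmem _ (hgD x₀ hx₀)⟩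
    have hLb : ∀ e : W, x₀ + ((L e + b : W) : V) = g (x₀ + e) := by
      intro e
      have : ((L e : W) : V) = g e := rfl
      simp only [Submodule.coe_add, this, b, map_add]
      abel
    have := hcfix L b (by
      ext e
      constructor
      · rintro ⟨e', he', rfl⟩
        change x₀ + ((L e' + b : W) : V) ∈ D
        rw [hLb]; exact hgD _ he'
      · intro he
        have he' : x₀ + (e : V) ∈ g '' D := by rw [hg]; exact he
        obtain ⟨y, hy, hye⟩ := he'
        refine ⟨⟨y - x₀, hmem y hy⟩, by change x₀ + (y - x₀) ∈ D; simpa using hy, ?_⟩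
        apply Subtype.ext
        apply add_left_cancel (a := x₀)
        rw [hLb, ← hye]; simp)
    rw [← hLb, this]
  · let e : W := ⟨x - x₀, hmem x hx⟩
    have ht : Tendsto (fun l : ℝ => c - l • (e - c)) (𝓝[>] 0) (𝓝 c) := by
      have : Continuous fun l : ℝ => c - l • (e - c) := by fun_prop
      simpa using (this.tendsto 0).mono_left nhdsWithin_le_nhds
    obtain ⟨l, hl, hl0⟩ := ((ht.eventually (mem_interior_iff_mem_nhds.1 hci)).and
      self_mem_nhdsWithin).exists
    refine ⟨l, hl0, ?_⟩
    have : x₀ + ((c - l • (e - c) : W) : V) ∈ D := hl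
    convert this using 1
    simp only [e, Submodule.coe_sub, Submodule.coe_smul]
    have : x - (x₀ + (c : V)) = x - x₀ - c := by abel
    rw [this]; abel

end Vale.Agent.P084
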