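import Vale.Agent.P084.Good

/-! The correspondence of chords. -/

open MeasureTheory Filter Topology Set Metric Asymptotics
open scoped NNReal ENNReal RealInnerProductSpace

set_option linter.unusedSectionVars false

namespace Vale.Agent.P084

variable {E : Type*} [NormedAddCommGroup E] [InnerProductSpace ℝ E]

/-- Reversal of the direction. -/
def ng (v : E × E) : E × E := (v.1, -v.2)

@[simp] theorem ng_ng (v : E × E) : ng (ng v) = v := by simp [ng]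
@[simp] theorem ng_fst (v : E × E) : (ng v).1 = v.1 := rfl
@[simp] theorem ng_snd (v : E × E) : (ng v).2 = -v.2 := rfl

/-- Reversal as a linear map. -/
noncomputable def ngL : E × E →L[ℝ] E × E :=
  (ContinuousLinearMap.fst ℝ E E).prod (-ContinuousLinearMap.snd ℝ E E)

theorem ngL_apply (v : E × E) : ngL v = ng v := rfl

theorem ng_hasFDerivAt (v : E × E) : HasFDerivAt ng ngL v := (ngL (E := E)).hasFDerivAt

theorem Nm.ng_mem {N : Nm E} {v : E × E} (hv : v ∈ N.U) : ng v ∈ N.U :=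
  ⟨hv.1, neg_ne_zero.2 hv.2⟩

/-- The linear map equal to `T` on the kernel of `ν` and sending `w` to `w'`. -/
noncomputable def Hm (T : E →L[ℝ] E) (ν : E →L[ℝ] ℝ) (w w' : E) : E →L[ℝ] E :=
  T + ν.smulRight ((ν w)⁻¹ • (w' - T w))

theorem Hm_apply (T : E →L[ℝ] E) (ν : E →L[ℝ] ℝ) (w w' k : E) :
    Hm T ν w w' k = T k + ν k • (ν w)⁻¹ • (w' - T w) := rfl

theorem Hm_self {T : E →L[ℝ] E} {ν : E →L[ℝ] ℝ} {w w' : E} (h : ν w ≠ 0) :
    Hm T ν w w' w = w' := by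
  rw [Hm_apply, smul_smul, mul_inv_cancel₀ h]; simp

theorem Hm_ker {T : E →L[ℝ] E} {ν : E →L[ℝ] ℝ} {w w' k : E} (h : ν k = 0) :
    Hm T ν w w' k = T k := by simp [Hm_apply, h]

theorem Hm_inv {T T' : E →L[ℝ] E} {ν ν' : E →L[ℝ] ℝ} {w w' : E} (hT : ∀ k, T' (T k) = k)
    (hν : ∀ k, ν' (T k) = ν k) (h : ν w ≠ 0) (h' : ν' w' ≠ 0) (k : E) :
    Hm T' ν' w' w (Hm T ν w w' k) = k := by
  have h0 : ν (k - (ν k / ν w) • w) = 0 := by
    rw [map_sub, map_smul, smul_eq_mul, div_mul_cancel₀ _ h, sub_self]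
  have e : k = (k - (ν k / ν w) • w) + (ν k / ν w) • w := by abel
  conv_lhs => rw [e, map_add, map_smul, Hm_ker h0, Hm_self h, map_add, map_smul,
    Hm_ker (by rw [hν, h0]), Hm_self h', hT]
  exact e.symm

namespace Pair

variable (P : Pair E)

/-- Exit time. -/
noncomputable def t (v : E × E) : ℝ := P.N.ex v.1 v.2
/-- Rescaled exit point. -/
noncomputable def x (v : E × E) : E := (1 + P.t v) • P.N.z v
/-- Total time. -/
noncomputable def τ (v : E × E) : ℝ := P.t v + P.t (ng v)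
/-- Direction of the image chord. -/
noncomputable def W (v : E × E) : E := (P.τ v)⁻¹ • (P.F (P.N.z v) - P.F (P.N.z (ng v)))
/-- Point on the image chord. -/
noncomputable def Q (v : E × E) : E := P.F (P.N.z v) - P.t v • P.W v
/-- The chord map. -/
noncomputable def Ψ (v : E × E) : E × E := (P.Q v, P.W v)
/-- Derivative of `F` at the exit point. -/
noncomputable def T (v : E × E) : E →L[ℝ] E := fderiv ℝ P.F (P.x v)
/-- Derivative of the norm at the exit point. -/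
noncomputable def ν (v : E × E) : E →L[ℝ] ℝ := fderiv ℝ P.N.p (P.x v)
/-- The corrected derivative. -/
noncomputable def H (v : E × E) : E →L[ℝ] E := Hm (P.T v) (P.ν v) v.2 (P.W v)

variable {P} {v : E × E}

theorem t_pos (hv : v ∈ P.N.U) : 0 < P.t v := Nm.ex_pos hv

theorem τ_pos (hv : v ∈ P.N.U) : 0 < P.τ v := add_pos (t_pos hv) (t_pos (Nm.ng_mem hv))

theorem z_eq (v : E × E) : P.N.z v = v.1 + P.t v • v.2 := rfl

theorem z_ng (v : E × E) : P.N.z (ng v) = v.1 - P.t (ng v) • v.2 := by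
  rw [z_eq]; simp [sub_eq_add_neg]

theorem τ_ng (v : E × E) : P.τ (ng v) = P.τ v := by simp [τ, add_comm]

theorem z_sub (v : E × E) : P.N.z v - P.N.z (ng v) = P.τ v • v.2 := by
  rw [z_ng, z_eq, τ]; module

theorem W_ng (v : E × E) : P.W (ng v) = -P.W v := by
  simp only [W, τ_ng, ng_ng]; rw [← smul_neg, neg_sub]

theorem τ_W (hv : v ∈ P.N.U) : P.τ v • P.W v = P.F (P.N.z v) - P.F (P.N.z (ng v)) := by
  rw [W, smul_smul, mul_inv_cancel₀ (τ_pos hv).ne', one_smul]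

theorem Q_add (v : E × E) : P.Q v + P.t v • P.W v = P.F (P.N.z v) := by simp [Q]

theorem Q_ng (hv : v ∈ P.N.U) : P.Q (ng v) = P.Q v := by
  have := τ_W hv
  rw [τ, add_smul] at this
  rw [Q, Q, W_ng, smul_neg, sub_neg_eq_add, ← sub_eq_zero]
  rw [← sub_eq_zero] at this
  rw [← this]; abel

theorem Ψ_ng (hv : v ∈ P.N.U) : P.Ψ (ng v) = ng (P.Ψ v) := by simp [Ψ, ng, ← Q_ng hv, ← W_ng]

theorem norm_W (hv : v ∈ P.N.U) : P.N'.p (P.W v) = P.N.p v.2 := by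
  have h := τ_pos hv
  rw [W, P.N'.smul (inv_nonneg.2 h.le), P.isoF _ _ ((Nm.z_one hv).trans
    (Nm.z_one (Nm.ng_mem hv)).symm), z_sub, P.N.smul h.le, inv_mul_cancel_left₀ h.ne']

theorem Q_lt (hv : v ∈ P.N.U) : P.N'.p (P.Q v) < 1 := by
  have hp := t_pos hv
  have hm := t_pos (Nm.ng_mem hv)
  have hτ := τ_pos hv
  have z1 := Nm.z_one hv
  have z2 := Nm.z_one (Nm.ng_mem hv)
  have h1 : P.N.p (P.N.z v + P.N.z (ng v)) < 2 := by
    have e : P.τ v • (P.N.z v + P.N.z (ng v)) =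
        P.τ v • v.1 + (P.t v • P.N.z v + P.t (ng v) • P.N.z (ng v)) := by
      rw [z_ng, z_eq, τ]; module
    have a1 := P.N.add_le (P.τ v • v.1) (P.t v • P.N.z v + P.t (ng v) • P.N.z (ng v))
    have a2 := P.N.add_le (P.t v • P.N.z v) (P.t (ng v) • P.N.z (ng v))
    rw [← e, P.N.smul hτ.le, P.N.smul hτ.le] at a1
    rw [P.N.smul hp.le, P.N.smul hm.le, z1, z2] at a2
    have := hv.1
    have a3 : P.τ v = P.t v + P.t (ng v) := rfl
    refine lt_of_mul_lt_mul_left (a := P.τ v) ?_ hτ.le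
    nlinarith
  have h2 : P.N'.p (P.F (P.N.z v) + P.F (P.N.z (ng v))) < 2 := by
    by_contra hcon
    exact absurd (P.transversal z1 z2 (not_lt.1 hcon)) (not_le.2 h1)
  have e0 : P.τ v • P.Q v = P.t (ng v) • P.F (P.N.z v) + P.t v • P.F (P.N.z (ng v)) := by
    rw [Q, smul_sub, smul_comm (P.τ v) (P.t v), τ_W hv, τ]; module
  have f1 : P.N'.p (P.F (P.N.z v)) = 1 := by rw [P.normF, z1]
  have f2 : P.N'.p (P.F (P.N.z (ng v))) = 1 := by rw [P.normF, z2]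
  have a3 : P.τ v = P.t v + P.t (ng v) := rfl
  refine lt_of_mul_lt_mul_left (a := P.τ v) ?_ hτ.le
  rw [← P.N'.smul hτ.le, e0]
  rcases le_total (P.t v) (P.t (ng v)) with h | h
  · have e : P.t (ng v) • P.F (P.N.z v) + P.t v • P.F (P.N.z (ng v)) =
        P.t v • (P.F (P.N.z v) + P.F (P.N.z (ng v))) + (P.t (ng v) - P.t v) • P.F (P.N.z v) := by
      module
    rw [e]
    refine (P.N'.add_le _ _).trans_lt ?_
    rw [P.N'.smul hp.le, P.N'.smul (sub_nonneg.2 h), f1]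
    nlinarith
  · have e : P.t (ng v) • P.F (P.N.z v) + P.t v • P.F (P.N.z (ng v)) =
        P.t (ng v) • (P.F (P.N.z v) + P.F (P.N.z (ng v))) +
          (P.t v - P.t (ng v)) • P.F (P.N.z (ng v)) := by
      module
    rw [e]
    refine (P.N'.add_le _ _).trans_lt ?_
    rw [P.N'.smul hm.le, P.N'.smul (sub_nonneg.2 h), f2]
    nlinarith

theorem Ψ_mem (hv : v ∈ P.N.U) : P.Ψ v ∈ P.symm.N.U := by
  refine ⟨Q_lt hv, fun h => ?_⟩
  have h1 := norm_W hv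
  have h2 : P.W v = 0 := h
  rw [h2, map_zero] at h1
  exact (P.N.pos hv.2).ne h1

theorem t_Ψ (hv : v ∈ P.N.U) : P.symm.t (P.Ψ v) = P.t v :=
  Nm.ex_eq (Q_lt hv) (t_pos hv) (by
    change P.N'.p (P.Q v + P.t v • P.W v) = 1
    rw [Q_add, P.normF, Nm.z_one hv])

theorem z_Ψ (hv : v ∈ P.N.U) : P.symm.N.z (P.Ψ v) = P.F (P.N.z v) := by
  rw [z_eq, t_Ψ hv]; exact Q_add v

theorem x_Ψ (hv : v ∈ P.N.U) : P.symm.x (P.Ψ v) = P.F (P.x v) := by
  rw [x, x, t_Ψ hv, z_Ψ hv, P.homF _ (by linarith [t_pos hv])]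

theorem τ_Ψ (hv : v ∈ P.N.U) : P.symm.τ (P.Ψ v) = P.τ v := by
  rw [τ, τ, ← Ψ_ng hv, t_Ψ hv, t_Ψ (Nm.ng_mem hv)]

theorem W_Ψ (hv : v ∈ P.N.U) : P.symm.W (P.Ψ v) = v.2 := by
  rw [W, τ_Ψ hv, ← Ψ_ng hv, z_Ψ hv, z_Ψ (Nm.ng_mem hv)]
  change (P.τ v)⁻¹ • (P.F' (P.F _) - P.F' (P.F _)) = _
  rw [P.left, P.left, z_sub, smul_smul, inv_mul_cancel₀ (τ_pos hv).ne', one_smul]

theorem Q_Ψ (hv : v ∈ P.N.U) : P.symm.Q (P.Ψ v) = v.1 := by
  rw [Q, W_Ψ hv, t_Ψ hv, z_Ψ hv]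
  change P.F' (P.F _) - _ = _
  rw [P.left, z_eq]; simp

theorem t_LL (hv : v ∈ P.N.U) : LL P.t v := Nm.ex_LL hv

theorem ng_LL (v : E × E) : LL ng v := LL.of_lip (ngL (E := E)).lipschitz v

theorem Fz_LL (hv : v ∈ P.N.U) : LL (fun u => P.F (P.N.z u)) v :=
  (LL.of_lip P.lip _).comp (Nm.z_LL hv)

theorem W_LL (hv : v ∈ P.N.U) : LL P.W v :=
  (((t_LL hv).add ((t_LL (Nm.ng_mem hv)).comp (ng_LL v))).inv (τ_pos hv).ne').smul
    ((Fz_LL hv).sub ((Fz_LL (Nm.ng_mem hv)).comp (g := ng) (ng_LL v)))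

theorem Q_LL (hv : v ∈ P.N.U) : LL P.Q v := (Fz_LL hv).sub ((t_LL hv).smul (W_LL hv))

theorem x_LL (hv : v ∈ P.N.U) : LL P.x v :=
  ((LL.of_lip (LipschitzWith.const (1 : ℝ)) v).add (t_LL hv)).smul (Nm.z_LL hv)

end Pair

end Vale.Agent.P084
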