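import Vale.Agent.P084.Phase

/-! The volume count on phase space. -/

open MeasureTheory Filter Topology Set Metric Asymptotics
open scoped NNReal ENNReal RealInnerProductSpace

set_option linter.unusedSectionVars false

namespace Vale.Agent.P084

theorem null_image_LL {V : Type*} [NormedAddCommGroup V] [NormedSpace ℝ V] [FiniteDimensional ℝ V]
    [MeasurableSpace V] [BorelSpace V] {μ : Measure V} [Measure.IsAddHaarMeasure μ]
    {s : Set V} {g : V → V} (hg : ∀ x ∈ s, LL g x) (hs : μ s = 0) : μ (g '' s) = 0 := by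
  choose! K t ht hK using hg
  obtain ⟨c, hcs, hc, hcov⟩ := TopologicalSpace.countable_cover_nhdsWithin (f := t)
    fun x hx => mem_nhdsWithin_of_mem_nhds (ht x hx)
  refine measure_mono_null (t := ⋃ x ∈ c, g '' (s ∩ t x)) ?_
    ((measure_biUnion_null_iff hc).2 fun x hx => null_image
      ((hK x (hcs hx)).mono inter_subset_right) (measure_mono_null inter_subset_left hs))
  rintro _ ⟨y, hy, rfl⟩
  obtain ⟨x, hx, hyx⟩ := mem_iUnion₂.1 (hcov hy)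
  exact mem_iUnion₂.2 ⟨x, hx, y, ⟨hy, hyx⟩, rfl⟩

theorem measurableSet_inter_preimage {V W : Type*} [TopologicalSpace V] [MeasurableSpace V]
    [OpensMeasurableSpace V] [TopologicalSpace W] [MeasurableSpace W] [BorelSpace W] [Zero W]
    {s : Set V} {t : Set W} {f : V → W} (hs : MeasurableSet s) (hf : ContinuousOn f s)
    (ht : MeasurableSet t) : MeasurableSet (s ∩ f ⁻¹' t) := by
  classical
  have h := hf.measurable_piecewise (g := fun _ => 0) continuousOn_const hs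
  convert hs.inter (h ht) using 1
  ext x
  by_cases hx : x ∈ s <;> simp [hx]

theorem amgm_ae {α : Type*} [MeasurableSpace α] {m : Measure α} {f g : α → ℝ} {a b a' b' : ℝ≥0∞}
    (m1 : AEMeasurable (fun y => ENNReal.ofReal |f y|) m)
    (m2 : AEMeasurable (fun y => ENNReal.ofReal |g y|) m) (h1 : ∀ᵐ y ∂m, 1 ≤ f y * g y)
    (v1 : m univ = a * b) (v2 : a' * b' = a * b)
    (i1 : ∫⁻ y, ENNReal.ofReal |f y| ∂m ≤ a * b') (i2 : ∫⁻ y, ENNReal.ofReal |g y| ∂m ≤ a' * b)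
    (a3 : a ≠ ∞) (a0 : b ≠ 0) (a1 : b ≠ ∞) (b0 : b' ≠ 0) (b1 : b' ≠ ∞) :
    ∀ᵐ y ∂m, f y * g y ≤ 1 := by
  obtain ⟨c, hc⟩ : ∃ c : ℝ≥0∞, c = b / b' := ⟨_, rfl⟩
  have c0 : c ≠ 0 := hc ▸ (ENNReal.div_pos a0 b1).ne'
  have c1 : c ≠ ∞ := hc ▸ ENNReal.div_ne_top a1 b0
  have i3 : ∫⁻ y, (c * ENNReal.ofReal |f y| + c⁻¹ * ENNReal.ofReal |g y|) ∂m ≤ ∫⁻ _, 2 ∂m := by
    rw [lintegral_add_left' (m1.const_mul c), lintegral_const_mul' _ _ c1,
      lintegral_const_mul' _ _ (ENNReal.inv_ne_top.2 c0), lintegral_const, v1, two_mul]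
    refine add_le_add ((mul_le_mul_right i1 c).trans (le_of_eq ?_))
      ((mul_le_mul_right i2 c⁻¹).trans (le_of_eq ?_))
    · rw [hc, mul_left_comm, ENNReal.div_mul_cancel b0 b1]
    · rw [← v2, hc, ENNReal.inv_div (Or.inr a1) (Or.inr a0), mul_left_comm,
        ENNReal.div_mul_cancel a0 a1]
  have hcr : 0 < c.toReal := ENNReal.toReal_pos c0 c1
  have form : ∀ s t : ℝ, 0 ≤ s → 0 ≤ t → c * ENNReal.ofReal s + c⁻¹ * ENNReal.ofReal t =
      ENNReal.ofReal (c.toReal * s + c.toReal⁻¹ * t) := by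
    intro s t hs ht
    rw [ENNReal.ofReal_add (by positivity) (by positivity), ENNReal.ofReal_mul hcr.le,
      ENNReal.ofReal_mul (by positivity), ENNReal.ofReal_inv_of_pos hcr, ENNReal.ofReal_toReal c1]
  have amgm : ∀ s t : ℝ, 4 * (s * t) ≤ (c.toReal * s + c.toReal⁻¹ * t) ^ 2 := by
    intro s t
    have : c.toReal * s * (c.toReal⁻¹ * t) = s * t := by field_simp
    nlinarith [sq_nonneg (c.toReal * s - c.toReal⁻¹ * t)]
  have i4 := ae_eq_of_ae_le_of_lintegral_le (μ := m) (f := fun _ => 2)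
    (g := fun y => c * ENNReal.ofReal |f y| + c⁻¹ * ENNReal.ofReal |g y|)
    (by
      filter_upwards [h1] with y hy
      rw [form _ _ (abs_nonneg _) (abs_nonneg _), ← ENNReal.ofReal_ofNat]
      refine ENNReal.ofReal_le_ofReal ?_
      have k1 := amgm |f y| |g y|
      have k2 : 1 ≤ |f y| * |g y| := by
        rw [← abs_mul]; exact hy.trans (le_abs_self _)
      exact le_of_sq_le_sq (by linarith) (by positivity))
    (by rw [lintegral_const, v1]; finiteness)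
    ((m1.const_mul c).add (m2.const_mul c⁻¹)) i3
  filter_upwards [i4] with y k3
  rw [form _ _ (abs_nonneg _) (abs_nonneg _), ← ENNReal.ofReal_ofNat,
    ENNReal.ofReal_eq_ofReal_iff (by norm_num) (by positivity)] at k3
  have k4 := amgm |f y| |g y|
  rw [← k3, ← abs_mul] at k4
  linarith [le_abs_self (f y * g y)]

variable {E : Type*} [NormedAddCommGroup E] [InnerProductSpace ℝ E] [FiniteDimensional ℝ E]

namespace Pair

variable {P : Pair E} {D : Set E}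

theorem Q_inj {ψ p₁ p₂ : E} (hψ : ψ ∈ DS P.N.hs) (h₁ : (p₁, gr P.N.hs ψ) ∈ P.N.U)
    (h₂ : (p₂, gr P.N.hs ψ) ∈ P.N.U) (h : P.Q (p₁, gr P.N.hs ψ) = P.Q (p₂, gr P.N.hs ψ)) :
    p₁ = p₂ := by
  have hJ := Nm.J_gr hψ
  set w := gr P.N.hs ψ with hw
  have key : ∀ a b : E × E, a ∈ P.N.U → b ∈ P.N.U → a.2 = w → b.2 = w → P.Q a = P.Q b →
      P.N.p (P.N.z a - P.N.z (ng b)) ≤ (P.t a + P.t (ng b)) * P.N.p w := by
    intro a b ha hb ha2 hb2 hab
    rw [← P.isoF _ _ ((Nm.z_one ha).trans (Nm.z_one (Nm.ng_mem hb)).symm), ← Q_add a,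
      ← Q_add (ng b), Q_ng hb, hab, W_ng, add_sub_add_left_eq_sub, smul_neg, sub_neg_eq_add]
    refine (P.N'.add_le _ _).trans ?_
    rw [P.N'.smul (t_pos ha).le, P.N'.smul (t_pos (Nm.ng_mem hb)).le, norm_W ha, norm_W hb,
      ha2, hb2]
    linarith
  have k1 := key _ _ h₁ h₂ rfl rfl h
  have k2 := key _ _ h₂ h₁ rfl rfl h.symm
  have j2 := hJ.1 (P.N.z (p₂, w) - P.N.z (ng (p₁, w)))
  have e : ⟪ψ, P.N.z (p₁, w) - P.N.z (ng (p₂, w))⟫ + ⟪ψ, P.N.z (p₂, w) - P.N.z (ng (p₁, w))⟫ =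
      (P.τ (p₁, w) + P.τ (p₂, w)) * P.N.p w ^ 2 := by
    rw [← inner_add_right, ← hJ.2, ← inner_smul_right, add_smul]
    congr 1
    have a1 := z_sub (P := P) (p₁, w)
    have a2 := z_sub (P := P) (p₂, w)
    simp only at a1 a2
    rw [← a1, ← a2]; abel
  have := Nm.eq_smul_gr hψ (add_pos (t_pos h₁) (t_pos (Nm.ng_mem h₂))) k1 (by
    have := mul_le_mul_of_nonneg_left k2 (P.N.nonneg w)
    simp only [τ] at e
    nlinarith)
  rw [z_ng, z_eq, ← hw, add_smul] at this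
  simp only at this
  have e2 : p₁ - p₂ = (p₁ + P.t (p₁, w) • w - (p₂ - P.t (ng (p₂, w)) • w)) -
      (P.t (p₁, w) • w + P.t (ng (p₂, w)) • w) := by abel
  rw [this, sub_self, sub_eq_zero] at e2
  exact e2

variable [MeasurableSpace E] [BorelSpace E] {μ : Measure E} [Measure.IsAddHaarMeasure μ]

theorem ae_x (hD : ∀ᵐ x ∂μ, x ∈ D) (w : E) : μ {p | (p, w) ∈ P.N.U ∧ P.x (p, w) ∉ D} = 0 := by
  have h1 : μ ({x | x ∉ D} ∩ {x | x ≠ 0}) = 0 := measure_mono_null inter_subset_left (ae_iff.1 hD)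
  refine measure_mono_null ?_ (null_image_LL
    (g := fun x => (P.N.p x)⁻¹ • x - (P.N.p x - 1) • w) (fun x hx => ?_) h1)
  · rintro p ⟨hp, hx⟩
    have ht := t_pos hp
    have hn : P.N.p (P.x (p, w)) = 1 + P.t (p, w) := by
      rw [x, P.N.smul (by linarith), Nm.z_one hp, mul_one]
    refine ⟨P.x (p, w), ⟨hx, fun h => ?_⟩, ?_⟩
    · rw [h, map_zero] at hn; linarith
    · simp only [hn]
      rw [x, smul_smul, inv_mul_cancel₀ (by linarith), one_smul, z_eq]; simp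
  · have l1 := LL.of_lip P.N.lip x
    exact ((l1.inv (P.N.pos hx.2).ne').smul (LL.of_lip LipschitzWith.id x)).sub
      ((l1.sub (LL.of_lip (LipschitzWith.const 1) x)).smul (LL.of_lip (LipschitzWith.const w) x))

theorem full_G0 [Nontrivial E] (hm : MeasurableSet D) (hD : ∀ᵐ x ∂μ, x ∈ D) :
    Full (μ.prod μ) (P.G0 D) P.Ω := by
  have mκ : Measurable P.κ := measurable_snd.prodMk
    (rz.continuous.measurable.comp ((measurable_fderiv ℝ P.N.hs).comp measurable_fst))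
  have mb : MeasurableSet (P.N.U ∩ P.x ⁻¹' Dᶜ) :=
    measurableSet_inter_preimage Nm.isOpen_U.measurableSet
      (fun v hv => (x_LL hv).continuousAt.continuousWithinAt) hm.compl
  have n1 : (μ.prod μ) (P.κ ⁻¹' (P.N.U ∩ P.x ⁻¹' Dᶜ)) = 0 :=
    (Measure.measure_prod_null (mκ mb)).2 (Eventually.of_forall fun ψ =>
      ae_x (P := P) hD (gr P.N.hs ψ))
  have n2 : (μ.prod μ) ((fun y => ng (P.κ y)) ⁻¹' (P.N.U ∩ P.x ⁻¹' Dᶜ)) = 0 :=
    (Measure.measure_prod_null (((ngL (E := E)).continuous.measurable.comp mκ) mb)).2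
      (Eventually.of_forall fun ψ => ae_x (P := P) hD (-gr P.N.hs ψ))
  have a0 : ∀ᵐ x ∂μ, x ≠ 0 := by
    simpa using measure_eq_zero_iff_ae_notMem.1 (measure_singleton (μ := μ) (0 : E))
  have a1 := (Measure.quasiMeasurePreserving_fst (μ := μ) (ν := μ)).ae
    (a0.and (alexandrov P.N.convexOn_hs))
  filter_upwards [a1, measure_eq_zero_iff_ae_notMem.1 n1, measure_eq_zero_iff_ae_notMem.1 n2]
    with y h1 h2 h3 hy
  have hU : P.κ y ∈ P.N.U := ⟨hy.2, fun h => h1.1 (by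
    have := Nm.J_gr h1.2.1
    rw [show gr P.N.hs y.1 = 0 from h] at this
    exact this.eq_zero)⟩
  refine ⟨hy.1, h1.2, hU, ?_, ?_⟩
  · by_contra hcon; exact h2 ⟨hU, hcon⟩
  · by_contra hcon; exact h3 ⟨Nm.ng_mem hU, hcon⟩

theorem full_G1 (hD : ∀ x ∈ D, P.GoodPt D x) (h0 : Full (μ.prod μ) (P.G0 D) P.Ω) :
    Full (μ.prod μ) (P.G1 D) P.Ω := by
  have a1 := (Measure.quasiMeasurePreserving_fst (μ := μ) (ν := μ)).ae
    (alexandrov P.N'.convexOn_hs)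
  have n1 := null_preimage (μ := μ.prod μ) (fun y hy => Ξ_deriv hD hy)
    (fun y hy => Ξ_det hD hy (h0.dn isOpen_Ω (G0_subset hy))) (ae_iff.1 a1)
  filter_upwards [h0, measure_eq_zero_iff_ae_notMem.1 n1] with y h1 h2 hy
  refine ⟨h1 hy, ?_⟩
  by_contra hcon
  exact h2 ⟨h1 hy, hcon⟩

theorem Φ_det (hD : ∀ x ∈ D, P.GoodPt D x) (h1 : Full (μ.prod μ) (P.G1 D) P.Ω) {y : E × E}
    (hy : y ∈ P.G1 D) : ((P.Dφ D y).prod (fderiv ℝ P.Q (P.κ y) ∘L P.Dκ y)).det = 1 :=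
  (ld hD hy μ (h1.dn isOpen_Ω (G0_subset hy.1))).det_eq_one

theorem Φ_injOn (hD : ∀ x ∈ D, P.GoodPt D x) : InjOn P.Φ (P.G1 D) := fun a ha b hb h => by
  rw [← Φ_Φ hD ha, h, Φ_Φ hD hb]

theorem lintegral_Φ (hD : ∀ x ∈ D, P.GoodPt D x) (h1 : Full (μ.prod μ) (P.G1 D) P.Ω)
    {S : Set (E × E)} (hS : MeasurableSet S) (hSG : S ⊆ P.G1 D) (g : E × E → ℝ≥0∞) :
    ∫⁻ y in S, g (P.Φ y) ∂(μ.prod μ) = ∫⁻ y in P.Φ '' S, g y ∂(μ.prod μ) := by
  rw [lintegral_image_eq_lintegral_abs_det_fderiv_mul (μ.prod μ) hS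
    (fun y hy => (Φ_deriv hD (hSG hy).1).mono fun _ h => (hSG h).1) ((Φ_injOn hD).mono hSG)]
  refine setLIntegral_congr_fun hS fun y hy => ?_
  simp [Φ_det hD h1 (hSG hy)]

theorem measure_of_full {S : Set (E × E)} (hSΩ : S ⊆ P.Ω) (h : Full (μ.prod μ) S P.Ω) :
    (μ.prod μ) S = μ P.N.Bs * μ P.N.B := by
  rw [← Measure.prod_prod]
  refine measure_congr ?_
  filter_upwards [h] with y hy
  exact propext ⟨fun h => hSΩ h, fun h => hy h⟩

theorem vol_le (hD : ∀ x ∈ D, P.GoodPt D x) (h1 : Full (μ.prod μ) (P.G1 D) P.Ω) :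
    μ P.N.Bs * μ P.N.B ≤ μ P.N'.Bs * μ P.N'.B := by
  obtain ⟨S, hS1, hS2, hS3, hS4⟩ := h1.exists_measurable isOpen_Ω.measurableSet
  have := lintegral_Φ hD h1 hS3 hS1 fun _ => 1
  simp only [lintegral_one, Measure.restrict_apply_univ] at this
  rw [← measure_of_full hS2 hS4, this, ← Measure.prod_prod]
  refine measure_mono ?_
  rintro _ ⟨y, hy, rfl⟩
  exact Φ_mem hD (hS1 hy).1

theorem lintegral_aa_le (hD : ∀ x ∈ D, P.GoodPt D x) {S : Set (E × E)} (hS : MeasurableSet S)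
    (hSG : S ⊆ P.G0 D) :
    ∫⁻ y in S, ENNReal.ofReal |(P.aa (P.κ y)).det| ∂(μ.prod μ) ≤ μ P.N.Bs * μ P.N'.B := by
  rw [← lintegral_indicator hS]
  refine (lintegral_prod_le _).trans ?_
  rw [mul_comm, ← setLIntegral_const, ← lintegral_indicator P.N.isOpen_Bs.measurableSet]
  refine lintegral_mono fun ψ => ?_
  have hm : MeasurableSet (Prod.mk ψ ⁻¹' S) := measurable_prodMk_left hS
  have e : (fun p => S.indicator (fun y => ENNReal.ofReal |(P.aa (P.κ y)).det|) (ψ, p)) =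
      (Prod.mk ψ ⁻¹' S).indicator fun p => ENNReal.ofReal |(P.aa (p, gr P.N.hs ψ)).det| := by
    funext p
    by_cases h : (ψ, p) ∈ S
    · rw [indicator_of_mem h, indicator_of_mem (show p ∈ Prod.mk ψ ⁻¹' S from h)]; rfl
    · rw [indicator_of_notMem h, indicator_of_notMem (show p ∉ Prod.mk ψ ⁻¹' S from h)]
  simp only [e, lintegral_indicator hm]
  rcases (Prod.mk ψ ⁻¹' S).eq_empty_or_nonempty with h | ⟨p₀, hp₀⟩
  · simp [h]
  rw [indicator_of_mem (hSG hp₀).1]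
  refine (lintegral_abs_det_fderiv_le_addHaar_image μ hm (f := fun p => P.Q (p, gr P.N.hs ψ))
    (fun p hp => (Q_slice hD (hSG hp).2.2).hasFDerivWithinAt)
    (fun a ha b hb h => Q_inj (hSG hp₀).2.1.1 (hSG ha).2.2.1 (hSG hb).2.2.1 h)).trans
    (measure_mono ?_)
  rintro _ ⟨p, hp, rfl⟩
  exact Q_lt (hSG hp).2.2.1

theorem vol_pos (N : Nm E) : μ N.B ≠ 0 ∧ μ N.B ≠ ∞ ∧ μ N.Bs ≠ 0 ∧ μ N.Bs ≠ ∞ :=
  ⟨(N.isOpen_B.measure_pos μ ⟨0, N.zero_mem_B⟩).ne',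
    ((measure_mono fun _ (h : N.p _ < 1) => h.le).trans_lt
      (N.isCompact_le 1).measure_lt_top).ne,
    (N.isOpen_Bs.measure_pos μ ⟨0, N.zero_mem_Bs⟩).ne',
    ((measure_mono N.Bs_subset).trans_lt (isCompact_closedBall _ _).measure_lt_top).ne⟩

theorem meas_det (hD : ∀ x ∈ D, P.GoodPt D x) {S : Set (E × E)} (hS : MeasurableSet S)
    (hS0 : S ⊆ P.G0 D) {g : E × E → E →L[ℝ] E}
    (hg : ∀ v ∈ P.Γ D, DifferentiableWithinAt ℝ g (P.Γ D) v) :
    AEMeasurable (fun y => ENNReal.ofReal |(g (P.κ y)).det|) ((μ.prod μ).restrict S) := by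
  have hc : Continuous fun a : E →L[ℝ] E => ENNReal.ofReal |a.det| :=
    ENNReal.continuous_ofReal.comp (continuous_abs.comp ContinuousLinearMap.continuous_det)
  refine ContinuousOn.aemeasurable (fun y hy => ?_) hS
  exact ContinuousAt.comp_continuousWithinAt (f := fun y => g (P.κ y)) hc.continuousAt
    ((comp_κ hD (hS0 hy) (hg _ (hS0 hy).2.2)).continuousWithinAt.mono hS0)

theorem det_ab (hD : ∀ x ∈ D, P.GoodPt D x) (h1 : Full (μ.prod μ) (P.G1 D) P.Ω) {y : E × E}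
    (hy : y ∈ P.G1 D) : 1 ≤ (P.aa (P.κ y)).det * (P.bb (P.κ y)).det ∧
      ((P.aa (P.κ y)).det * (P.bb (P.κ y)).det ≤ 1 →
        ∀ ξ, P.H (P.κ y) (P.A y.1 ξ) = P.H (ng (P.κ y)) (P.A y.1 ξ)) := by
  unfold aa bb
  exact (ld hD hy μ (h1.dn isOpen_Ω (G0_subset hy.1))).det_ab

theorem full_pre (hD : ∀ x ∈ D, P.GoodPt D x) (h1 : Full (μ.prod μ) (P.G1 D) P.Ω)
    {S' : Set (E × E)} (hS4' : Full (μ.prod μ) S' P.symm.Ω) :
    Full (μ.prod μ) (P.G1 D ∩ P.Φ ⁻¹' S') P.Ω := by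
  have n1 := null_preimage (μ := μ.prod μ) (s := P.G1 D) (g := P.Φ)
    (g' := fun y => (P.Dφ D y).prod (fderiv ℝ P.Q (P.κ y) ∘L P.Dκ y))
    (fun y hy => (Φ_deriv hD hy.1).mono fun _ h => h.1)
    (fun y hy => by rw [Φ_det hD h1 hy]; exact one_ne_zero) (ae_iff.1 hS4')
  filter_upwards [h1, measure_eq_zero_iff_ae_notMem.1 n1] with y a1 a2 hy
  refine ⟨a1 hy, ?_⟩
  by_contra hcon
  exact a2 ⟨a1 hy, fun h => hcon (h (Φ_mem hD (a1 hy).1))⟩

theorem lintegral_bb_le (hD : ∀ x ∈ D, P.GoodPt D x) (h1 : Full (μ.prod μ) (P.G1 D) P.Ω)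
    {D' : Set E} (hD' : ∀ x ∈ D', P.symm.GoodPt D' x) {S S' : Set (E × E)}
    (hS3 : MeasurableSet S) (hS3' : MeasurableSet S') (hS1 : S ⊆ P.G1 D ∩ P.Φ ⁻¹' S')
    (hS1' : S' ⊆ P.symm.G0 D') :
    ∫⁻ y in S, ENNReal.ofReal |(P.bb (P.κ y)).det| ∂(μ.prod μ) ≤ μ P.N'.Bs * μ P.N.B := by
  have hSG : S ⊆ P.G1 D := fun y hy => (hS1 hy).1
  have e := lintegral_Φ hD h1 hS3 hSG fun y => ENNReal.ofReal |(P.symm.aa (P.symm.κ y)).det|
  have e2 : ∫⁻ y in S, ENNReal.ofReal |(P.bb (P.κ y)).det| ∂(μ.prod μ) =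
      ∫⁻ y in S, ENNReal.ofReal |(P.symm.aa (P.symm.κ (P.Φ y))).det| ∂(μ.prod μ) :=
    setLIntegral_congr_fun hS3 fun y hy => by
      simp only [κ_Φ hD (hSG hy), aa_Ψ hD (hSG hy).1.2.2]
  rw [e2, e]
  refine (lintegral_mono_set ?_).trans (lintegral_aa_le hD' hS3' hS1')
  rintro _ ⟨y, hy, rfl⟩
  exact (hS1 hy).2

/-- The equality case holds almost everywhere. -/
theorem full_eq [Nontrivial E] (hD : ∀ x ∈ D, P.GoodPt D x)
    (h1 : Full (μ.prod μ) (P.G1 D) P.Ω) :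
    Full (μ.prod μ) {y | y ∈ P.G1 D ∧
      ∀ ξ, P.H (P.κ y) (P.A y.1 ξ) = P.H (ng (P.κ y)) (P.A y.1 ξ)} P.Ω := by
  obtain ⟨D', hm', ha', hD'⟩ := P.symm.exists_good μ
  have h0' := full_G0 (P := P.symm) hm' ha'
  have h1' := full_G1 hD' h0'
  obtain ⟨S', hS1', -, hS3', hS4'⟩ := h0'.exists_measurable isOpen_Ω.measurableSet
  obtain ⟨S, hS1, hS2, hS3, hS4⟩ :=
    (full_pre hD h1 hS4').exists_measurable isOpen_Ω.measurableSet
  have hSG : S ⊆ P.G1 D := fun y hy => (hS1 hy).1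
  have hS0 : S ⊆ P.G0 D := fun y hy => (hS1 hy).1.1
  have v1 := measure_of_full hS2 hS4
  have w1 := vol_le hD' h1'
  have w2 := vol_le hD h1
  have v2 : μ P.N'.Bs * μ P.N'.B = μ P.N.Bs * μ P.N.B := le_antisymm w1 w2
  have i1 := lintegral_aa_le (μ := μ) hD hS3 hS0
  have i2 := lintegral_bb_le hD h1 hD' hS3 hS3' hS1 hS1'
  obtain ⟨a0, a1, a2, a3⟩ := vol_pos (μ := μ) P.N
  obtain ⟨b0, b1, b2, b3⟩ := vol_pos (μ := μ) P.N'
  have i4 := amgm_ae (meas_det hD hS3 hS0 fun v hv => aa_diff hD hv)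
    (meas_det hD hS3 hS0 fun v hv => bb_diff hD hv) (by
      filter_upwards [ae_restrict_mem hS3] with y hy
      exact (det_ab hD h1 (hSG hy)).1)
    (by rw [Measure.restrict_apply_univ, v1]) v2 i1 i2 a3 a0 a1 b0 b1
  rw [ae_restrict_iff' hS3] at i4
  filter_upwards [hS4, i4] with y k1 k2 hy
  exact ⟨hSG (k1 hy), (det_ab hD h1 (hSG (k1 hy))).2 (k2 (k1 hy))⟩

end Pair

end Vale.Agent.P084
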