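import Vale.Agent.P084.Chord

/-! First order analysis of the chord correspondence at good points. -/

open MeasureTheory Filter Topology Set Metric Asymptotics
open scoped NNReal ENNReal RealInnerProductSpace

set_option linter.unusedSectionVars false

namespace Vale.Agent.P084

variable {E : Type*} [NormedAddCommGroup E] [InnerProductSpace ℝ E] [FiniteDimensional ℝ E]

theorem le_of_littleO {g : ℝ → ℝ} {c : ℝ} (hg : g =o[𝓝[>] 0] fun ε => ε)
    (h : ∀ᶠ ε in 𝓝[>] (0 : ℝ), ε * c ≤ g ε) : c ≤ 0 := by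
  refine le_of_forall_pos_le_add fun η hη => ?_
  obtain ⟨ε, ⟨h1, h2⟩, h3⟩ := ((h.and (hg.def hη)).and self_mem_nhdsWithin).exists
  have h3' : 0 < ε := h3
  rw [Real.norm_eq_abs, Real.norm_eq_abs, abs_of_pos h3'] at h2
  have := le_abs_self (g ε)
  rw [zero_add]
  refine le_of_mul_le_mul_left ?_ h3'
  linarith

theorem Nm.littleO (N : Nm E) {A : ℝ → E} {A' : E} (hA : HasDerivAt A A' 0) :
    (fun ε => N.p (A ε) - N.p (A 0 + ε • A')) =o[𝓝[>] 0] fun ε => ε := by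
  have h1 : (fun ε => A ε - (A 0 + ε • A')) =o[𝓝 0] fun ε => ε := by
    simpa [sub_add_eq_sub_sub] using hasDerivAt_iff_isLittleO.1 hA
  refine IsBigO.trans_isLittleO (IsBigO.of_bound N.C (Eventually.of_forall fun ε => ?_))
    (h1.mono nhdsWithin_le_nhds)
  exact (N.abs_sub_le _ _).trans (N.hi _)

theorem Nm.J_le {N N' : Nm E} {w w' ψ a a' : E} {τ l : ℝ} (hτ : 0 < τ) (hw : w ≠ 0)
    (hn : N'.p w' = N.p w) (hJ : N.J w ψ)
    (h : (fun ε => N'.p ((τ + ε * l) • w' + ε • a') - N.p ((τ + ε * l) • w + ε • a))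
      =o[𝓝[>] 0] fun ε => ε) : ⟪ψ, a⟫ ≤ N.p w * N'.p a' := by
  have hr := N.pos hw
  have := le_of_littleO (c := ⟪ψ, a⟫ - N.p w * N'.p a') (h.const_mul_left (-N.p w)) (by
    have hc : Tendsto (fun ε : ℝ => τ + ε * l) (𝓝[>] 0) (𝓝 τ) := by
      have : Continuous fun ε : ℝ => τ + ε * l := by fun_prop
      simpa using (this.tendsto 0).mono_left nhdsWithin_le_nhds
    filter_upwards [hc.eventually (lt_mem_nhds hτ), self_mem_nhdsWithin] with ε h1 h2
    have h2' : 0 < ε := h2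
    have a1 := N'.add_le ((τ + ε * l) • w') (ε • a')
    rw [N'.smul h1.le, N'.smul h2'.le, hn] at a1
    have a2 := hJ.1 ((τ + ε * l) • w + ε • a)
    rw [inner_add_right, inner_smul_right, inner_smul_right, hJ.2] at a2
    nlinarith [mul_le_mul_of_nonneg_left a1 hr.le])
  linarith

namespace Pair

variable (P : Pair E)

/-- Inverse of the corrected derivative. -/
noncomputable def G (v : E × E) : E →L[ℝ] E := Ring.inverse (P.H v)
/-- Action on momenta. -/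
noncomputable def K (v : E × E) : E →L[ℝ] E := adj (P.G v)
/-- Derivative of the chord map in the point. -/
noncomputable def aa (v : E × E) : E →L[ℝ] E :=
  (P.t v + P.t (ng v))⁻¹ • (P.t (ng v) • P.H v + P.t v • P.H (ng v))
/-- Derivative of the inverse chord map in the point. -/
noncomputable def bb (v : E × E) : E →L[ℝ] E :=
  (P.t v + P.t (ng v))⁻¹ • (P.t (ng v) • P.G v + P.t v • P.G (ng v))
/-- Good chords. -/
def Γ (D : Set E) : Set (E × E) := {v | v ∈ P.N.U ∧ P.x v ∈ D ∧ P.x (ng v) ∈ D}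

variable {P} {v : E × E} {D : Set E}

theorem ng_Γ (hv : v ∈ P.Γ D) : ng v ∈ P.Γ D := ⟨Nm.ng_mem hv.1, hv.2.2, by simpa using hv.2.1⟩

section
variable (hv : v ∈ P.N.U) (hg : P.GoodPt D (P.x v))
include hv hg

theorem dFz : HasFDerivAt P.F (P.T v) (P.N.z v) :=
  homog_hasFDerivAt P.homF (by linarith [t_pos hv]) hg.dF.hasFDerivAt

theorem dNz : HasFDerivAt P.N.p (P.ν v) (P.N.z v) :=
  homog_hasFDerivAt P.N.homog (by linarith [t_pos hv]) hg.dN.hasFDerivAt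

theorem ν_pos : 0 < P.ν v v.2 := Nm.nu_pos hv (dNz hv hg)

theorem ν_z : P.ν v (P.N.z v) = 1 := by rw [homog_euler P.N.homog (dNz hv hg), Nm.z_one hv]

theorem ν'_pos : 0 < P.symm.ν (P.Ψ v) (P.W v) := by
  refine Nm.nu_pos (Ψ_mem hv) (homog_hasFDerivAt P.N'.homog
    (ρ := 1 + P.symm.t (P.Ψ v)) (by linarith [t_pos (Ψ_mem hv)]) ?_)
  change HasFDerivAt _ _ (P.symm.x (P.Ψ v))
  rw [ν, x_Ψ hv]
  exact hg.dN'.hasFDerivAt

theorem T'_T (k : E) : P.symm.T (P.Ψ v) (P.T v k) = k := by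
  have h1 := hg.dF'.hasFDerivAt.comp (P.x v) hg.dF.hasFDerivAt
  have h2 : P.F' ∘ P.F = id := funext P.left
  rw [h2] at h1
  have := h1.unique (hasFDerivAt_id _)
  rw [T, x_Ψ hv]
  exact ContinuousLinearMap.ext_iff.1 this k

theorem T_T' (k : E) : P.T v (P.symm.T (P.Ψ v) k) = k := by
  have h0 : HasFDerivAt P.F (P.T v) (P.F' (P.F (P.x v))) := by
    rw [P.left]; exact hg.dF.hasFDerivAt
  have h1 := h0.comp (P.F (P.x v)) hg.dF'.hasFDerivAt
  have h2 : P.F ∘ P.F' = id := funext P.right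
  rw [h2] at h1
  have := h1.unique (hasFDerivAt_id _)
  conv_lhs => rw [T.eq_1 P.symm, x_Ψ hv]
  exact ContinuousLinearMap.ext_iff.1 this k

theorem ν'_T (k : E) : P.symm.ν (P.Ψ v) (P.T v k) = P.ν v k := by
  have h1 := hg.dN'.hasFDerivAt.comp (P.x v) hg.dF.hasFDerivAt
  have h2 : P.N'.p ∘ P.F = P.N.p := funext P.normF
  rw [h2] at h1
  have := h1.unique hg.dN.hasFDerivAt
  rw [ν, x_Ψ hv]
  exact ContinuousLinearMap.ext_iff.1 this k

theorem H'_H (k : E) : P.symm.H (P.Ψ v) (P.H v k) = k := by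
  rw [H, H, W_Ψ hv]
  exact Hm_inv (T'_T hv hg) (ν'_T hv hg) (ν_pos hv hg).ne' (ν'_pos hv hg).ne' k

theorem H_H' (k : E) : P.H v (P.symm.H (P.Ψ v) k) = k := by
  rw [H, H, W_Ψ hv]
  exact Hm_inv (T_T' hv hg) (fun k => by rw [← ν'_T hv hg, T_T' hv hg])
    (ν'_pos hv hg).ne' (ν_pos hv hg).ne' k

theorem H_unit : IsUnit (P.H v) :=
  ⟨⟨P.H v, P.symm.H (P.Ψ v), ContinuousLinearMap.ext (H_H' hv hg),
    ContinuousLinearMap.ext (H'_H hv hg)⟩, rfl⟩

theorem H_G (k : E) : P.H v (P.G v k) = k :=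
  ContinuousLinearMap.ext_iff.1 (Ring.mul_inverse_cancel _ (H_unit hv hg)) k

theorem G_H (k : E) : P.G v (P.H v k) = k :=
  ContinuousLinearMap.ext_iff.1 (Ring.inverse_mul_cancel _ (H_unit hv hg)) k

theorem H_Ψ : P.symm.H (P.Ψ v) = P.G v := by
  ext k
  conv_lhs => rw [← H_G hv hg k, H'_H hv hg]

theorem G_Ψ : P.symm.G (P.Ψ v) = P.H v := by
  rw [G, H_Ψ hv hg, G, Ring.inverse_inverse (H_unit hv hg)]

theorem inner_K_H (ψ k : E) : ⟪P.K v ψ, P.H v k⟫ = ⟪ψ, k⟫ := by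
  rw [K, inner_adj, G_H hv hg]

theorem H_w : P.H v v.2 = P.W v := Hm_self (ν_pos hv hg).ne'

theorem t_diff : DifferentiableAt ℝ P.t v := (Nm.ex_hasFDerivAt hv (dNz hv hg)).differentiableAt

theorem z_hasFDerivAt : HasFDerivAt P.N.z (ContinuousLinearMap.fst ℝ E E +
    (P.t v • ContinuousLinearMap.snd ℝ E E + (fderiv ℝ P.t v).smulRight v.2)) v :=
  hasFDerivAt_fst.add ((t_diff hv hg).hasFDerivAt.smul hasFDerivAt_snd)

theorem fderiv_z (u : E × E) :
    fderiv ℝ P.N.z v u = u.1 + P.t v • u.2 + fderiv ℝ P.t v u • v.2 := by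
  rw [(z_hasFDerivAt hv hg).fderiv]; simp [add_assoc]

theorem ν_dz (u : E × E) : P.ν v (fderiv ℝ P.N.z v u) = 0 := by
  have h1 := (dNz hv hg).comp v (z_hasFDerivAt hv hg).differentiableAt.hasFDerivAt
  have h2 : HasFDerivAt (P.N.p ∘ P.N.z) (0 : E × E →L[ℝ] ℝ) v :=
    (hasFDerivAt_const (1 : ℝ) v).congr_of_eventuallyEq (by
      filter_upwards [Nm.isOpen_U.mem_nhds hv] with u hu using Nm.z_one hu)
  exact ContinuousLinearMap.ext_iff.1 (h1.unique h2) u

theorem Fz_hasFDerivAt : HasFDerivAt (fun u => P.F (P.N.z u)) (P.T v ∘L fderiv ℝ P.N.z v) v :=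
  (dFz hv hg).comp v (z_hasFDerivAt hv hg).differentiableAt.hasFDerivAt

theorem T_dz (u : E × E) : P.T v (fderiv ℝ P.N.z v u) =
    P.H v (u.1 + P.t v • u.2) + fderiv ℝ P.t v u • P.W v := by
  rw [← H_w hv hg, ← map_smul, ← map_add, ← fderiv_z hv hg, H, Hm_ker (ν_dz hv hg u)]

theorem x_hasFDerivAt : HasFDerivAt P.x
    ((1 + P.t v) • fderiv ℝ P.N.z v + (fderiv ℝ P.t v).smulRight (P.N.z v)) v :=
  ((t_diff hv hg).hasFDerivAt.const_add 1).smul
    (z_hasFDerivAt hv hg).differentiableAt.hasFDerivAt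

theorem fderiv_x_eq_zero_iff (u : E × E) : fderiv ℝ P.x v u = 0 ↔ u.1 + P.t v • u.2 = 0 := by
  rw [(x_hasFDerivAt hv hg).fderiv]
  simp only [_root_.add_apply, _root_.smul_apply, ContinuousLinearMap.smulRight_apply]
  have h1 := ν_dz hv hg u
  have h2 := fderiv_z hv hg u
  constructor
  · intro h
    have h3 := congrArg (P.ν v) h
    rw [map_add, map_smul, map_smul, h1, ν_z hv hg, map_zero] at h3
    have h4 : fderiv ℝ P.t v u = 0 := by simpa using h3
    rw [h4, zero_smul, add_zero, smul_eq_zero] at h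
    rw [h4, zero_smul, add_zero] at h2
    rw [← h2]
    exact h.resolve_left (by linarith [t_pos hv])
  · intro h
    rw [h, zero_add] at h2
    rw [h2, map_smul, smul_eq_mul, mul_eq_zero] at h1
    have h4 := h1.resolve_right (ν_pos hv hg).ne'
    rw [h2, h4]; simp

end

section
variable (hD : ∀ x ∈ D, P.GoodPt D x) (hv : v ∈ P.Γ D)
include hD hv

theorem tng_diff : DifferentiableAt ℝ (fun u => P.t (ng u)) v :=
  (t_diff (Nm.ng_mem hv.1) (hD _ hv.2.2)).comp v (ng_hasFDerivAt v).differentiableAt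

theorem Fzng_diff : DifferentiableAt ℝ (fun u => P.F (P.N.z (ng u))) v :=
  (Fz_hasFDerivAt (Nm.ng_mem hv.1) (hD _ hv.2.2)).differentiableAt.comp v
    (ng_hasFDerivAt v).differentiableAt

theorem W_diff : DifferentiableAt ℝ P.W v :=
  (((t_diff hv.1 (hD _ hv.2.1)).add (tng_diff hD hv)).inv (τ_pos hv.1).ne').smul
    ((Fz_hasFDerivAt hv.1 (hD _ hv.2.1)).differentiableAt.sub (Fzng_diff hD hv))

theorem Q_diff : DifferentiableAt ℝ P.Q v :=
  (Fz_hasFDerivAt hv.1 (hD _ hv.2.1)).differentiableAt.sub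
    ((t_diff hv.1 (hD _ hv.2.1)).smul (W_diff hD hv))

theorem r1p (u : E × E) :
    fderiv ℝ P.Q v u + P.t v • fderiv ℝ P.W v u = P.H v (u.1 + P.t v • u.2) := by
  have h1 := (Q_diff hD hv).hasFDerivAt.add
    ((t_diff hv.1 (hD _ hv.2.1)).hasFDerivAt.smul (W_diff hD hv).hasFDerivAt)
  have h2 := Fz_hasFDerivAt hv.1 (hD _ hv.2.1)
  have h3 : (P.Q + P.t • P.W) = fun u => P.F (P.N.z u) := funext fun u => Q_add u
  rw [h3] at h1
  have := ContinuousLinearMap.ext_iff.1 (h1.unique h2) u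
  simp only [_root_.add_apply, _root_.smul_apply, ContinuousLinearMap.smulRight_apply,
    ContinuousLinearMap.comp_apply, T_dz hv.1 (hD _ hv.2.1), ← add_assoc] at this
  exact add_right_cancel this

theorem r1m (u : E × E) :
    fderiv ℝ P.Q v u - P.t (ng v) • fderiv ℝ P.W v u = P.H (ng v) (u.1 - P.t (ng v) • u.2) := by
  have h0 := r1p hD (ng_Γ hv) (ng u)
  have h1 : HasFDerivAt P.Q (fderiv ℝ P.Q (ng v) ∘L ngL) v :=
    ((Q_diff hD (ng_Γ hv)).hasFDerivAt.comp v (ng_hasFDerivAt v)).congr_of_eventuallyEq (by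
      filter_upwards [Nm.isOpen_U.mem_nhds hv.1] with u hu using (Q_ng hu).symm)
  have h2 : HasFDerivAt P.W (-(fderiv ℝ P.W (ng v) ∘L ngL)) v :=
    ((W_diff hD (ng_Γ hv)).hasFDerivAt.comp v (ng_hasFDerivAt v)).neg.congr_of_eventuallyEq
      (Eventually.of_forall fun u => by simp [W_ng])
  rw [h1.fderiv, h2.fderiv]
  simpa [ngL_apply, sub_eq_add_neg] using h0

theorem T_diff : DifferentiableWithinAt ℝ P.T (P.Γ D) v :=
  (hD _ hv.2.1).dT.comp v
    (x_hasFDerivAt hv.1 (hD _ hv.2.1)).differentiableAt.differentiableWithinAt fun _ hu => hu.2.1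

theorem ν_diff : DifferentiableWithinAt ℝ P.ν (P.Γ D) v :=
  (hD _ hv.2.1).dν.comp v
    (x_hasFDerivAt hv.1 (hD _ hv.2.1)).differentiableAt.differentiableWithinAt fun _ hu => hu.2.1

theorem H_diff : DifferentiableWithinAt ℝ P.H (P.Γ D) v :=
  (T_diff hD hv).add (diff_smulRight (ν_diff hD hv)
    ((((ν_diff hD hv).clm_apply differentiableWithinAt_snd).inv
      (ν_pos hv.1 (hD _ hv.2.1)).ne').smul ((W_diff hD hv).differentiableWithinAt.sub
        ((T_diff hD hv).clm_apply differentiableWithinAt_snd))))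

theorem G_diff : DifferentiableWithinAt ℝ P.G (P.Γ D) v :=
  (H_diff hD hv).inverse (H_unit hv.1 (hD _ hv.2.1))

theorem K_diff : DifferentiableWithinAt ℝ P.K (P.Γ D) v :=
  (adj (E := E)).differentiableAt.comp_differentiableWithinAt v (G_diff hD hv)

theorem ng_diff {X : Type*} [NormedAddCommGroup X] [NormedSpace ℝ X] {g : E × E → X}
    (h : DifferentiableWithinAt ℝ g (P.Γ D) (ng v)) :
    DifferentiableWithinAt ℝ (fun u => g (ng u)) (P.Γ D) v :=
  h.comp v (ng_hasFDerivAt v).differentiableAt.differentiableWithinAt fun _ hu => ng_Γ hu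

theorem aa_diff : DifferentiableWithinAt ℝ P.aa (P.Γ D) v :=
  (((t_diff hv.1 (hD _ hv.2.1)).add (tng_diff hD hv)).inv
    (τ_pos hv.1).ne').differentiableWithinAt.smul
    (((tng_diff hD hv).differentiableWithinAt.smul (H_diff hD hv)).add
      ((t_diff hv.1 (hD _ hv.2.1)).differentiableWithinAt.smul
        (ng_diff hD hv (H_diff hD (ng_Γ hv)))))

theorem bb_diff : DifferentiableWithinAt ℝ P.bb (P.Γ D) v :=
  (((t_diff hv.1 (hD _ hv.2.1)).add (tng_diff hD hv)).inv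
    (τ_pos hv.1).ne').differentiableWithinAt.smul
    (((tng_diff hD hv).differentiableWithinAt.smul (G_diff hD hv)).add
      ((t_diff hv.1 (hD _ hv.2.1)).differentiableWithinAt.smul
        (ng_diff hD hv (G_diff hD (ng_Γ hv)))))

theorem aa_Ψ : P.symm.aa (P.Ψ v) = P.bb v := by
  rw [aa, bb, ← Ψ_ng hv.1, t_Ψ hv.1, t_Ψ (Nm.ng_mem hv.1), H_Ψ hv.1 (hD _ hv.2.1),
    H_Ψ (Nm.ng_mem hv.1) (hD _ hv.2.2)]

theorem Q_slice : HasFDerivAt (fun p => P.Q (p, v.2)) (P.aa v) v.1 := by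
  have h1 := HasFDerivAt.comp (f := fun p => (p, v.2)) v.1 (Q_diff hD hv).hasFDerivAt
    (hasFDerivAt_prodMk_left (𝕜 := ℝ) v.1 v.2)
  refine h1.congr_fderiv (Eq.symm ?_)
  ext k
  have a1 := r1p hD hv (k, 0)
  have a2 := r1m hD hv (k, 0)
  have hτ : P.t v + P.t (ng v) ≠ 0 := (τ_pos hv.1).ne'
  simp only [smul_zero, add_zero, sub_zero] at a1 a2
  simp only [aa, _root_.smul_apply, _root_.add_apply, ← a1, ← a2, ContinuousLinearMap.comp_apply,
    ContinuousLinearMap.inl_apply]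
  match_scalars <;> field_simp <;> ring

theorem W_slice : HasFDerivAt (fun p => P.W (p, v.2)) ((P.τ v)⁻¹ • (P.H v - P.H (ng v))) v.1 := by
  have h1 := HasFDerivAt.comp (f := fun p => (p, v.2)) v.1 (W_diff hD hv).hasFDerivAt
    (hasFDerivAt_prodMk_left (𝕜 := ℝ) v.1 v.2)
  refine h1.congr_fderiv (Eq.symm ?_)
  ext k
  have a1 := r1p hD hv (k, 0)
  have a2 := r1m hD hv (k, 0)
  have hτ : P.t v + P.t (ng v) ≠ 0 := (τ_pos hv.1).ne'
  simp only [smul_zero, add_zero, sub_zero] at a1 a2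
  simp only [τ, _root_.smul_apply, _root_.sub_apply, ← a1, ← a2, ContinuousLinearMap.comp_apply,
    ContinuousLinearMap.inl_apply]
  match_scalars <;> field_simp <;> ring

/-- Joint first order variation of the two endpoints. -/
theorem joint (k k' : E) : ∃ l : ℝ,
    (fun ε => P.N'.p ((P.τ v + ε * l) • P.W v + ε • (P.H v k - P.H (ng v) k')) -
      P.N.p ((P.τ v + ε * l) • v.2 + ε • (k - k'))) =o[𝓝[>] 0] fun ε => ε := by
  have g1 := hD _ hv.2.1
  have g2 := hD _ hv.2.2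
  have hv' := Nm.ng_mem hv.1
  have c1 : HasDerivAt (fun ε : ℝ => v + ε • ((k, 0) : E × E)) (k, 0) 0 := by
    simpa using ((hasDerivAt_id (0 : ℝ)).smul_const ((k, 0) : E × E)).const_add v
  have c2 : HasDerivAt (fun ε : ℝ => ng v + ε • ((k', 0) : E × E)) (k', 0) 0 := by
    simpa using ((hasDerivAt_id (0 : ℝ)).smul_const ((k', 0) : E × E)).const_add (ng v)
  have a1 := HasFDerivAt.comp_hasDerivAt_of_eq (0 : ℝ) (Fz_hasFDerivAt hv.1 g1) c1 (by simp)
  have a2 := HasFDerivAt.comp_hasDerivAt_of_eq (0 : ℝ) (Fz_hasFDerivAt hv' g2) c2 (by simp)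
  have b1 := HasFDerivAt.comp_hasDerivAt_of_eq (0 : ℝ)
    (z_hasFDerivAt hv.1 g1).differentiableAt.hasFDerivAt c1 (by simp)
  have b2 := HasFDerivAt.comp_hasDerivAt_of_eq (0 : ℝ)
    (z_hasFDerivAt hv' g2).differentiableAt.hasFDerivAt c2 (by simp)
  have a3 := P.N'.littleO (a1.sub a2)
  have b3 := P.N.littleO (b1.sub b2)
  refine ⟨fderiv ℝ P.t v (k, 0) + fderiv ℝ P.t (ng v) (k', 0),
    (b3.sub a3).congr' ?_ EventuallyEq.rfl⟩
  have e1 : ∀ᶠ ε in 𝓝 (0 : ℝ), v + ε • ((k, 0) : E × E) ∈ P.N.U :=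
    c1.continuousAt.eventually (Nm.isOpen_U.mem_nhds (by simpa using hv.1))
  have e2 : ∀ᶠ ε in 𝓝 (0 : ℝ), ng v + ε • ((k', 0) : E × E) ∈ P.N.U :=
    c2.continuousAt.eventually (Nm.isOpen_U.mem_nhds (by simpa using hv'))
  filter_upwards [nhdsWithin_le_nhds e1, nhdsWithin_le_nhds e2] with ε h1 h2
  simp only [Pi.sub_apply, Function.comp_apply, zero_smul, add_zero,
    ContinuousLinearMap.comp_apply, T_dz hv.1 g1, T_dz hv' g2, smul_zero]
  rw [P.isoF _ _ ((Nm.z_one h1).trans (Nm.z_one h2).symm), ← τ_W hv.1, z_sub,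
    fderiv_z hv.1 g1, fderiv_z hv' g2, W_ng]
  simp only [smul_zero, add_zero, ng_snd]
  have f1 : P.τ v • P.W v + ε • (P.H v k + fderiv ℝ P.t v (k, 0) • P.W v -
      (P.H (ng v) k' + fderiv ℝ P.t (ng v) (k', 0) • -P.W v)) =
      (P.τ v + ε * (fderiv ℝ P.t v (k, 0) + fderiv ℝ P.t (ng v) (k', 0))) • P.W v +
        ε • (P.H v k - P.H (ng v) k') := by module
  have f2 : P.τ v • v.2 + ε • (k + fderiv ℝ P.t v (k, 0) • v.2 -
      (k' + fderiv ℝ P.t (ng v) (k', 0) • -v.2)) =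
      (P.τ v + ε * (fderiv ℝ P.t v (k, 0) + fderiv ℝ P.t (ng v) (k', 0))) • v.2 +
        ε • (k - k') := by module
  rw [f1, f2]
  ring

theorem J_K {ψ : E} (hJ : P.N.J v.2 ψ) : P.N'.J (P.W v) (P.K v ψ) := by
  have g1 := hD _ hv.2.1
  refine ⟨fun h => ?_, by rw [← H_w hv.1 g1, inner_K_H hv.1 g1, hJ.2, H_w hv.1 g1, norm_W hv.1]⟩
  obtain ⟨l, hl⟩ := joint hD hv (P.G v h) 0
  simp only [map_zero, sub_zero, H_G hv.1 g1] at hl
  have := Nm.J_le (τ_pos hv.1) hv.1.2 (norm_W hv.1) hJ hl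
  rwa [K, inner_adj, norm_W hv.1]

theorem J_adj {φ : E} (hJ : P.N'.J (P.W v) φ) : P.N.J v.2 (adj (P.H v) φ) := by
  have g1 := hD _ hv.2.1
  refine ⟨fun h => ?_, by rw [inner_adj, H_w hv.1 g1, hJ.2, norm_W hv.1]⟩
  obtain ⟨l, hl⟩ := joint hD hv h 0
  simp only [map_zero, sub_zero] at hl
  have := Nm.J_le (w := P.W v) (τ_pos hv.1) (Ψ_mem hv.1).2 (norm_W hv.1).symm hJ
    (hl.neg_left.congr_left fun ε => neg_sub _ _)
  rwa [inner_adj, ← norm_W hv.1]

theorem inner_H_ng {φ : E} (hJ : P.N'.J (P.W v) φ) (k : E) :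
    ⟪φ, P.H (ng v) k⟫ = ⟪φ, P.H v k⟫ := by
  have key : ∀ k, ⟪φ, P.H v k - P.H (ng v) k⟫ ≤ 0 := by
    intro k
    obtain ⟨l, hl⟩ := joint hD hv k k
    have := Nm.J_le (w := P.W v) (τ_pos hv.1) (Ψ_mem hv.1).2 (norm_W hv.1).symm hJ
      (hl.neg_left.congr_left fun ε => neg_sub _ _)
    simpa using this
  have h1 := key k
  have h2 := key (-k)
  rw [map_neg, map_neg, ← neg_sub', inner_neg_right] at h2
  rw [inner_sub_right] at h1 h2
  linarith

theorem K_ng {ψ : E} (hJ : P.N.J v.2 ψ) : P.K (ng v) ψ = P.K v ψ := by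
  have g1 := hD _ hv.2.1
  have g2 := hD _ hv.2.2
  refine ext_inner_right ℝ fun h => ?_
  rw [← H_G (Nm.ng_mem hv.1) g2 h, inner_K_H (Nm.ng_mem hv.1) g2,
    inner_H_ng hD hv (J_K hD hv hJ), inner_K_H hv.1 g1]

end

end Pair

end Vale.Agent.P084
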