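import Vale.Agent.P084.Norm

/-! Differentiability of exit times, and closure properties of local Lipschitz continuity. -/

open MeasureTheory Filter Topology Set Metric Asymptotics
open scoped NNReal ENNReal RealInnerProductSpace

namespace Vale.Agent.P084

section LL

variable {V W X : Type*} [NormedAddCommGroup V] [NormedAddCommGroup W] [NormedAddCommGroup X]

theorem LL.continuousAt {g : V → W} {x : V} (h : LL g x) : ContinuousAt g x := by
  obtain ⟨K, t, ht, hK⟩ := h
  exact hK.continuousOn.continuousAt ht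

theorem LL.comp {f : W → X} {g : V → W} {x : V} (hf : LL f (g x)) (hg : LL g x) :
    LL (fun y => f (g y)) x := by
  have hc := hg.continuousAt
  obtain ⟨K, t, ht, hK⟩ := hg
  obtain ⟨K', t', ht', hK'⟩ := hf
  exact ⟨K' * K, t ∩ g ⁻¹' t', inter_mem ht (hc ht'),
    hK'.comp (hK.mono inter_subset_left) fun y hy => hy.2⟩

theorem LL.of_lip {g : V → W} {K : ℝ≥0} (h : LipschitzWith K g) (x : V) : LL g x :=
  ⟨K, univ, univ_mem, h.lipschitzOnWith⟩

theorem LL.prod {f : V → W} {g : V → X} {x : V} (hf : LL f x) (hg : LL g x) :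
    LL (fun y => (f y, g y)) x := by
  obtain ⟨K, t, ht, hK⟩ := hg
  obtain ⟨K', t', ht', hK'⟩ := hf
  exact ⟨max K' K, t' ∩ t, inter_mem ht' ht,
    (hK'.mono inter_subset_left).prodMk (hK.mono inter_subset_right)⟩

theorem LL.of_contDiffAt [NormedSpace ℝ V] [NormedSpace ℝ W] {g : V → W} {x : V}
    (h : ContDiffAt ℝ 1 g x) : LL g x := h.exists_lipschitzOnWith

theorem LL.isBigO {g : V → W} {x : V} (h : LL g x) :
    (fun y => g y - g x) =O[𝓝 x] fun y => y - x := by
  obtain ⟨K, t, ht, hK⟩ := h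
  refine IsBigO.of_bound K ?_
  filter_upwards [ht] with y hy
  simpa [dist_eq_norm] using hK.dist_le_mul y hy x (mem_of_mem_nhds ht)

variable [NormedSpace ℝ W]

theorem LL.add {f g : V → W} {x : V} (hf : LL f x) (hg : LL g x) : LL (fun y => f y + g y) x :=
  LL.comp (f := fun u : W × W => u.1 + u.2) (LL.of_contDiffAt (by fun_prop)) (hf.prod hg)

theorem LL.sub {f g : V → W} {x : V} (hf : LL f x) (hg : LL g x) : LL (fun y => f y - g y) x :=
  LL.comp (f := fun u : W × W => u.1 - u.2) (LL.of_contDiffAt (by fun_prop)) (hf.prod hg)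

theorem LL.smul {f : V → ℝ} {g : V → W} {x : V} (hf : LL f x) (hg : LL g x) :
    LL (fun y => f y • g y) x :=
  LL.comp (f := fun u : ℝ × W => u.1 • u.2) (LL.of_contDiffAt (by fun_prop)) (hf.prod hg)

theorem LL.inv {f : V → ℝ} {x : V} (hf : LL f x) (h0 : f x ≠ 0) : LL (fun y => (f y)⁻¹) x :=
  LL.comp (f := fun u : ℝ => u⁻¹) (LL.of_contDiffAt (contDiffAt_inv ℝ h0)) hf

end LL

variable {E : Type*} [NormedAddCommGroup E] [InnerProductSpace ℝ E] {N : Nm E}

namespace Nm

/-- Exit point. -/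
noncomputable def z (N : Nm E) (v : E × E) : E := v.1 + N.ex v.1 v.2 • v.2

theorem z_one {v : E × E} (hv : v ∈ N.U) : N.p (N.z v) = 1 := (ex_spec hv.1 hv.2).2

theorem ex_pos {v : E × E} (hv : v ∈ N.U) : 0 < N.ex v.1 v.2 := (ex_spec hv.1 hv.2).1

theorem z_LL {v : E × E} (hv : v ∈ N.U) : LL N.z v :=
  (LL.of_lip LipschitzWith.prod_fst v).add ((ex_LL hv).smul (LL.of_lip LipschitzWith.prod_snd v))

theorem nu_pos {v : E × E} (hv : v ∈ N.U) {ν : E →L[ℝ] ℝ} (hν : HasFDerivAt N.p ν (N.z v)) :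
    0 < ν v.2 := by
  have h1 := convex_fderiv_le N.convexOn hν.differentiableAt v.1
  rw [hν.fderiv, z_one hv, z, sub_add_cancel_left, map_neg, map_smul, smul_eq_mul] at h1
  have := hv.1
  by_contra hcon
  push Not at hcon
  nlinarith [ex_pos hv]

theorem ex_hasFDerivAt {v : E × E} (hv : v ∈ N.U) {ν : E →L[ℝ] ℝ}
    (hν : HasFDerivAt N.p ν (N.z v)) :
    HasFDerivAt (fun u : E × E => N.ex u.1 u.2)
      (-(ν v.2)⁻¹ • ν ∘L (ContinuousLinearMap.fst ℝ E E +
        N.ex v.1 v.2 • ContinuousLinearMap.snd ℝ E E)) v := by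
  have hp := nu_pos hv hν
  have h1 : (fun u => N.p (N.z u) - N.p (N.z v) - ν (N.z u - N.z v)) =o[𝓝 v] fun u => u - v :=
    (hν.isLittleO.comp_tendsto (z_LL hv).continuousAt).trans_isBigO (z_LL hv).isBigO
  have h2 : (fun u : E × E => (N.ex u.1 u.2 - N.ex v.1 v.2) * ν (u.2 - v.2)) =o[𝓝 v]
      fun u => u - v := by
    have a1 : (fun u : E × E => ν (u.2 - v.2)) =o[𝓝 v] fun _ => (1 : ℝ) := by
      rw [isLittleO_one_iff]
      have : Continuous fun u : E × E => ν (u.2 - v.2) := by fun_prop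
      simpa using this.tendsto v
    have := ((ex_LL hv).isBigO.norm_right).mul_isLittleO a1
    simp only [mul_one] at this
    exact this.of_norm_right
  rw [hasFDerivAt_iff_isLittleO]
  refine ((h1.add h2).const_mul_left (-(ν v.2)⁻¹)).congr' ?_ EventuallyEq.rfl
  filter_upwards [isOpen_U.mem_nhds hv] with u hu
  rw [z_one hu, z_one hv]
  simp only [z, _root_.smul_apply, ContinuousLinearMap.comp_apply, _root_.add_apply,
    ContinuousLinearMap.coe_fst', ContinuousLinearMap.coe_snd',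
    map_add, map_sub, map_smul, smul_eq_mul]
  field_simp
  ring

end Nm

end Vale.Agent.P084
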