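import Vale.Agent.P084.Perfect

/-! The averaged derivative is the linear extension. -/

open MeasureTheory Filter Topology Set Metric Asymptotics
open scoped NNReal ENNReal RealInnerProductSpace

set_option linter.unusedSectionVars false

namespace Vale.Agent.P084

variable {E : Type*} [NormedAddCommGroup E] [InnerProductSpace ℝ E] [FiniteDimensional ℝ E]

theorem fderiv_le_of {g : E → ℝ} {p v : E} {c : ℝ} (hd : DifferentiableAt ℝ g p)
    (h : ∀ᶠ s in 𝓝[>] (0 : ℝ), g (p + s • v) - g p ≤ s * c) : fderiv ℝ g p v ≤ c := by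
  have a1 : HasDerivAt (fun s : ℝ => p + s • v) v 0 := by
    simpa using ((hasDerivAt_id (0 : ℝ)).smul_const v).const_add p
  have a2 : HasDerivAt (fun s : ℝ => g (p + s • v)) (fderiv ℝ g p v) 0 :=
    HasFDerivAt.comp_hasDerivAt (0 : ℝ) (by simpa using hd.hasFDerivAt) a1
  refine le_of_tendsto a2.tendsto_slope_zero_right ?_
  filter_upwards [h, self_mem_nhdsWithin] with s h1 h2
  simp only [zero_add, zero_smul, add_zero, smul_eq_mul]
  rwa [inv_mul_le_iff₀ h2]

theorem le_fderiv_of {g : E → ℝ} {p v : E} {c : ℝ} (hd : DifferentiableAt ℝ g p)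
    (h : ∀ᶠ s in 𝓝[>] (0 : ℝ), s * c ≤ g (p + s • v) - g p) : c ≤ fderiv ℝ g p v := by
  have := fderiv_le_of (g := -g) (v := v) (c := -c) hd.neg (by
    filter_upwards [h] with s hs
    simp only [Pi.neg_apply]; linarith)
  rw [fderiv_neg] at this
  simpa using this

namespace Nm

variable (N : Nm E)

theorem mem_closure_B {x : E} (hx : N.p x ≤ 1) : x ∈ closure N.B := by
  have : Tendsto (fun t : ℝ => t • x) (𝓝[<] 1) (𝓝 x) := by
    have : Continuous fun t : ℝ => t • x := by fun_prop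
    simpa using (this.tendsto 1).mono_left nhdsWithin_le_nhds
  refine mem_closure_of_tendsto this ?_
  filter_upwards [Ioo_mem_nhdsLT zero_lt_one] with t ht
  change N.p _ < 1
  rw [N.smul ht.1.le]
  nlinarith [ht.1, ht.2]

theorem exists_one [Nontrivial E] : ∃ z, N.p z = 1 := by
  obtain ⟨x, hx⟩ := exists_ne (0 : E)
  have hp := N.pos hx
  exact ⟨(N.p x)⁻¹ • x, by rw [N.smul (inv_nonneg.2 hp.le), inv_mul_cancel₀ hp.ne']⟩

/-- One-sided Lipschitz condition. -/
def Mc (g : E → ℝ) : Prop := ∀ p q, g p ≤ g q + N.p (p - q)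

variable {N}

theorem Mc.lip {g : E → ℝ} (h : N.Mc g) : LipschitzWith N.C.toNNReal g := by
  refine LipschitzWith.of_le_add_mul _ fun x y => (h x y).trans ?_
  rw [dist_eq_norm, Real.coe_toNNReal _ N.C_pos.le]
  linarith [N.hi (x - y)]

theorem Mc.fderiv_le {g : E → ℝ} (h : N.Mc g) (p v : E) : fderiv ℝ g p v ≤ N.p v := by
  by_cases hd : DifferentiableAt ℝ g p
  · refine fderiv_le_of hd ?_
    filter_upwards [self_mem_nhdsWithin] with s hs
    have := h (p + s • v) p
    rw [add_sub_cancel_left, N.smul (le_of_lt hs)] at this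
    linarith
  · rw [fderiv_zero_of_not_differentiableAt hd]; exact N.nonneg v

variable (N)

theorem Mc_self : N.Mc N.p := fun p q => N.le_add_sub p q

variable [MeasurableSpace E] [BorelSpace E] (μ : Measure E) [Measure.IsAddHaarMeasure μ]

theorem sphere_null : μ {x | N.p x = 1} = 0 := by
  refine measure_mono_null (fun x hx => ?_) (N.convex_B.addHaar_frontier μ)
  rw [N.isOpen_B.frontier_eq]
  exact ⟨N.mem_closure_B hx.le, fun h => (show N.p x < 1 from h).ne hx⟩

theorem int_zero {k : E → ℝ} {L : ℝ≥0} (hk : LipschitzWith L k) (h0 : ∀ z, N.p z = 1 → k z = 0)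
    (v : E) : ∫ p in N.B, fderiv ℝ k p v ∂μ = 0 := by
  have key : ∀ p ∈ N.B, ∀ q ∉ N.B, dist (k p) 0 ≤ L * dist p q := by
    intro p hp q hq
    obtain ⟨t, ht, h1⟩ := intermediate_value_Icc zero_le_one
      (f := fun t : ℝ => N.p (p + t • (q - p))) (N.cont.comp (by fun_prop)).continuousOn
      (show (1 : ℝ) ∈ Icc _ _ from ⟨by simpa using le_of_lt hp, by simpa using not_lt.1 hq⟩)
    have := hk.dist_le_mul p (p + t • (q - p))
    rw [h0 _ h1, dist_self_add_right, norm_smul, Real.norm_of_nonneg ht.1, ← dist_eq_norm,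
      dist_comm q] at this
    refine this.trans ?_
    gcongr
    exact mul_le_of_le_one_left dist_nonneg ht.2
  have hl : LipschitzWith L (N.B.indicator k) := LipschitzWith.of_dist_le_mul fun p q => by
    by_cases hp : p ∈ N.B <;> by_cases hq : q ∈ N.B
    · rw [indicator_of_mem hp, indicator_of_mem hq]; exact hk.dist_le_mul p q
    · rw [indicator_of_mem hp, indicator_of_notMem hq]; exact key p hp q hq
    · rw [indicator_of_notMem hp, indicator_of_mem hq, dist_comm, dist_comm p]; exact key q hq p hp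
    · rw [indicator_of_notMem hp, indicator_of_notMem hq, dist_self]; positivity
  have hc : HasCompactSupport (N.B.indicator k) := HasCompactSupport.intro (N.isCompact_le 1)
    fun x hx => indicator_of_notMem (fun (h : x ∈ N.B) => hx (le_of_lt (a := N.p x) h)) _
  have := (LipschitzWith.const (1 : ℝ)).integral_lineDeriv_mul_eq (μ := μ) hl hc (-v)
  simp only [lineDeriv, deriv_const', zero_mul, integral_zero, neg_neg, mul_one] at this
  rw [← integral_indicator N.isOpen_B.measurableSet, this]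
  refine integral_congr_ae ?_
  filter_upwards [hk.ae_differentiableAt (μ := μ),
    measure_eq_zero_iff_ae_notMem.1 (N.sphere_null μ)] with x h1 h2
  change _ = lineDeriv ℝ (N.B.indicator k) x v
  by_cases hx : x ∈ N.B
  · rw [indicator_of_mem hx, ← h1.lineDeriv_eq_fderiv]
    refine Filter.EventuallyEq.lineDeriv_eq ?_
    filter_upwards [N.isOpen_B.mem_nhds hx] with y hy using (indicator_of_mem hy _).symm
  · have e : N.B.indicator k =ᶠ[𝓝 x] fun _ => (0 : ℝ) := by
      filter_upwards [(isOpen_lt continuous_const N.cont).mem_nhds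
        (show 1 < N.p x from lt_of_le_of_ne (not_lt.1 hx) (Ne.symm h2))] with y hy
      exact indicator_of_notMem (fun (h : y ∈ N.B) => lt_asymm hy h) k
    rw [indicator_of_notMem hx, e.lineDeriv_eq]
    simp [lineDeriv]

theorem integrableOn_fderiv {W : Type*} [NormedAddCommGroup W] [NormedSpace ℝ W]
    [FiniteDimensional ℝ W] {g : E → W} {L : ℝ≥0} (hg : LipschitzWith L g) :
    IntegrableOn (fderiv ℝ g) N.B μ :=
  Measure.integrableOn_of_bounded (Pair.vol_pos N).2.1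
    (measurable_fderiv ℝ g).aestronglyMeasurable
    (Eventually.of_forall fun _ => norm_fderiv_le_of_lipschitz ℝ hg)

theorem real_pos : 0 < μ.real N.B := ENNReal.toReal_pos (Pair.vol_pos N).1 (Pair.vol_pos N).2.1

theorem eq_zero_of_fderiv {u : E} (h : ∀ᵐ y ∂μ, fderiv ℝ N.p y u = 0) : u = 0 := by
  have := eq_of_fderiv_eq_zero (μ := μ) N.lip isOpen_univ (x := 0) (e := u)
    (fun _ _ => mem_univ _) (by filter_upwards [h] with y hy _ using hy)
  exact N.eq_zero (by simpa using this.le)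

theorem eq_zero_of_gr {u : E} (h : ∀ᵐ ψ ∂μ, ψ ∈ N.Bs → ψ ∈ DS N.hs ∧ ⟪gr N.hs ψ, u⟫ = 0) :
    u = 0 := by
  have hc : Convex ℝ N.Bs := by simpa [Bs] using N.convexOn_hs.convex_lt (1 / 2)
  obtain ⟨s, hs1, hs⟩ : ∃ s : ℝ, s • u ∈ N.Bs ∧ 0 < s := by
    have : Tendsto (fun t : ℝ => t • u) (𝓝[>] 0) (𝓝 0) := by
      have : Continuous fun t : ℝ => t • u := by fun_prop
      simpa using (this.tendsto 0).mono_left nhdsWithin_le_nhds
    exact ((this.eventually (N.isOpen_Bs.mem_nhds N.zero_mem_Bs)).and self_mem_nhdsWithin).exists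
  have := eq_of_hasFDerivAt_zero (μ := μ) N.isOpen_Bs (fun x _ => convex_LL N.convexOn_hs x)
    (e := s • u) (x := 0) (by
      filter_upwards [h] with y hy hyB
      refine ⟨_, (hy hyB).1.hasFDerivAt, ?_⟩
      rw [← inner_gr, inner_smul_right, (hy hyB).2, mul_zero])
    fun t ht => hc.add_smul_mem N.zero_mem_Bs (by simpa using hs1) ht
  obtain ⟨w, hw⟩ := N.exists_J (s • u)
  rw [zero_add, hw.hs_eq, N.J_zero.hs_eq] at this
  have hw0 : w = 0 := N.eq_zero (by
    rw [map_zero] at this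
    nlinarith [N.nonneg w])
  rw [hw0] at hw
  exact (smul_eq_zero.1 hw.eq_zero).resolve_left hs.ne'

end Nm

namespace Pair

variable (P : Pair E)

theorem mcshane [Nontrivial E] {ξ : E →L[ℝ] ℝ} (hξ : ∀ u, ξ u ≤ P.N'.p u) :
    ∃ g : E → ℝ, P.N.Mc g ∧ ∀ z, P.N.p z = 1 → g z = ξ (P.F z) := by
  have : Nonempty {z // P.N.p z = 1} := nonempty_subtype.2 P.N.exists_one
  have hb : ∀ p, BddBelow (range fun z : {z // P.N.p z = 1} => ξ (P.F z) + P.N.p (p - z)) := by
    intro p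
    refine ⟨-1, ?_⟩
    rintro _ ⟨z, rfl⟩
    have h1 := hξ (-P.F z)
    rw [map_neg, P.N'.neg, P.normF, z.2] at h1
    have := P.N.nonneg (p - z)
    simp only
    linarith
  refine ⟨fun p => ⨅ z : {z // P.N.p z = 1}, (ξ (P.F z) + P.N.p (p - z)), fun p q => ?_,
    fun z hz => le_antisymm ?_ (le_ciInf fun z' => ?_)⟩
  · rw [← sub_le_iff_le_add]
    refine le_ciInf fun z => ?_
    have h1 := ciInf_le (hb p) z
    have h2 := P.N.add_le (p - q) (q - z)
    rw [sub_add_sub_cancel] at h2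
    linarith
  · simpa using ciInf_le (hb z) ⟨z, hz⟩
  · have := hξ (P.F z - P.F z')
    rw [map_sub, P.isoF _ _ (hz.trans z'.2.symm)] at this
    linarith

variable [MeasurableSpace E] [BorelSpace E] (μ : Measure E) [Measure.IsAddHaarMeasure μ]

/-- The averaged derivative. -/
noncomputable def Tm : E →L[ℝ] E := (μ.real P.N.B)⁻¹ • ∫ p in P.N.B, fderiv ℝ P.F p ∂μ

variable {P}

theorem avg {g : E → ℝ} (hg : P.N.Mc g) {ξ : E →L[ℝ] ℝ}
    (h : ∀ z, P.N.p z = 1 → g z = ξ (P.F z)) (v : E) :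
    ∫ p in P.N.B, fderiv ℝ g p v ∂μ = μ.real P.N.B * ξ (P.Tm μ v) := by
  have h0 := P.N.int_zero μ (hg.lip.sub (ξ.lipschitz.comp P.lip))
    (fun z hz => by simp [h z hz]) v
  have i1 := P.N.integrableOn_fderiv μ P.lip
  have i2 := P.N.integrableOn_fderiv μ hg.lip
  have e1 := (ξ ∘L ContinuousLinearMap.apply ℝ E v).integral_comp_comm i1
  simp only [ContinuousLinearMap.comp_apply, ContinuousLinearMap.apply_apply] at e1
  have e2 : ∫ p in P.N.B, (fderiv ℝ g p v - ξ (fderiv ℝ P.F p v)) ∂μ = 0 := by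
    rw [← h0]
    refine integral_congr_ae (ae_restrict_of_ae ?_)
    filter_upwards [hg.lip.ae_differentiableAt (μ := μ), P.lip.ae_differentiableAt (μ := μ)]
      with x h1 h2
    rw [(h1.hasFDerivAt.fun_sub (ξ.hasFDerivAt.comp x h2.hasFDerivAt)).fderiv]
    simp
  have j1 : IntegrableOn (fun p => ξ (fderiv ℝ P.F p v)) P.N.B μ :=
    (ξ ∘L ContinuousLinearMap.apply ℝ E v).integrable_comp i1
  have j2 : IntegrableOn (fun p => fderiv ℝ g p v) P.N.B μ :=
    (ContinuousLinearMap.apply ℝ ℝ v).integrable_comp i2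
  rw [integral_sub j2 j1, sub_eq_zero, e1] at e2
  rw [e2, Tm, _root_.smul_apply, map_smul, smul_eq_mul,
    mul_inv_cancel_left₀ (P.N.real_pos μ).ne']

theorem avg_le [Nontrivial E] {ξ : E →L[ℝ] ℝ} (hξ : ∀ u, ξ u ≤ P.N'.p u) (v : E) :
    ξ (P.Tm μ v) ≤ P.N.p v := by
  obtain ⟨g, hg, h⟩ := P.mcshane hξ
  have : IsFiniteMeasure (μ.restrict P.N.B) :=
    isFiniteMeasure_restrict.2 (vol_pos P.N).2.1
  have h1 : ∫ p in P.N.B, fderiv ℝ g p v ∂μ ≤ ∫ _ in P.N.B, P.N.p v ∂μ :=
    integral_mono ((ContinuousLinearMap.apply ℝ ℝ v).integrable_comp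
      (P.N.integrableOn_fderiv μ hg.lip)) (integrable_const _) fun p => hg.fderiv_le p v
  rw [avg μ hg h, setIntegral_const, smul_eq_mul] at h1
  exact le_of_mul_le_mul_left h1 (P.N.real_pos μ)

theorem Tm_le [Nontrivial E] (v : E) : P.N'.p (P.Tm μ v) ≤ P.N.p v := by
  by_contra hcon
  push Not at hcon
  obtain ⟨y, hy, hd⟩ := (convex_full (μ := μ) P.N'.convexOn).exists_mem
    (O := {y | P.N.p v + P.N'.p (y - P.Tm μ v) < P.N'.p y})
    (isOpen_lt (continuous_const.add (P.N'.cont.comp (by fun_prop))) P.N'.cont) (subset_univ _)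
    ⟨P.Tm μ v, by simpa using hcon⟩
  have h1 := avg_le μ (P.N'.Mc_self.fderiv_le y) v
  have h2 := P.N'.Mc_self.fderiv_le y (y - P.Tm μ v)
  rw [map_sub, homog_euler P.N'.homog (DifferentiableAt.hasFDerivAt hd)] at h2
  have hy' : P.N.p v + P.N'.p (y - P.Tm μ v) < P.N'.p y := hy
  linarith

variable {D : Set E}

theorem Tm_perf [Nontrivial E] (hD : ∀ x ∈ D, P.GoodPt D x) {y : E × E} (hy : y ∈ P.G1 D)
    (hp : P.Perf y.1) : P.Tm μ (P.κ y).2 = P.W (P.κ y) := by
  have hU := hy.1.2.2.1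
  have hJ := J_φ hD hy.1
  have hg := hJ.gr_eq hy.2.1
  have hn := norm_W hU
  have hW : ∀ q ∈ P.N.B, P.W (q, (P.κ y).2) = P.W (P.κ y) := fun q hq => hp _ hU.1 q hq
  have hw := hU.2
  generalize (P.κ y).2 = w at hn hW hw ⊢
  generalize P.W (P.κ y) = w' at hn hW hJ hg ⊢
  have hr := P.N.pos hw
  obtain ⟨g, hg1, hg2⟩ := P.mcshane (ξ := (P.N.p w)⁻¹ • rl (P.φ y)) fun u => by
    have := hJ.1 u
    rw [hn] at this
    simpa [inv_mul_le_iff₀ hr] using this
  have : IsFiniteMeasure (μ.restrict P.N.B) :=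
    isFiniteMeasure_restrict.2 (vol_pos P.N).2.1
  have h1 : ∫ _ in P.N.B, P.N.p w ∂μ ≤ ∫ p in P.N.B, fderiv ℝ g p w ∂μ := by
    refine integral_mono_ae (integrable_const _) ((ContinuousLinearMap.apply ℝ ℝ w).integrable_comp
      (P.N.integrableOn_fderiv μ hg1.lip)) ?_
    filter_upwards [ae_restrict_of_ae (hg1.lip.ae_differentiableAt (μ := μ)),
      ae_restrict_mem P.N.isOpen_B.measurableSet] with p hd hpB
    have hv : (p, w) ∈ P.N.U := ⟨hpB, hw⟩
    refine le_fderiv_of hd ?_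
    filter_upwards [Ioo_mem_nhdsGT (t_pos hv)] with s hs
    have a1 := hg1 (P.N.z (p, w)) (p + s • w)
    have a2 := hg1 p (P.N.z (ng (p, w)))
    have e1 : P.N.z (p, w) - (p + s • w) = (P.t (p, w) - s) • w := by rw [z_eq]; module
    have e2 : p - P.N.z (ng (p, w)) = P.t (ng (p, w)) • w := by rw [z_ng]; module
    rw [e1, P.N.smul (by linarith [hs.2]), hg2 _ (Nm.z_one hv)] at a1
    rw [e2, P.N.smul (t_pos (Nm.ng_mem hv)).le, hg2 _ (Nm.z_one (Nm.ng_mem hv))] at a2
    have a3 : ((P.N.p w)⁻¹ • rl (P.φ y)) (P.F (P.N.z (p, w))) -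
        ((P.N.p w)⁻¹ • rl (P.φ y)) (P.F (P.N.z (ng (p, w)))) =
        (P.t (p, w) + P.t (ng (p, w))) * P.N.p w := by
      rw [← map_sub, ← τ_W hv, hW p hpB, map_smul, _root_.smul_apply, rl_apply, hJ.2, hn, τ]
      simp only [smul_eq_mul]
      field_simp
    linarith
  rw [avg μ hg1 hg2, setIntegral_const, smul_eq_mul] at h1
  have h2 := le_of_mul_le_mul_left h1 (P.N.real_pos μ)
  rw [_root_.smul_apply, rl_apply, smul_eq_mul, le_inv_mul_iff₀ hr] at h2
  have := Nm.eq_smul_gr (v := P.Tm μ w) hy.2.1 one_pos (by rw [hg, hn, one_mul]; exact Tm_le μ w)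
    (by rw [hg, hn, one_mul, sq]; exact h2)
  rw [this, hg, one_smul]

variable (P)

theorem Tm_inv [Nontrivial E] (v : E) : P.symm.Tm μ (P.Tm μ v) = v := by
  obtain ⟨D, hm, ha, hD⟩ := P.exists_good μ
  obtain ⟨D', hm', ha', hD'⟩ := P.symm.exists_good μ
  have h1 := full_G1 hD (full_G0 hm ha)
  have h1' := full_G1 hD' (full_G0 (P := P.symm) hm' ha')
  have h2 := full_pre hD h1 (ae_perf hD' h1')
  have h3 : Full (μ.prod μ) {y | y.1 ∈ DS P.N.hs ∧
      P.symm.Tm μ (P.Tm μ (gr P.N.hs y.1)) = gr P.N.hs y.1} P.Ω := by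
    filter_upwards [h2, ae_perf hD h1] with y a1 a2 hy
    have b1 := Tm_perf μ hD (a2 hy).1 (a2 hy).2
    have b2 := Tm_perf μ hD' (a1 hy).2.1 (a1 hy).2.2
    rw [κ_Φ hD (a2 hy).1, W_Ψ (a2 hy).1.1.2.2.1] at b2
    exact ⟨(a2 hy).1.1.2.1.1, (congrArg _ b1).trans b2⟩
  rw [← sub_eq_zero]
  refine ext_inner_left ℝ fun u => ?_
  have h4 : adj (P.symm.Tm μ ∘L P.Tm μ - 1) u = 0 := by
    refine P.N.eq_zero_of_gr μ ?_
    filter_upwards [slice_full h3] with ψ h hψ
    obtain ⟨p, -, hp⟩ := (h hψ).exists_mem P.N.isOpen_B subset_rfl ⟨0, P.N.zero_mem_B⟩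
    refine ⟨hp.1, ?_⟩
    rw [inner_adj']
    simp [hp.2]
  have := inner_adj (P.symm.Tm μ ∘L P.Tm μ - 1) u v
  rw [h4, inner_zero_left] at this
  simpa using this.symm

theorem Tm_F [Nontrivial E] {z : E} (hz : P.N.p z = 1) : P.symm.Tm μ (P.F z) = z := by
  rw [← sub_eq_zero]
  refine P.N.eq_zero_of_fderiv μ ?_
  have a0 : ∀ᵐ x ∂μ, x ≠ 0 := by
    simpa using measure_eq_zero_iff_ae_notMem.1 (measure_singleton (μ := μ) (0 : E))
  filter_upwards [a0, P.N.lip.ae_differentiableAt (μ := μ)] with v hv hd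
  have hν := P.N.Mc_self.fderiv_le v
  have hνv := homog_euler P.N.homog hd.hasFDerivAt
  have hξ : ∀ u, (fderiv ℝ P.N.p v ∘L P.symm.Tm μ) u ≤ P.N'.p u := fun u =>
    (hν _).trans (Tm_le (P := P.symm) μ u)
  obtain ⟨g, hg1, hg2⟩ := P.mcshane hξ
  have : IsFiniteMeasure (μ.restrict P.N.B) :=
    isFiniteMeasure_restrict.2 (vol_pos P.N).2.1
  have i1 : IntegrableOn (fun p => fderiv ℝ g p v) P.N.B μ :=
    (ContinuousLinearMap.apply ℝ ℝ v).integrable_comp (P.N.integrableOn_fderiv μ hg1.lip)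
  have h1 : ∫ p in P.N.B, (P.N.p v - fderiv ℝ g p v) ∂μ = 0 := by
    rw [integral_sub (integrable_const _) i1, avg μ hg1 hg2, setIntegral_const,
      ContinuousLinearMap.comp_apply, Tm_inv, hνv, smul_eq_mul, sub_self]
  rw [setIntegral_eq_zero_iff_of_nonneg_ae
    (Eventually.of_forall fun p => sub_nonneg.2 (hg1.fderiv_le p v))
    ((integrable_const _).sub i1), Filter.EventuallyEq,
    ae_restrict_iff' P.N.isOpen_B.measurableSet] at h1
  have hl := hg1.lip.sub (fderiv ℝ P.N.p v).lipschitz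
  have h2 : ∀ p ∈ P.N.B, g p - fderiv ℝ P.N.p v p = g 0 := by
    intro p hp
    have := eq_of_fderiv_eq_zero (μ := μ) hl P.N.isOpen_B (x := 0) (e := p)
      (fun t ht => P.N.convex_B.add_smul_mem P.N.zero_mem_B (by simpa using hp) ht) (by
        filter_upwards [h1, hg1.lip.ae_differentiableAt (μ := μ)] with y b1 b2 hy
        have b3 : IsLocalMin (fun u => P.N.p u - fderiv ℝ g y u) v :=
          Eventually.of_forall fun u => by
            have := b1 hy
            have := hg1.fderiv_le y u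
            simp only [Pi.zero_apply] at *
            linarith
        have b4 := b3.hasFDerivAt_eq_zero (hd.hasFDerivAt.sub (fderiv ℝ g y).hasFDerivAt)
        rw [(b2.hasFDerivAt.fun_sub (fderiv ℝ P.N.p v).hasFDerivAt).fderiv, sub_eq_zero.1 b4]
        simp)
    simpa using this
  have h3 : ∀ p, P.N.p p = 1 →
      fderiv ℝ P.N.p v (P.symm.Tm μ (P.F p)) - fderiv ℝ P.N.p v p = g 0 := by
    intro p hp
    have := (isClosed_eq hl.continuous (continuous_const (y := g 0))).closure_subset_iff.2 h2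
      (P.N.mem_closure_B hp.le)
    rw [← this, hg2 p hp]; rfl
  have hp := P.N.pos hv
  have n1 : P.N.p ((P.N.p v)⁻¹ • v) = 1 := by
    rw [P.N.smul (inv_nonneg.2 hp.le), inv_mul_cancel₀ hp.ne']
  have n2 : P.N.p (-((P.N.p v)⁻¹ • v)) = 1 := by rw [P.N.neg, n1]
  have c1 := h3 _ n1
  have c2 := h3 _ n2
  have c3 := hξ (P.F ((P.N.p v)⁻¹ • v))
  have c4 := hξ (-P.F (-((P.N.p v)⁻¹ • v)))
  rw [map_smul, hνv, smul_eq_mul, inv_mul_cancel₀ hp.ne'] at c1
  rw [map_neg, map_smul, hνv, smul_eq_mul, inv_mul_cancel₀ hp.ne'] at c2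
  rw [P.normF, n1, ContinuousLinearMap.comp_apply] at c3
  rw [P.N'.neg, P.normF, n2, map_neg, ContinuousLinearMap.comp_apply] at c4
  rw [map_sub, h3 z hz]
  linarith

omit [MeasurableSpace E] [BorelSpace E] in
/-- The homogeneous extension is linear. -/
theorem linear : ∃ T : E →L[ℝ] E, ∀ x, P.F x = T x := by
  rcases subsingleton_or_nontrivial E with h | h
  · exact ⟨0, fun x => Subsingleton.elim _ _⟩
  borelize E
  refine ⟨P.Tm Measure.addHaar, fun x => ?_⟩
  by_cases hx : x = 0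
  · rw [hx, P.F_zero, map_zero]
  have hp := P.N.pos hx
  have n1 : P.N.p ((P.N.p x)⁻¹ • x) = 1 := by
    rw [P.N.smul (inv_nonneg.2 hp.le), inv_mul_cancel₀ hp.ne']
  have h1 := P.Tm_F Measure.addHaar n1
  have h2 : P.Tm Measure.addHaar (P.symm.Tm Measure.addHaar (P.F ((P.N.p x)⁻¹ • x))) = _ :=
    P.symm.Tm_inv Measure.addHaar (P.F ((P.N.p x)⁻¹ • x))
  rw [h1, map_smul, P.homF _ (inv_nonneg.2 hp.le)] at h2
  exact (smul_right_injective E (inv_ne_zero hp.ne') h2).symm

end Pair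

end Vale.Agent.P084
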