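import Vale.Agent.P084.Pair

/-! The derivative of the homogeneous extension is a.e. differentiable along a full set. -/

open MeasureTheory Filter Topology Set Metric Asymptotics
open scoped NNReal ENNReal RealInnerProductSpace

namespace Vale.Agent.P084

variable {E : Type*} [NormedAddCommGroup E] [InnerProductSpace ℝ E] [FiniteDimensional ℝ E]

omit [FiniteDimensional ℝ E] in
theorem diff_smulRight {V : Type*} [NormedAddCommGroup V] [NormedSpace ℝ V] {s : Set V} {x : V}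
    {f : V → E →L[ℝ] ℝ} {g : V → E} (hf : DifferentiableWithinAt ℝ f s x)
    (hg : DifferentiableWithinAt ℝ g s x) :
    DifferentiableWithinAt ℝ (fun y => (f y).smulRight (g y)) s x := by
  have h1 := (isBoundedBilinearMap_smulRight (𝕜 := ℝ) (E := E) (F := E)).differentiableAt
    (f x, g x)
  exact h1.comp_differentiableWithinAt (f := fun y => (f y, g y)) x (hf.prodMk hg)

namespace Pair

variable (P : Pair E)

/-- Good points relative to a set `D`. -/
structure GoodPt (D : Set E) (x : E) : Prop where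
  dF : DifferentiableAt ℝ P.F x
  dF' : DifferentiableAt ℝ P.F' (P.F x)
  dN : DifferentiableAt ℝ P.N.p x
  dN' : DifferentiableAt ℝ P.N'.p (P.F x)
  dT : DifferentiableWithinAt ℝ (fderiv ℝ P.F) D x
  dν : DifferentiableWithinAt ℝ (fderiv ℝ P.N.p) D x

theorem exists_seq : ∃ a : ℕ → E, (∀ i, P.N.p (a i) = 1 ∨ a i = 0) ∧
    ∀ b, P.N'.p b = 1 → ∀ ε > 0, ∃ i, P.N.p (a i) = 1 ∧ P.N'.p (P.F (a i) - b) < ε := by
  let u := TopologicalSpace.denseSeq E
  refine ⟨fun i => (P.N.p (u i))⁻¹ • u i, fun i => ?_, fun b hb ε hε => ?_⟩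
  · by_cases h : u i = 0
    · right; simp [h]
    · left
      have := P.N.pos h
      rw [P.N.smul (inv_nonneg.2 this.le), inv_mul_cancel₀ this.ne']
  · have hx : P.N.p (P.F' b) = 1 := by rw [← P.normF, P.right, hb]
    have hc : ContinuousAt (fun x => P.N'.p (P.F ((P.N.p x)⁻¹ • x) - b)) (P.F' b) := by
      refine P.N'.cont.continuousAt.comp (ContinuousAt.sub ?_ continuousAt_const)
      exact P.lip.continuous.continuousAt.comp
        ((P.N.cont.continuousAt.inv₀ (by rw [hx]; exact one_ne_zero)).smul continuousAt_id)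
    have h1 : ∀ᶠ x in 𝓝 (P.F' b), P.N'.p (P.F ((P.N.p x)⁻¹ • x) - b) < ε :=
      hc.eventually (gt_mem_nhds (by simpa [hx, P.right] using hε))
    have h2 : ∀ᶠ x in 𝓝 (P.F' b), 0 < P.N.p x :=
      P.N.cont.continuousAt.eventually (lt_mem_nhds (by rw [hx]; exact zero_lt_one))
    obtain ⟨_, ⟨i, rfl⟩, hi⟩ : ∃ x ∈ range u, x ∈ {x | P.N'.p (P.F ((P.N.p x)⁻¹ • x) - b) < ε ∧
        0 < P.N.p x} := (TopologicalSpace.denseRange_denseSeq E).inter_nhds_nonempty (h1.and h2)
    exact ⟨i, by rw [P.N.smul (inv_nonneg.2 hi.2.le), inv_mul_cancel₀ hi.2.ne'], hi.1⟩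

theorem dT_of {D : Set E} {x : E} (hx : x ∈ D)
    (h : ∀ v : E, v ≠ 0 → ∃ α β : E → E →L[ℝ] ℝ, DifferentiableWithinAt ℝ α D x ∧
      DifferentiableWithinAt ℝ β D x ∧ (∀ y ∈ D, β y ∘L fderiv ℝ P.F y = α y) ∧ β x v ≠ 0) :
    DifferentiableWithinAt ℝ (fderiv ℝ P.F) D x := by
  let S : Submodule ℝ E :=
    { carrier := {u | ∃ α β : E → E →L[ℝ] ℝ, DifferentiableWithinAt ℝ α D x ∧
        DifferentiableWithinAt ℝ β D x ∧ (∀ y ∈ D, β y ∘L fderiv ℝ P.F y = α y) ∧ β x = rl u}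
      add_mem' := by
        rintro u u' ⟨α, β, h1, h2, h3, h4⟩ ⟨α', β', h1', h2', h3', h4'⟩
        refine ⟨fun y => α y + α' y, fun y => β y + β' y, h1.add h1', h2.add h2',
          fun y hy => ?_, by simp [h4, h4']⟩
        simp only [ContinuousLinearMap.add_comp, h3 y hy, h3' y hy]
      zero_mem' := ⟨fun _ => 0, fun _ => 0, differentiableWithinAt_const _,
        differentiableWithinAt_const _, fun y _ => by simp, by simp⟩
      smul_mem' := by
        rintro c u ⟨α, β, h1, h2, h3, h4⟩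
        refine ⟨fun y => c • α y, fun y => c • β y, h1.const_smul c, h2.const_smul c,
          fun y hy => ?_, by simp [h4]⟩
        simp only [ContinuousLinearMap.smul_comp, h3 y hy] }
  have hS : S = ⊤ := by
    rw [← Submodule.orthogonal_eq_bot_iff, eq_bot_iff]
    intro v hv
    by_contra hv0
    obtain ⟨α, β, h1, h2, h3, h4⟩ := h v hv0
    have := (Submodule.mem_orthogonal _ _).1 hv (rz (β x)) ⟨α, β, h1, h2, h3, by simp⟩
    exact h4 (by simpa using this)
  let b := stdOrthonormalBasis ℝ E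
  have hb : ∀ j, b j ∈ S := fun j => by rw [hS]; trivial
  choose α β h1 h2 h3 h4 using hb
  let A : E → E →L[ℝ] E := fun y => ∑ j, (α j y).smulRight (b j)
  let B : E → E →L[ℝ] E := fun y => ∑ j, (β j y).smulRight (b j)
  have dA : DifferentiableWithinAt ℝ A D x :=
    DifferentiableWithinAt.fun_sum fun j _ =>
      diff_smulRight (h1 j) (differentiableWithinAt_const _)
  have dB : DifferentiableWithinAt ℝ B D x :=
    DifferentiableWithinAt.fun_sum fun j _ =>
      diff_smulRight (h2 j) (differentiableWithinAt_const _)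
  have hBA : ∀ y ∈ D, B y * fderiv ℝ P.F y = A y := by
    intro y hy
    ext v
    simp only [A, B, mul_apply_eq_comp, _root_.sum_apply,
      ContinuousLinearMap.smulRight_apply, ← h3 _ y hy, ContinuousLinearMap.comp_apply]
  have hB1 : B x = 1 := by
    ext v
    simp only [B, _root_.sum_apply, ContinuousLinearMap.smulRight_apply, h4, rl_apply]
    exact b.sum_repr' v
  have hu : ∀ᶠ y in 𝓝[D] x, IsUnit (B y) :=
    dB.continuousWithinAt.eventually (Units.isOpen.mem_nhds (by rw [hB1]; exact isUnit_one))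
  have d1 : DifferentiableWithinAt ℝ (fun y => Ring.inverse (B y) * A y) D x :=
    (dB.inverse (by rw [hB1]; exact isUnit_one)).mul dA
  refine d1.congr_of_eventuallyEq ?_ ?_
  · filter_upwards [hu, self_mem_nhdsWithin] with y hy hyD
    rw [← hBA y hyD, Ring.inverse_mul_cancel_left _ _ hy]
  · rw [← hBA x hx, Ring.inverse_mul_cancel_left _ _ (by rw [hB1]; exact isUnit_one)]

variable [MeasurableSpace E] [BorelSpace E] (μ : Measure E) [Measure.IsAddHaarMeasure μ]

theorem exists_good [Nontrivial E] :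
    ∃ D : Set E, MeasurableSet D ∧ (∀ᵐ x ∂μ, x ∈ D) ∧ ∀ x ∈ D, P.GoodPt D x := by
  obtain ⟨a, ha1, ha2⟩ := P.exists_seq
  have hle : ∀ i, P.N.p (a i) ≤ 1 := fun i => by
    rcases ha1 i with h | h
    · exact h.le
    · simp [h]
  have pull : ∀ {p : E → Prop}, (∀ᵐ y ∂μ, p y) → ∀ᵐ x ∂μ, p (P.F x) := fun hp =>
    ae_comp_of_leftInverse P.symm.lip P.left hp
  have h0 : Full μ {x | x ≠ 0 ∧ DifferentiableAt ℝ P.F x ∧ DifferentiableAt ℝ P.F' (P.F x) ∧
      x ∈ AG P.N.p ∧ P.F x ∈ AG P.N'.p ∧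
      ∀ i, x ∈ AG (P.N.cv (a i)) ∧ P.F x ∈ AG (P.N'.cv (P.F (a i)))} univ := by
    have a1 : ∀ᵐ x ∂μ, x ≠ 0 := by
      simpa using measure_eq_zero_iff_ae_notMem.1 (measure_singleton (μ := μ) (0 : E))
    have a2 : ∀ᵐ x ∂μ, ∀ i, x ∈ AG (P.N.cv (a i)) ∧ P.F x ∈ AG (P.N'.cv (P.F (a i))) := by
      rw [ae_all_iff]
      intro i
      exact (alexandrov (P.N.convexOn_cv (hle i))).and
        (pull (alexandrov (P.N'.convexOn_cv (by rw [P.normF]; exact hle i))))
    filter_upwards [a1, a2, P.lip.ae_differentiableAt, pull P.symm.lip.ae_differentiableAt,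
      alexandrov P.N.convexOn, pull (alexandrov P.N'.convexOn)] with x h1 h2 h3 h4 h5 h6 _
    exact ⟨h1, h3, h4, h5, h6, h2⟩
  obtain ⟨D, hD, -, hm, hf⟩ := h0.exists_measurable MeasurableSet.univ
  refine ⟨D, hm, by filter_upwards [hf] with x hx using hx (mem_univ x), fun x hx => ?_⟩
  obtain ⟨x0, d1, d2, g1, g2, g3⟩ := hD hx
  have chain : ∀ (c c' : E → ℝ), (∀ y, c' (P.F y) = c y) → (∀ y ∈ D, P.F y ∈ AG c') →
      (∀ y ∈ D, y ∈ AG c) → DifferentiableWithinAt ℝ (fderiv ℝ c) D x ∧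
      DifferentiableWithinAt ℝ (fun y => fderiv ℝ c' (P.F y)) D x ∧
      ∀ y ∈ D, fderiv ℝ c' (P.F y) ∘L fderiv ℝ P.F y = fderiv ℝ c y := by
    intro c c' hcc h1 h2
    refine ⟨(h2 x hx).2.mono fun y hy => (h2 y hy).1,
      (h1 x hx).2.comp x d1.differentiableWithinAt fun y hy => (h1 y hy).1, fun y hy => ?_⟩
    rw [← fderiv_comp y (h1 y hy).1 (hD hy).2.1]
    congr 1
    funext w; exact hcc w
  have cN := chain P.N.p P.N'.p P.normF (fun y hy => (hD hy).2.2.2.2.1)
    fun y hy => (hD hy).2.2.2.1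
  refine ⟨d1, d2, g1.1, g2.1, P.dT_of hx fun v hv => ?_, cN.1⟩
  by_cases hνv : fderiv ℝ P.N'.p (P.F x) v = 0
  · have hq : P.F x ≠ 0 := by
      intro h
      apply x0
      rw [← P.left x, h]; exact P.symm.F_zero
    obtain ⟨b, hb, ε, hε, hbε⟩ := P.N'.exists_cv_ne hq g2.1.hasFDerivAt hv hνv
    obtain ⟨i, hi1, hi2⟩ := ha2 b hb ε hε
    have ci := chain _ _ (P.cv_F hi1) (fun y hy => ((hD hy).2.2.2.2.2 i).2)
      fun y hy => ((hD hy).2.2.2.2.2 i).1
    exact ⟨_, _, ci.1, ci.2.1, ci.2.2,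
      hbε _ (by rw [P.normF, hi1]) hi2 _ (g3 i).2.1.hasFDerivAt⟩
  · exact ⟨_, _, cN.1, cN.2.1, cN.2.2, hνv⟩

end Pair

end Vale.Agent.P084
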