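import Vale.Agent.P084.Alex

/-! Linear algebra: determinant inequalities for the chord correspondence. -/

open scoped RealInnerProductSpace

namespace Vale.Agent.P084

theorem det_one_add_comm {V W : Type*} [AddCommGroup V] [Module ℝ V] [FiniteDimensional ℝ V]
    [AddCommGroup W] [Module ℝ W] [FiniteDimensional ℝ W] (A : V →ₗ[ℝ] W) (B : W →ₗ[ℝ] V) :
    LinearMap.det (1 + B ∘ₗ A) = LinearMap.det (1 + A ∘ₗ B) := by
  classical
  let b := Module.Free.chooseBasis ℝ V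
  let c := Module.Free.chooseBasis ℝ W
  rw [← LinearMap.det_toMatrix b, ← LinearMap.det_toMatrix c, map_add, map_add,
    LinearMap.toMatrix_comp b c b, LinearMap.toMatrix_comp c b c, LinearMap.toMatrix_one,
    LinearMap.toMatrix_one, Matrix.det_one_add_mul_comm]

variable {E : Type*} [NormedAddCommGroup E] [InnerProductSpace ℝ E] [FiniteDimensional ℝ E]

theorem det_adj (A : E →L[ℝ] E) : (adj A).det = A.det := by
  classical
  let b := stdOrthonormalBasis ℝ E
  have h : ((adj A : E →L[ℝ] E) : E →ₗ[ℝ] E) = LinearMap.adjoint (A : E →ₗ[ℝ] E) := by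
    rw [LinearMap.eq_adjoint_iff]
    intro x y
    simp
  rw [ContinuousLinearMap.det, ContinuousLinearMap.det, h, ← LinearMap.det_toMatrix b.toBasis,
    ← LinearMap.det_toMatrix b.toBasis, LinearMap.toMatrix_adjoint, Matrix.det_conjTranspose]
  simp

/-- Symmetric positive semidefinite operators. -/
def Psd (A : E →L[ℝ] E) : Prop := (∀ u v, ⟪A u, v⟫ = ⟪u, A v⟫) ∧ ∀ u, 0 ≤ ⟪A u, u⟫

omit [FiniteDimensional ℝ E] in
theorem Psd.eq_zero {A : E →L[ℝ] E} (h : Psd A) {u : E} (hu : ⟪A u, u⟫ ≤ 0) : A u = 0 := by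
  have h0 : ⟪A u, u⟫ = 0 := le_antisymm hu (h.2 u)
  have key : ∀ t : ℝ, 0 ≤ t * t * ⟪A (A u), A u⟫ + 2 * t * ⟪A u, A u⟫ := by
    intro t
    have := h.2 (u + t • A u)
    rw [map_add, map_smul, inner_add_left, inner_add_right, inner_add_right, inner_smul_left,
      inner_smul_right, inner_smul_left, inner_smul_right, h0, h.1 (A u) u] at this
    simp only [conj_trivial] at this
    linarith
  have hc := h.2 (A u)
  have hn : 0 ≤ ⟪A u, A u⟫ := real_inner_self_nonneg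
  rw [← inner_self_eq_zero (𝕜 := ℝ)]
  set c := ⟪A (A u), A u⟫
  set n := ⟪A u, A u⟫
  have := key (-n / (c + 1))
  have hp : 0 < c + 1 := by linarith
  have e : -n / (c + 1) * (-n / (c + 1)) * c + 2 * (-n / (c + 1)) * n =
      -(n * n * (c + 2)) / ((c + 1) * (c + 1)) := by field_simp; ring
  rw [e, le_div_iff₀ (by positivity)] at this
  nlinarith [mul_self_nonneg n]

theorem Psd.exists_sqrt {A : E →L[ℝ] E} (h : Psd A) :
    ∃ R : E →ₗ[ℝ] E, (∀ u v, ⟪R u, v⟫ = ⟪u, R v⟫) ∧ R ∘ₗ R = (A : E →ₗ[ℝ] E) := by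
  have hs : (A : E →ₗ[ℝ] E).IsSymmetric := fun u v => h.1 u v
  let b := hs.eigenvectorBasis rfl
  let l := hs.eigenvalues rfl
  have hb : ∀ i, A (b i) = l i • b i := fun i => hs.apply_eigenvectorBasis rfl i
  have hl : ∀ i, 0 ≤ l i := fun i => by
    have := h.2 (b i)
    rw [hb, inner_smul_left, real_inner_self_eq_norm_sq, b.orthonormal.1 i] at this
    simpa using this
  let R : E →ₗ[ℝ] E := b.toBasis.constr ℝ fun i => Real.sqrt (l i) • b i
  have hR : ∀ i, R (b i) = Real.sqrt (l i) • b i := fun i => by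
    have := b.toBasis.constr_basis ℝ (fun i => Real.sqrt (l i) • b i) i
    rwa [OrthonormalBasis.coe_toBasis] at this
  refine ⟨R, ?_, ?_⟩
  · have : R = LinearMap.adjoint R := by
      rw [LinearMap.eq_adjoint_iff_basis b.toBasis b.toBasis]
      intro i j
      simp only [OrthonormalBasis.coe_toBasis, hR, inner_smul_left, inner_smul_right,
        conj_trivial]
      by_cases hij : i = j
      · rw [hij]
      · rw [b.orthonormal.2 hij]; simp
    exact (LinearMap.eq_adjoint_iff R R).1 this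
  · refine b.toBasis.ext fun i => ?_
    simp only [OrthonormalBasis.coe_toBasis, LinearMap.comp_apply, hR, map_smul, smul_smul,
      Real.mul_self_sqrt (hl i), ContinuousLinearMap.coe_coe, hb]

theorem det_one_add_psd {S : E →ₗ[ℝ] E} (h1 : ∀ u v, ⟪S u, v⟫ = ⟪u, S v⟫)
    (h2 : ∀ u, 0 ≤ ⟪S u, u⟫) :
    1 ≤ LinearMap.det (1 + S) ∧ (LinearMap.det (1 + S) ≤ 1 → S = 0) := by
  have hs : (1 + S).IsSymmetric := fun u v => by
    simp only [LinearMap.add_apply, Module.End.one_apply, inner_add_left, inner_add_right, h1]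
  let b := hs.eigenvectorBasis rfl
  let l := hs.eigenvalues rfl
  have hb : ∀ i, b i + S (b i) = l i • b i := fun i => hs.apply_eigenvectorBasis rfl i
  have hl : ∀ i, 1 ≤ l i := fun i => by
    have e1 : ⟪b i + S (b i), b i⟫ = l i := by
      rw [hb, inner_smul_left, real_inner_self_eq_norm_sq, b.orthonormal.1 i]; simp
    rw [inner_add_left, real_inner_self_eq_norm_sq, b.orthonormal.1 i] at e1
    have := h2 (b i)
    linarith
  have hd : LinearMap.det (1 + S) = ∏ i, l i := by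
    simpa using hs.det_eq_prod_eigenvalues rfl
  rw [hd]
  refine ⟨Finset.one_le_prod fun i _ => hl i, fun hle => ?_⟩
  refine b.toBasis.ext fun i => ?_
  have h3 : l i ≤ ∏ j, l j := by
    classical
    rw [← Finset.mul_prod_erase _ _ (Finset.mem_univ i)]
    have : 1 ≤ ∏ j ∈ Finset.univ.erase i, l j := Finset.one_le_prod fun i _ => hl i
    nlinarith [hl i]
  have h4 : l i = 1 := le_antisymm (h3.trans hle) (hl i)
  have := hb i
  rw [h4, one_smul] at this
  simpa using this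

theorem det_psd_mul {P Q : E →L[ℝ] E} (hP : Psd P) (hQ : Psd Q) :
    1 ≤ (1 + P ∘L Q).det ∧ ((1 + P ∘L Q).det ≤ 1 → ∀ v, Q (P v) = 0) := by
  obtain ⟨R, hR1, hR2⟩ := hP.exists_sqrt
  have hRR : ∀ v, R (R v) = P v := fun v => LinearMap.congr_fun hR2 v
  have e1 : (1 + P ∘L Q).det = LinearMap.det (1 + (R ∘ₗ (Q : E →ₗ[ℝ] E)) ∘ₗ R) := by
    rw [det_one_add_comm, ← LinearMap.comp_assoc, hR2]
    rfl
  have := det_one_add_psd (S := (R ∘ₗ (Q : E →ₗ[ℝ] E)) ∘ₗ R)
    (fun u v => by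
      simp only [LinearMap.comp_apply, ContinuousLinearMap.coe_coe]
      rw [hR1, hQ.1, hR1])
    (fun u => by
      simp only [LinearMap.comp_apply, ContinuousLinearMap.coe_coe]
      rw [hR1]; exact hQ.2 _)
  rw [e1]
  refine ⟨this.1, fun hle v => hQ.eq_zero ?_⟩
  have h0 := LinearMap.congr_fun (this.2 hle) (R v)
  simp only [LinearMap.comp_apply, ContinuousLinearMap.coe_coe, LinearMap.zero_apply, hRR] at h0
  rw [← hRR v, ← hR1, hRR v, h0, inner_zero_left]

omit [FiniteDimensional ℝ E] in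
/-- The data of the derivative of the chord correspondence at a good point. -/
structure LD (A A' Hp Hm Gp Gm Kp Km : E →L[ℝ] E) (tp tm : ℝ) (Dφ DQ DW : E × E →L[ℝ] E) :
    Prop where
  pA : Psd A
  pA' : Psd A'
  tp_pos : 0 < tp
  tm_pos : 0 < tm
  hgp : ∀ v, Hp (Gp v) = v
  ghp : ∀ v, Gp (Hp v) = v
  hgm : ∀ v, Hm (Gm v) = v
  ghm : ∀ v, Gm (Hm v) = v
  kp : ∀ u v, ⟪Kp u, v⟫ = ⟪u, Gp v⟫
  km : ∀ u v, ⟪Km u, v⟫ = ⟪u, Gm v⟫
  f1p : ∀ v, DQ v + tp • DW v = Hp (v.2 + tp • A v.1)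
  f1m : ∀ v, DQ v - tm • DW v = Hm (v.2 - tm • A v.1)
  f2p : ∀ ξ, Dφ (ξ, -(tp • A ξ)) = Kp ξ
  f2m : ∀ ξ, Dφ (ξ, tm • A ξ) = Km ξ
  f3 : ∀ v, DW v = A' (Dφ v)

namespace LD

variable {A A' Hp Hm Gp Gm Kp Km : E →L[ℝ] E} {tp tm : ℝ} {Dφ DQ DW : E × E →L[ℝ] E}
  (h : LD A A' Hp Hm Gp Gm Kp Km tp tm Dφ DQ DW)
include h

omit [FiniteDimensional ℝ E] in
theorem dφ (ξ k : E) : Dφ (ξ, k) = Kp ξ + Dφ (0, k + tp • A ξ) := by
  rw [← h.f2p, ← map_add]; simp

theorem det_eq_one : (Dφ.prod DQ).det = 1 := by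
  let M : E →ₗ[ℝ] E := (Dφ : E × E →ₗ[ℝ] E) ∘ₗ LinearMap.inr ℝ E E
  let L1 : E × E →ₗ[ℝ] E × E :=
    1 + LinearMap.inr ℝ E E ∘ₗ ((tp • (A : E →ₗ[ℝ] E)) ∘ₗ LinearMap.fst ℝ E E)
  let L2 : E × E →ₗ[ℝ] E × E := LinearMap.prodMap (Kp : E →ₗ[ℝ] E) (Hp : E →ₗ[ℝ] E)
  let L3 : E × E →ₗ[ℝ] E × E :=
    1 + LinearMap.inl ℝ E E ∘ₗ ((M ∘ₗ (Gp : E →ₗ[ℝ] E)) ∘ₗ LinearMap.snd ℝ E E)
  let L4 : E × E →ₗ[ℝ] E × E :=
    1 + LinearMap.inr ℝ E E ∘ₗ ((-tp • (A' : E →ₗ[ℝ] E)) ∘ₗ LinearMap.fst ℝ E E)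
  have d1 : LinearMap.det L1 = 1 := by
    simp only [L1]
    rw [det_one_add_comm, LinearMap.comp_assoc, LinearMap.fst_comp_inr]; simp
  have d3 : LinearMap.det L3 = 1 := by
    simp only [L3]
    rw [det_one_add_comm, LinearMap.comp_assoc, LinearMap.snd_comp_inl]; simp
  have d4 : LinearMap.det L4 = 1 := by
    simp only [L4]
    rw [det_one_add_comm, LinearMap.comp_assoc, LinearMap.fst_comp_inr]; simp
  have d2 : LinearMap.det L2 = 1 := by
    have e1 : Kp = adj Gp := by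
      ext u
      refine ext_inner_right ℝ fun v => ?_
      rw [h.kp, inner_adj]
    have e2 : (Gp : E →ₗ[ℝ] E) ∘ₗ (Hp : E →ₗ[ℝ] E) = LinearMap.id := by
      ext v; simp [h.ghp]
    simp only [L2]
    rw [LinearMap.det_prodMap, e1]
    have := det_adj Gp
    rw [ContinuousLinearMap.det, ContinuousLinearMap.det] at this
    rw [this, ← LinearMap.det_comp, e2, LinearMap.det_id]
  have e : ((Dφ.prod DQ : E × E →L[ℝ] E × E) : E × E →ₗ[ℝ] E × E) =
      L4 ∘ₗ L3 ∘ₗ L2 ∘ₗ L1 := by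
    refine LinearMap.ext fun v => ?_
    obtain ⟨ξ, k⟩ := v
    have a1 := h.dφ ξ k
    have a2 := h.f1p (ξ, k)
    rw [h.f3] at a2
    simp only [L1, L2, L3, L4, M, ContinuousLinearMap.coe_coe, ContinuousLinearMap.prod_apply,
      LinearMap.comp_apply, LinearMap.add_apply, Module.End.one_apply, LinearMap.inr_apply,
      LinearMap.inl_apply, LinearMap.fst_apply, LinearMap.snd_apply, LinearMap.smul_apply,
      LinearMap.prodMap_apply, Prod.mk_add_mk, add_zero, h.ghp, ← a1, Prod.mk.injEq, true_and]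
    simp only at a2
    rw [← a2, neg_smul]; abel
  rw [ContinuousLinearMap.det, e, LinearMap.det_comp, LinearMap.det_comp, LinearMap.det_comp,
    d1, d2, d3, d4]
  norm_num

omit [FiniteDimensional ℝ E] in
theorem c2 (k : E) : Hp k - Hm k = (tp + tm) • A' (Dφ (0, k)) := by
  have a1 := h.f1p (0, k)
  have a2 := h.f1m (0, k)
  simp only [map_zero, smul_zero, add_zero, sub_zero, h.f3] at a1 a2
  rw [← a1, ← a2, add_smul]; abel

omit [FiniteDimensional ℝ E] in
theorem c3 (ξ : E) : Km ξ - Kp ξ = (tp + tm) • Dφ (0, A ξ) := by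
  rw [← h.f2m, h.dφ, add_sub_cancel_left, ← add_smul, ← map_smul Dφ, add_comm tm, Prod.smul_mk,
    smul_zero]

omit [FiniteDimensional ℝ E] in
theorem c4 (ξ : E) : A' (Kp ξ) = Hm (A ξ) := by
  have a1 := h.f1p (ξ, -(tp • A ξ))
  have a2 := h.f1m (ξ, -(tp • A ξ))
  simp only [neg_add_cancel, map_zero, h.f3, h.f2p] at a1 a2
  have e1 : -(tp • A ξ) - tm • A ξ = -((tp + tm) • A ξ) := by rw [add_smul]; abel
  rw [e1, map_neg, map_smul] at a2
  have e2 : (tp + tm) • A' (Kp ξ) = (tp + tm) • Hm (A ξ) := by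
    have : (tp + tm) • A' (Kp ξ) = (DQ (ξ, -(tp • A ξ)) + tp • A' (Kp ξ)) -
        (DQ (ξ, -(tp • A ξ)) - tm • A' (Kp ξ)) := by rw [add_smul]; abel
    rw [this, a1, a2]; simp
  exact smul_right_injective E (by linarith [h.tp_pos, h.tm_pos]) e2

theorem det_ab :
    1 ≤ ((tp + tm)⁻¹ • (tm • Hp + tp • Hm)).det * ((tp + tm)⁻¹ • (tm • Gp + tp • Gm)).det ∧
    (((tp + tm)⁻¹ • (tm • Hp + tp • Hm)).det * ((tp + tm)⁻¹ • (tm • Gp + tp • Gm)).det ≤ 1 →
      ∀ ξ, Hp (A ξ) = Hm (A ξ)) := by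
  have hp := h.tp_pos
  have hm := h.tm_pos
  have hτ : tp + tm ≠ 0 := by positivity
  let M : E →L[ℝ] E := Dφ ∘L ContinuousLinearMap.inr ℝ E E
  have hM : ∀ k, M k = Dφ (0, k) := fun k => rfl
  let Q : E →L[ℝ] E := (tp * tm) • (M ∘L A ∘L adj M)
  have hQ : Psd Q := by
    refine ⟨fun u v => ?_, fun u => ?_⟩
    · simp only [Q, _root_.smul_apply, ContinuousLinearMap.comp_apply, inner_smul_left,
        inner_smul_right, conj_trivial]
      rw [← inner_adj', h.pA.1, inner_adj]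
    · simp only [Q, _root_.smul_apply, ContinuousLinearMap.comp_apply, inner_smul_left,
        conj_trivial]
      rw [← inner_adj']
      exact mul_nonneg (by positivity) (h.pA.2 _)
  have g3 : ∀ v, Gm v - Gp v = (tp + tm) • A (adj M v) := by
    intro v
    refine ext_inner_left ℝ fun ξ => ?_
    rw [inner_sub_right, ← h.km, ← h.kp, ← inner_sub_left, h.c3, inner_smul_left,
      inner_smul_right, ← h.pA.1, inner_adj', hM]
    simp
  have e : ((tp + tm)⁻¹ • (tm • Hp + tp • Hm)) ∘L ((tp + tm)⁻¹ • (tm • Gp + tp • Gm)) =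
      1 + A' ∘L Q := by
    ext v
    have a1 : Hp (Gm v) - v - v + Hm (Gp v) = (tp + tm) • (tp + tm) • A' (M (A (adj M v))) := by
      have := h.c2 (Gm v - Gp v)
      rw [← hM, map_sub, map_sub, h.hgp, h.hgm, g3, map_smul, map_smul] at this
      rw [← this]; abel
    have a2 : Hp (Gm v) = (tp + tm) • (tp + tm) • A' (M (A (adj M v))) + v + v - Hm (Gp v) := by
      rw [← a1]; abel
    simp only [Q, ContinuousLinearMap.comp_apply, _root_.smul_apply, _root_.add_apply, map_smul,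
      map_add, h.hgp, h.hgm, one_apply_eq_self, a2]
    match_scalars <;> field_simp <;> ring
  have e' : ((tp + tm)⁻¹ • (tm • Hp + tp • Hm)).det * ((tp + tm)⁻¹ • (tm • Gp + tp • Gm)).det =
      (1 + A' ∘L Q).det := by
    rw [← e, ContinuousLinearMap.det, ContinuousLinearMap.det, ← LinearMap.det_comp]
    rfl
  rw [e']
  have := det_psd_mul h.pA' hQ
  refine ⟨this.1, fun hle ξ => ?_⟩
  have z : ∀ v, A (adj M (A' v)) = 0 := by
    intro v
    refine h.pA.eq_zero ?_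
    have h0 : ⟪Q (A' v), A' v⟫ = 0 := by rw [this.2 hle v, inner_zero_left]
    simp only [Q, _root_.smul_apply, ContinuousLinearMap.comp_apply, inner_smul_left,
      conj_trivial] at h0
    rw [← inner_adj'] at h0
    exact ((mul_eq_zero.1 h0).resolve_left (by positivity)).le
  rw [← sub_eq_zero, h.c2, ← hM]
  have : A' (M (A ξ)) = 0 := by
    refine ext_inner_right ℝ fun v => ?_
    rw [h.pA'.1, ← inner_adj', h.pA.1, z, inner_zero_right, inner_zero_left]
  rw [this, smul_zero]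

end LD

end Vale.Agent.P084
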