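import Vale.Agent.P084.Final

/-! Transport to general finite-dimensional normed spaces. -/

open MeasureTheory Filter Topology Set Metric
open scoped NNReal ENNReal

namespace Vale.Agent.P084

variable {X Y : Type*} [NormedAddCommGroup X] [NormedSpace ℝ X] [NormedAddCommGroup Y]
  [NormedSpace ℝ Y]

theorem normalize_mem {x : X} (hx : x ≠ 0) : ‖x‖⁻¹ • x ∈ sphere (0 : X) 1 := by
  rw [mem_sphere_zero_iff_norm, norm_smul, norm_inv, norm_norm,
    inv_mul_cancel₀ (norm_ne_zero_iff.2 hx)]

open Classical in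
/-- Homogeneous extension of a map between unit spheres. -/
noncomputable def hext (f : sphere (0 : X) 1 → sphere (0 : Y) 1) (x : X) : Y :=
  if h : x = 0 then 0 else ‖x‖ • (f ⟨‖x‖⁻¹ • x, normalize_mem h⟩ : Y)

theorem polar (x : X) : x = 0 ∨ ∃ z : sphere (0 : X) 1, x = ‖x‖ • (z : X) := by
  by_cases hx : x = 0
  · exact Or.inl hx
  · exact Or.inr ⟨⟨_, normalize_mem hx⟩, by
      simp [smul_smul, mul_inv_cancel₀ (norm_ne_zero_iff.2 hx)]⟩

variable {f : sphere (0 : X) 1 → sphere (0 : Y) 1}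

theorem hext_zero : hext f 0 = 0 := by simp [hext]

theorem hext_smul {r : ℝ} (hr : 0 ≤ r) (z : sphere (0 : X) 1) : hext f (r • (z : X)) = r • f z := by
  rcases hr.eq_or_lt with rfl | hr
  · simp [hext_zero]
  have hn : ‖r • (z : X)‖ = r := by
    rw [norm_smul, norm_eq_of_mem_sphere, mul_one, Real.norm_of_nonneg hr.le]
  have h0 : r • (z : X) ≠ 0 := by rw [← norm_ne_zero_iff, hn]; exact hr.ne'
  rw [hext, dif_neg h0]
  congr 3
  ext
  simp only [hn, smul_smul, inv_mul_cancel₀ hr.ne', one_smul]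

theorem hext_hom (t : ℝ) (ht : 0 ≤ t) (x : X) : hext f (t • x) = t • hext f x := by
  rcases polar x with rfl | ⟨z, hz⟩
  · simp [hext_zero]
  · rw [hz, smul_smul, hext_smul (by positivity), hext_smul (norm_nonneg _), smul_smul]

theorem hext_norm (x : X) : ‖hext f x‖ = ‖x‖ := by
  rcases polar x with rfl | ⟨z, hz⟩
  · simp [hext_zero]
  · conv_lhs => rw [hz, hext_smul (norm_nonneg _), norm_smul, norm_eq_of_mem_sphere, norm_norm,
      mul_one]

theorem hext_iso (hf : Isometry f) (x y : X) (h : ‖x‖ = ‖y‖) :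
    ‖hext f x - hext f y‖ = ‖x - y‖ := by
  rcases polar x with rfl | ⟨z, hz⟩
  · simp [hext_zero, hext_norm]
  rcases polar y with rfl | ⟨w, hw⟩
  · simp [hext_zero, hext_norm]
  rw [← h] at hw
  have := hf.dist_eq z w
  rw [Subtype.dist_eq, Subtype.dist_eq, dist_eq_norm, dist_eq_norm] at this
  rw [hw]
  conv_lhs => rw [hz, norm_smul, norm_norm, norm_eq_of_mem_sphere, mul_one,
    hext_smul (norm_nonneg _), hext_smul (norm_nonneg _), ← smul_sub, norm_smul, this]
  conv_rhs => rw [hz, norm_smul, norm_norm, norm_eq_of_mem_sphere, mul_one, ← smul_sub, norm_smul]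

theorem hext_left {g : sphere (0 : Y) 1 → sphere (0 : X) 1} (h : ∀ z, g (f z) = z) (x : X) :
    hext g (hext f x) = x := by
  rcases polar x with rfl | ⟨z, hz⟩
  · simp [hext_zero]
  · conv_lhs => rw [hz, hext_smul (norm_nonneg _), hext_smul (norm_nonneg _), h, ← hz]

theorem hext_lip (hf : Isometry f) : LipschitzWith 3 (hext f) := by
  have key : ∀ x y : X, ‖x‖ ≤ ‖y‖ → ‖hext f x - hext f y‖ ≤ 3 * ‖x - y‖ := by
    intro x y h
    by_cases hy : y = 0
    · have hx : x = 0 := by simpa [hy] using h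
      simp [hx, hy]
    have hp := norm_pos_iff.2 hy
    set s := ‖x‖ / ‖y‖ with hs
    have hs0 : 0 ≤ s := div_nonneg (norm_nonneg _) hp.le
    have hs1 : 0 ≤ 1 - s := sub_nonneg.2 ((div_le_one hp).2 h)
    have h1 : ‖s • y‖ = ‖x‖ := by
      rw [norm_smul, Real.norm_of_nonneg hs0, hs, div_mul_cancel₀ _ hp.ne']
    have h2 := hext_iso hf x (s • y) h1.symm
    have h3 := norm_sub_norm_le y x
    rw [norm_sub_rev] at h3
    have h4 : (1 - s) * ‖y‖ = ‖y‖ - ‖x‖ := by rw [hs]; field_simp
    have e1 : x - s • y = (x - y) + (1 - s) • y := by module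
    have e2 : hext f x - hext f y = (hext f x - hext f (s • y)) - (1 - s) • hext f y := by
      rw [hext_hom s hs0]; module
    have h5 := norm_add_le (x - y) ((1 - s) • y)
    have h6 := norm_sub_le (hext f x - hext f (s • y)) ((1 - s) • hext f y)
    rw [← e1, norm_smul, Real.norm_of_nonneg hs1] at h5
    rw [← e2, norm_smul, Real.norm_of_nonneg hs1, hext_norm] at h6
    linarith
  refine LipschitzWith.of_dist_le_mul fun x y => ?_
  rw [dist_eq_norm, dist_eq_norm]
  rcases le_total ‖x‖ ‖y‖ with h | h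
  · exact key x y h
  · rw [norm_sub_rev, norm_sub_rev x]; exact key y x h

theorem finrank_le_of_lip [FiniteDimensional ℝ X] [FiniteDimensional ℝ Y] {F : X → Y} {K : ℝ≥0}
    (hF : LipschitzWith K F) (hs : Function.Surjective F) :
    Module.finrank ℝ Y ≤ Module.finrank ℝ X := by
  have := hF.dimH_range_le
  rw [hs.range_eq, Real.dimH_univ_eq_finrank, Real.dimH_univ_eq_finrank] at this
  exact_mod_cast this

/-- The norm induced by a linear isomorphism. -/
noncomputable def nmOf {E : Type*} [NormedAddCommGroup E] [NormedSpace ℝ E] (a : E ≃L[ℝ] X) :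
    Nm E where
  p := (normSeminorm ℝ X).comp (a : E →ₗ[ℝ] X)
  c := (‖(a.symm : X →L[ℝ] E)‖ + 1)⁻¹
  C := ‖(a : E →L[ℝ] X)‖ + 1
  c_pos := by positivity
  C_pos := by positivity
  lo x := by
    have := (a.symm : X →L[ℝ] E).le_opNorm (a x)
    simp only [ContinuousLinearEquiv.coe_coe, ContinuousLinearEquiv.symm_apply_apply] at this
    rw [inv_mul_le_iff₀ (by positivity)]
    change _ ≤ _ * ‖a x‖
    nlinarith [norm_nonneg (a x)]
  hi x := by
    have := (a : E →L[ℝ] X).le_opNorm x
    change ‖a x‖ ≤ _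
    simp only [ContinuousLinearEquiv.coe_coe] at this
    nlinarith [norm_nonneg x]

theorem nmOf_p {E : Type*} [NormedAddCommGroup E] [NormedSpace ℝ E] (a : E ≃L[ℝ] X) (x : E) :
    (nmOf a).p x = ‖a x‖ := rfl

theorem tingley [FiniteDimensional ℝ X] (hf : Isometry f) (hs : Function.Surjective f) :
    ∃ T : X ≃ₗᵢ[ℝ] Y, ∀ z : sphere (0 : X) 1, T z = f z := by
  obtain ⟨g, hg⟩ := hs.hasRightInverse
  have hgf : ∀ z, g (f z) = z := fun z => hf.injective (hg _)
  have hgi : Isometry g := fun a b => by rw [← hf, hg, hg]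
  have s1 : Function.Surjective (hext f) := fun y => ⟨_, hext_left hg y⟩
  have s2 : Function.Surjective (hext g) := fun y => ⟨_, hext_left hgf y⟩
  have : FiniteDimensional ℝ Y := by
    refine FiniteDimensional.of_isCompact_closedBall₀ ℝ one_pos ?_
    convert (isCompact_closedBall (0 : X) 1).image (hext_lip hf).continuous using 1
    ext y
    obtain ⟨x, rfl⟩ := s1 y
    refine ⟨fun h => ⟨x, by simpa [hext_norm] using h, rfl⟩, ?_⟩
    rintro ⟨x', h1, h2⟩
    rw [← h2]
    simpa [hext_norm] using h1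
  have hd := le_antisymm (finrank_le_of_lip (hext_lip hf) s1) (finrank_le_of_lip (hext_lip hgi) s2)
  let a : EuclideanSpace ℝ (Fin (Module.finrank ℝ X)) ≃L[ℝ] X :=
    ContinuousLinearEquiv.ofFinrankEq (by simp)
  let b : EuclideanSpace ℝ (Fin (Module.finrank ℝ X)) ≃L[ℝ] Y :=
    ContinuousLinearEquiv.ofFinrankEq (by simp [hd])
  let P : Pair (EuclideanSpace ℝ (Fin (Module.finrank ℝ X))) :=
    { N := nmOf a
      N' := nmOf b
      F := fun x => b.symm (hext f (a x))
      F' := fun y => a.symm (hext g (b y))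
      homF := fun t ht x => by rw [map_smul, hext_hom t ht, map_smul]
      normF := fun x => by simp [nmOf_p, hext_norm]
      isoF := fun x y h => by simpa [nmOf_p] using hext_iso hf _ _ h
      left := fun x => by simp [hext_left hgf]
      right := fun y => by simp [hext_left hg] }
  obtain ⟨T, hT⟩ := P.linear
  have hL : ∀ x, b (T (a.symm x)) = hext f x := fun x => by simp [← hT, P]
  let L : X →ₗᵢ[ℝ] Y :=
    ⟨b.toLinearEquiv.toLinearMap ∘ₗ T.toLinearMap ∘ₗ a.symm.toLinearEquiv.toLinearMap, fun x =>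
      (congrArg norm (hL x)).trans (hext_norm x)⟩
  have hL' : ∀ x, L x = hext f x := hL
  refine ⟨LinearIsometryEquiv.ofSurjective L fun y => ?_, fun z => ?_⟩
  · obtain ⟨x, rfl⟩ := s1 y
    exact ⟨x, hL' x⟩
  · have := hext_smul (f := f) zero_le_one z
    rw [one_smul, one_smul] at this
    exact (hL' z).trans this

end Vale.Agent.P084
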