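import Vale.Agent.P084.Alex

/-! Norms on a Euclidean space, the conjugate quadratic function and exit times. -/

open MeasureTheory Filter Topology Set Metric Asymptotics
open scoped NNReal ENNReal RealInnerProductSpace

namespace Vale.Agent.P084

/-- A norm on `E`, with comparison constants. -/
structure Nm (E : Type*) [NormedAddCommGroup E] [NormedSpace ℝ E] where
  p : Seminorm ℝ E
  c : ℝ
  C : ℝ
  c_pos : 0 < c
  C_pos : 0 < C
  lo : ∀ x, c * ‖x‖ ≤ p x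
  hi : ∀ x, p x ≤ C * ‖x‖

variable {E : Type*} [NormedAddCommGroup E] [InnerProductSpace ℝ E]

theorem homog_hasFDerivAt {W : Type*} [NormedAddCommGroup W] [NormedSpace ℝ W] {g : E → W}
    (hg : ∀ t : ℝ, 0 ≤ t → ∀ x, g (t • x) = t • g x) {g' : E →L[ℝ] W} {z : E} {ρ : ℝ}
    (hρ : 0 < ρ) (h : HasFDerivAt g g' (ρ • z)) : HasFDerivAt g g' z := by
  have h1 := (h.comp z ((hasFDerivAt_id z).const_smul ρ)).const_smul ρ⁻¹
  have e1 : (ρ⁻¹ • (g ∘ HSMul.hSMul ρ)) = g := by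
    funext y
    simp [hg ρ hρ.le, smul_smul, inv_mul_cancel₀ hρ.ne']
  have e2 : ρ⁻¹ • g'.comp (ρ • ContinuousLinearMap.id ℝ E) = g' := by
    ext y
    simp [smul_smul, inv_mul_cancel₀ hρ.ne']
  rwa [e1, e2] at h1

theorem homog_euler {W : Type*} [NormedAddCommGroup W] [NormedSpace ℝ W] {g : E → W}
    (hg : ∀ t : ℝ, 0 ≤ t → ∀ x, g (t • x) = t • g x) {g' : E →L[ℝ] W} {z : E}
    (h : HasFDerivAt g g' z) : g' z = g z := by
  have h1 : HasDerivAt (fun t : ℝ => t • z) z 1 := by simpa using (hasDerivAt_id (1 : ℝ)).smul_const z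
  have h2 : HasDerivAt (fun t : ℝ => g (t • z)) (g' z) 1 :=
    HasFDerivAt.comp_hasDerivAt (1 : ℝ) (by simpa using h) h1
  have h3 : HasDerivAt (fun t : ℝ => t • g z) (g z) 1 := by
    simpa using (hasDerivAt_id (1 : ℝ)).smul_const (g z)
  refine h2.unique (h3.congr_of_eventuallyEq ?_)
  filter_upwards [lt_mem_nhds zero_lt_one] with t ht using hg t ht.le z

namespace Nm

variable (N : Nm E)

theorem nonneg (x : E) : 0 ≤ N.p x := apply_nonneg _ _

theorem pos {x : E} (hx : x ≠ 0) : 0 < N.p x :=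
  (mul_pos N.c_pos (norm_pos_iff.2 hx)).trans_le (N.lo x)

theorem eq_zero {x : E} (hx : N.p x ≤ 0) : x = 0 := by
  by_contra h
  exact absurd (N.pos h) (not_lt.2 hx)

theorem smul {t : ℝ} (ht : 0 ≤ t) (x : E) : N.p (t • x) = t * N.p x := by
  rw [map_smul_eq_mul, Real.norm_of_nonneg ht]

theorem homog : ∀ t : ℝ, 0 ≤ t → ∀ x, N.p (t • x) = t • N.p x := fun _ ht x => N.smul ht x

theorem add_le (x y : E) : N.p (x + y) ≤ N.p x + N.p y := map_add_le_add _ _ _

theorem neg (x : E) : N.p (-x) = N.p x := map_neg_eq_map _ _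

theorem sub_comm (x y : E) : N.p (x - y) = N.p (y - x) := by rw [← N.neg, neg_sub]

theorem sub_le (x y : E) : N.p (x - y) ≤ N.p x + N.p y := by
  rw [sub_eq_add_neg, ← N.neg y]; exact N.add_le _ _

theorem le_add_sub (x y : E) : N.p x ≤ N.p y + N.p (x - y) := by
  simpa using N.add_le y (x - y)

theorem abs_sub_le (x y : E) : |N.p x - N.p y| ≤ N.p (x - y) := by
  have h1 := N.le_add_sub x y
  have h2 := N.le_add_sub y x
  rw [N.sub_comm] at h2
  rw [abs_le]; constructor <;> linarith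

theorem lip : LipschitzWith N.C.toNNReal N.p := by
  refine LipschitzWith.of_dist_le_mul fun x y => ?_
  rw [Real.dist_eq, dist_eq_norm, Real.coe_toNNReal _ N.C_pos.le]
  exact (N.abs_sub_le x y).trans (N.hi _)

theorem cont : Continuous N.p := N.lip.continuous

theorem convexOn : ConvexOn ℝ univ N.p := N.p.convexOn

/-- The open unit ball. -/
def B : Set E := {x | N.p x < 1}

theorem isOpen_B : IsOpen N.B := isOpen_lt N.cont continuous_const

theorem convex_B : Convex ℝ N.B := by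
  simpa [B] using N.convexOn.convex_lt 1

theorem zero_mem_B : (0 : E) ∈ N.B := by simp [B]

theorem norm_le {x : E} {r : ℝ} (hx : N.p x ≤ r) : ‖x‖ ≤ r / N.c := by
  rw [le_div_iff₀ N.c_pos, mul_comm]; exact (N.lo x).trans hx

theorem isCompact_le [FiniteDimensional ℝ E] (r : ℝ) : IsCompact {x | N.p x ≤ r} :=
  (isCompact_closedBall (0 : E) (r / N.c)).of_isClosed_subset
    (isClosed_le N.cont continuous_const) fun x hx => by simpa using N.norm_le hx

/-- `ψ` is a duality covector for `w`. -/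
def J (w ψ : E) : Prop := (∀ x, ⟪ψ, x⟫ ≤ N.p w * N.p x) ∧ ⟪ψ, w⟫ = N.p w ^ 2

/-- The convex conjugate of `N ^ 2 / 2`. -/
noncomputable def hs (ψ : E) : ℝ := ⨆ x, (⟪ψ, x⟫ - N.p x ^ 2 / 2)

theorem fy (ψ x : E) : ⟪ψ, x⟫ ≤ N.hs ψ + N.p x ^ 2 / 2 := by
  have hb : BddAbove (range fun x => ⟪ψ, x⟫ - N.p x ^ 2 / 2) := by
    refine ⟨(‖ψ‖ / N.c) ^ 2 / 2, ?_⟩
    rintro _ ⟨y, rfl⟩
    have h1 := real_inner_le_norm ψ y
    have h2 : ‖ψ‖ * ‖y‖ ≤ ‖ψ‖ / N.c * N.p y := by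
      have := N.norm_le (le_refl (N.p y))
      calc ‖ψ‖ * ‖y‖ ≤ ‖ψ‖ * (N.p y / N.c) := by gcongr
        _ = _ := by ring
    simp only
    nlinarith [sq_nonneg (‖ψ‖ / N.c - N.p y)]
  have := le_ciSup hb x
  unfold hs
  linarith

variable {N}

theorem J.hs_eq {w ψ : E} (h : N.J w ψ) : N.hs ψ = N.p w ^ 2 / 2 := by
  refine le_antisymm (ciSup_le fun x => ?_) ?_
  · nlinarith [h.1 x, sq_nonneg (N.p w - N.p x)]
  · have := N.fy ψ w
    rw [h.2] at this; linarith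

theorem J.neg {w ψ : E} (h : N.J w ψ) : N.J (-w) (-ψ) := by
  refine ⟨fun x => ?_, by simpa [N.neg] using h.2⟩
  have := h.1 (-x)
  rw [N.neg] at this ⊢
  simpa using this

theorem J.eq_zero {ψ : E} (h : N.J 0 ψ) : ψ = 0 := by
  have := h.1 ψ
  simp only [map_zero, zero_mul] at this
  exact inner_self_eq_zero.1 (le_antisymm this real_inner_self_nonneg)

variable (N)

theorem J_zero : N.J 0 0 := ⟨fun x => by simp, by simp⟩

theorem exists_J [FiniteDimensional ℝ E] (ψ : E) : ∃ w, N.J w ψ := by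
  obtain ⟨u, hu, hmax⟩ := (N.isCompact_le 1).exists_isMaxOn ⟨0, by simp⟩
    (f := fun x => ⟪ψ, x⟫) (by fun_prop)
  have hu' : N.p u ≤ 1 := hu
  have hle : ∀ x, ⟪ψ, x⟫ ≤ ⟪ψ, u⟫ * N.p x := by
    intro x
    by_cases hx : x = 0
    · simp [hx]
    have hp := N.pos hx
    have : ⟪ψ, (N.p x)⁻¹ • x⟫ ≤ ⟪ψ, u⟫ := hmax (by
      change N.p _ ≤ 1
      rw [N.smul (inv_nonneg.2 hp.le), inv_mul_cancel₀ hp.ne'])
    rw [inner_smul_right, inv_mul_le_iff₀ hp] at this
    linarith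
  have hr : 0 ≤ ⟪ψ, u⟫ := by simpa using hmax (show (0 : E) ∈ {x | N.p x ≤ 1} by simp)
  have hn : N.p (⟪ψ, u⟫ • u) = ⟪ψ, u⟫ := by
    rw [N.smul hr]
    nlinarith [hle u]
  exact ⟨⟪ψ, u⟫ • u, fun x => by rw [hn]; exact hle x, by rw [hn, inner_smul_right, sq]⟩

theorem convexOn_hs : ConvexOn ℝ univ N.hs := by
  refine ⟨convex_univ, fun a _ b _ α β hα hβ hαβ => ciSup_le fun x => ?_⟩
  have h1 := N.fy a x
  have h2 := N.fy b x
  rw [inner_add_left, inner_smul_left, inner_smul_left]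
  simp only [conj_trivial, smul_eq_mul]
  have e : N.p x ^ 2 / 2 = α * (N.p x ^ 2 / 2) + β * (N.p x ^ 2 / 2) := by
    rw [← add_mul, hαβ, one_mul]
  nlinarith

/-- The open dual ball. -/
def Bs : Set E := {ψ | N.hs ψ < 1 / 2}

theorem isOpen_Bs [FiniteDimensional ℝ E] : IsOpen N.Bs :=
  isOpen_lt (continuousOn_univ.1 (N.convexOn_hs.continuousOn isOpen_univ)) continuous_const

theorem zero_mem_Bs : (0 : E) ∈ N.Bs := by simp [Bs, N.J_zero.hs_eq]

theorem Bs_subset : N.Bs ⊆ closedBall 0 N.C := by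
  intro ψ hψ
  have h0 : N.hs ψ < 1 / 2 := hψ
  have hC := N.C_pos
  have h1 := N.fy ψ ((N.C ^ 2)⁻¹ • ψ)
  rw [inner_smul_right, real_inner_self_eq_norm_sq, N.smul (by positivity)] at h1
  have h2 : (N.C ^ 2)⁻¹ * N.p ψ ≤ (N.C ^ 2)⁻¹ * (N.C * ‖ψ‖) := by gcongr; exact N.hi ψ
  have h3 : ((N.C ^ 2)⁻¹ * N.p ψ) ^ 2 ≤ ((N.C ^ 2)⁻¹ * (N.C * ‖ψ‖)) ^ 2 := by
    have := N.nonneg ψ
    gcongr
  have h4 : ((N.C ^ 2)⁻¹ * (N.C * ‖ψ‖)) ^ 2 = (N.C ^ 2)⁻¹ * ‖ψ‖ ^ 2 := by field_simp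
  have h5 : (N.C ^ 2)⁻¹ * ‖ψ‖ ^ 2 < 1 := by linarith
  rw [inv_mul_lt_iff₀ (by positivity), mul_one] at h5
  rw [mem_closedBall, dist_zero_right]
  exact (abs_lt_of_sq_lt_sq' h5 hC.le).2.le

variable {N}

theorem J.gr_eq [FiniteDimensional ℝ E] {w ψ : E} (h : N.J w ψ) (hψ : ψ ∈ DS N.hs) :
    gr N.hs ψ = w := by
  have h1 : HasFDerivAt (fun φ => N.hs φ - rl w φ) (fderiv ℝ N.hs ψ - rl w) ψ :=
    (DifferentiableAt.hasFDerivAt hψ).sub (rl w).hasFDerivAt
  have h2 : IsLocalMin (fun φ => N.hs φ - rl w φ) ψ := by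
    refine Eventually.of_forall fun φ => ?_
    have := N.fy φ w
    simp only [rl_apply, real_inner_comm _ w, h.hs_eq, h.2]
    linarith
  have h3 := h2.hasFDerivAt_eq_zero h1
  refine ext_inner_right ℝ fun v => ?_
  rw [inner_gr, sub_eq_zero.1 h3, rl_apply]

theorem J_gr [FiniteDimensional ℝ E] {ψ : E} (hψ : ψ ∈ DS N.hs) : N.J (gr N.hs ψ) ψ := by
  obtain ⟨w, hw⟩ := N.exists_J ψ
  rwa [hw.gr_eq hψ]

/-- Exposedness: a vector on which `ψ` is tight is a multiple of the gradient. -/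
theorem eq_smul_gr [FiniteDimensional ℝ E] {ψ v : E} (hψ : ψ ∈ DS N.hs) {s : ℝ} (hs : 0 < s)
    (h1 : N.p v ≤ s * N.p (gr N.hs ψ)) (h2 : s * N.p (gr N.hs ψ) ^ 2 ≤ ⟪ψ, v⟫) :
    v = s • gr N.hs ψ := by
  have hJ := J_gr hψ
  set w := gr N.hs ψ with hw
  by_cases hw0 : w = 0
  · rw [hw0] at h1 ⊢
    simpa using N.eq_zero (x := v) (by simpa using h1)
  have hp := N.pos hw0
  have h3 := hJ.1 v
  have h4 : N.p v = s * N.p w := by
    refine le_antisymm h1 (le_of_mul_le_mul_left ?_ hp)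
    nlinarith
  have h5 : N.p (s⁻¹ • v) = N.p w := by
    rw [N.smul (inv_nonneg.2 hs.le), h4, inv_mul_cancel_left₀ hs.ne']
  have h6 : N.J (s⁻¹ • v) ψ := by
    refine ⟨fun x => by rw [h5]; exact hJ.1 x, ?_⟩
    rw [h5, inner_smul_right, inv_mul_eq_iff_eq_mul₀ hs.ne']
    rw [h4] at h3
    nlinarith
  rw [hw, h6.gr_eq hψ, smul_smul, mul_inv_cancel₀ hs.ne', one_smul]

variable (N)

open Classical in
/-- Exit time from the unit ball. -/
noncomputable def ex (p w : E) : ℝ :=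
  if h : ∃ t : ℝ, 0 < t ∧ N.p (p + t • w) = 1 then h.choose else 0

variable {N}

theorem ex_spec {p w : E} (hp : N.p p < 1) (hw : w ≠ 0) :
    0 < N.ex p w ∧ N.p (p + N.ex p w • w) = 1 := by
  have hex : ∃ t : ℝ, 0 < t ∧ N.p (p + t • w) = 1 := by
    have hw' := N.pos hw
    have hc : Continuous fun t : ℝ => N.p (p + t • w) := N.cont.comp (by fun_prop)
    have h2 : (0 : ℝ) ≤ 2 / N.p w := by positivity
    have h3 : 1 ≤ N.p (p + (2 / N.p w) • w) := by
      have := N.sub_le (p + (2 / N.p w) • w) p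
      rw [add_sub_cancel_left, N.smul h2, div_mul_cancel₀ _ hw'.ne'] at this
      linarith
    obtain ⟨t, ht, h1⟩ := intermediate_value_Icc h2 hc.continuousOn
      (show (1 : ℝ) ∈ Icc _ _ from ⟨by simpa using hp.le, h3⟩)
    refine ⟨t, lt_of_le_of_ne ht.1 ?_, h1⟩
    rintro rfl
    simp only [zero_smul, add_zero] at h1
    exact hp.ne h1
  rw [ex, dif_pos hex]
  exact hex.choose_spec

theorem slope {p w : E} {η t s : ℝ} (hp : N.p p ≤ 1 - η) (ht : 0 < t)
    (h1 : N.p (p + t • w) = 1) (hs : 0 ≤ s) : η * |s - t| ≤ t * |N.p (p + s • w) - 1| := by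
  rcases le_total s t with h | h
  · have e : t • (p + s • w) = (t - s) • p + s • (p + t • w) := by module
    have h2 := N.add_le ((t - s) • p) (s • (p + t • w))
    rw [← e, N.smul ht.le, N.smul (sub_nonneg.2 h), N.smul hs, h1] at h2
    rw [abs_of_nonpos (sub_nonpos.2 h)]
    have h3 := neg_abs_le (N.p (p + s • w) - 1)
    have h4 : (t - s) * N.p p ≤ (t - s) * (1 - η) := by gcongr
    nlinarith
  · have e : s • (p + t • w) = (s - t) • p + t • (p + s • w) := by module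
    have h2 := N.add_le ((s - t) • p) (t • (p + s • w))
    rw [← e, N.smul ht.le, N.smul (sub_nonneg.2 h), N.smul hs, h1] at h2
    rw [abs_of_nonneg (sub_nonneg.2 h)]
    have h3 := le_abs_self (N.p (p + s • w) - 1)
    have h4 : (s - t) * N.p p ≤ (s - t) * (1 - η) := by gcongr
    nlinarith

theorem ex_eq {p w : E} {t : ℝ} (hp : N.p p < 1) (ht : 0 < t) (h1 : N.p (p + t • w) = 1) :
    N.ex p w = t := by
  have hw : w ≠ 0 := by rintro rfl; simp only [smul_zero, add_zero] at h1; exact hp.ne h1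
  obtain ⟨h2, h3⟩ := ex_spec hp hw
  have := slope (η := 1 - N.p p) (by linarith) ht h1 h2.le
  rw [h3, sub_self, abs_zero, mul_zero] at this
  have h4 : |N.ex p w - t| ≤ 0 := by
    by_contra hcon
    push Not at hcon
    nlinarith
  exact sub_eq_zero.1 (abs_nonpos_iff.1 h4)

theorem ex_le {p w : E} (hp : N.p p < 1) (hw : w ≠ 0) : N.ex p w * N.p w ≤ 2 := by
  obtain ⟨h2, h3⟩ := ex_spec hp hw
  have := N.sub_le (p + N.ex p w • w) p
  rw [add_sub_cancel_left, N.smul h2.le] at this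
  linarith

/-- The domain of pairs (point, direction). -/
def U (N : Nm E) : Set (E × E) := {v | N.p v.1 < 1 ∧ v.2 ≠ 0}

theorem isOpen_U : IsOpen N.U :=
  (isOpen_lt (N.cont.comp continuous_fst) continuous_const).inter
    (isOpen_ne_fun continuous_snd continuous_const)

theorem ex_LL {v : E × E} (hv : v ∈ N.U) : LL (fun u : E × E => N.ex u.1 u.2) v := by
  obtain ⟨hp, hw⟩ := hv
  set η := (1 - N.p v.1) / 2 with hη
  set ρ := N.p v.2 / 2 with hρ
  have hηp : 0 < η := by rw [hη]; linarith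
  have hρp : 0 < ρ := by have := N.pos hw; positivity
  have hC := N.C_pos
  refine ⟨((2 / ρ) * (N.C + 2 / ρ * N.C) / η).toNNReal, {u | N.p u.1 < 1 - η ∧ ρ < N.p u.2},
    ((isOpen_lt (N.cont.comp continuous_fst) continuous_const).inter
      (isOpen_lt continuous_const (N.cont.comp continuous_snd))).mem_nhds
      ⟨by change N.p v.1 < 1 - η; rw [hη]; linarith, by change ρ < N.p v.2; linarith⟩,
    LipschitzOnWith.of_dist_le_mul fun a ha b hb => ?_⟩
  have na : a.2 ≠ 0 := by intro h; have := ha.2; rw [h, map_zero] at this; linarith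
  have nb : b.2 ≠ 0 := by intro h; have := hb.2; rw [h, map_zero] at this; linarith
  have pa : N.p a.1 < 1 := by linarith [ha.1]
  have pb : N.p b.1 < 1 := by linarith [hb.1]
  obtain ⟨a1, a2⟩ := ex_spec pa na
  obtain ⟨b1, b2⟩ := ex_spec pb nb
  have a3 : N.ex a.1 a.2 ≤ 2 / ρ := by
    rw [le_div_iff₀ hρp]; nlinarith [ex_le pa na, ha.2]
  have b3 : N.ex b.1 b.2 ≤ 2 / ρ := by
    rw [le_div_iff₀ hρp]; nlinarith [ex_le pb nb, hb.2]
  have h1 := slope ha.1.le a1 a2 b1.le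
  have h2 := N.abs_sub_le (a.1 + N.ex b.1 b.2 • a.2) (b.1 + N.ex b.1 b.2 • b.2)
  have e : a.1 + N.ex b.1 b.2 • a.2 - (b.1 + N.ex b.1 b.2 • b.2) =
      (a.1 - b.1) + N.ex b.1 b.2 • (a.2 - b.2) := by module
  rw [b2, e] at h2
  have h3 := N.add_le (a.1 - b.1) (N.ex b.1 b.2 • (a.2 - b.2))
  rw [N.smul b1.le] at h3
  have d1 : N.p (a.1 - b.1) ≤ N.C * dist a b :=
    (N.hi _).trans (by rw [← dist_eq_norm]; gcongr; exact le_max_left _ _)
  have d2 : N.p (a.2 - b.2) ≤ N.C * dist a b :=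
    (N.hi _).trans (by rw [← dist_eq_norm]; gcongr; exact le_max_right _ _)
  have d3 : N.ex b.1 b.2 * N.p (a.2 - b.2) ≤ 2 / ρ * (N.C * dist a b) :=
    mul_le_mul b3 d2 (N.nonneg _) (by positivity)
  have d4 : N.ex a.1 a.2 * |N.p (a.1 + N.ex b.1 b.2 • a.2) - 1| ≤
      2 / ρ * (N.C * dist a b + 2 / ρ * (N.C * dist a b)) :=
    mul_le_mul a3 (by linarith) (abs_nonneg _) (by positivity)
  rw [Real.dist_eq, abs_sub_comm, Real.coe_toNNReal _ (by positivity), div_mul_eq_mul_div,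
    le_div_iff₀ hηp]
  nlinarith

end Nm

end Vale.Agent.P084
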