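import Vale.Agent.P084.Exit

/-! Homogeneous extension of an isometry of spheres and its second order differentiability. -/

open MeasureTheory Filter Topology Set Metric Asymptotics
open scoped NNReal ENNReal RealInnerProductSpace

namespace Vale.Agent.P084

/-- Two norms and a positively homogeneous bijection which is isometric on spheres. -/
structure Pair (E : Type*) [NormedAddCommGroup E] [NormedSpace ℝ E] where
  N : Nm E
  N' : Nm E
  F : E → E
  F' : E → E
  homF : ∀ t : ℝ, 0 ≤ t → ∀ x, F (t • x) = t • F x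
  normF : ∀ x, N'.p (F x) = N.p x
  isoF : ∀ x y, N.p x = N.p y → N'.p (F x - F y) = N.p (x - y)
  left : ∀ x, F' (F x) = x
  right : ∀ y, F (F' y) = y

variable {E : Type*} [NormedAddCommGroup E] [InnerProductSpace ℝ E]

/-- The distance function along the sphere, corrected to be convex. -/
def Nm.cv (N : Nm E) (a x : E) : ℝ := N.p (x - N.p x • a) + N.p x

theorem Nm.convexOn_cv (N : Nm E) {a : E} (ha : N.p a ≤ 1) : ConvexOn ℝ univ (N.cv a) := by
  refine ⟨convex_univ, fun x _ y _ α β hα hβ hαβ => ?_⟩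
  simp only [Nm.cv, smul_eq_mul]
  set m := α • x + β • y with hm
  set ρ := α * N.p x + β * N.p y with hρ
  have h1 : N.p m ≤ ρ := by
    have := N.add_le (α • x) (β • y)
    rwa [N.smul hα, N.smul hβ] at this
  have e1 : m - N.p m • a = (α • (x - N.p x • a) + β • (y - N.p y • a)) + (ρ - N.p m) • a := by
    rw [hm, hρ]; module
  have h2 := N.add_le (α • (x - N.p x • a) + β • (y - N.p y • a)) ((ρ - N.p m) • a)
  have h3 := N.add_le (α • (x - N.p x • a)) (β • (y - N.p y • a))
  rw [N.smul hα, N.smul hβ] at h3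
  rw [← e1, N.smul (sub_nonneg.2 h1)] at h2
  have h4 : (ρ - N.p m) * N.p a ≤ (ρ - N.p m) * 1 := by gcongr
  nlinarith

theorem Nm.exists_cv_ne (N : Nm E) {q v : E} (hq : q ≠ 0) {ν : E →L[ℝ] ℝ}
    (hν : HasFDerivAt N.p ν q) (hv : v ≠ 0) (hνv : ν v = 0) :
    ∃ b, N.p b = 1 ∧ ∃ ε > 0, ∀ b', N.p b' = 1 → N.p (b' - b) < ε →
      ∀ ξ : E →L[ℝ] ℝ, HasFDerivAt (N.cv b') ξ q → ξ v ≠ 0 := by
  set r := N.p q with hr
  have hrp : 0 < r := N.pos hq
  set n := N.p v with hn
  have hnp : 0 < n := N.pos hv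
  set q₁ := r⁻¹ • q with hq₁
  have hq1 : N.p q₁ = 1 := by rw [hq₁, N.smul (inv_nonneg.2 hrp.le), inv_mul_cancel₀ hrp.ne']
  have hqq : r • q₁ = q := by rw [hq₁, smul_smul, mul_inv_cancel₀ hrp.ne', one_smul]
  have hν₁ : HasFDerivAt N.p ν q₁ := homog_hasFDerivAt N.homog hrp (by rwa [hqq])
  have hνq : ν q₁ = 1 := by rw [homog_euler N.homog hν₁, hq1]
  set d := v + (n / 8) • q₁ with hd
  have hνd : ν d = n / 8 := by rw [hd, map_add, map_smul, hνv, hνq]; simp
  have hd0 : -d ≠ 0 := by
    intro h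
    rw [neg_eq_zero.1 h, map_zero] at hνd
    linarith
  obtain ⟨s, hs1, hs⟩ : ∃ s : ℝ, N.p (q₁ + s • -d) < 1 ∧ 0 < s := by
    have a1 : HasDerivAt (fun s : ℝ => q₁ + s • -d) (-d) 0 := by
      simpa using ((hasDerivAt_id (0 : ℝ)).smul_const (-d)).const_add q₁
    have a2 : HasDerivAt (fun s : ℝ => N.p (q₁ + s • -d)) (ν (-d)) 0 :=
      HasFDerivAt.comp_hasDerivAt (0 : ℝ) (by simpa using hν₁) a1
    have a3 := a2.tendsto_slope_zero_right.eventually
      (gt_mem_nhds (show ν (-d) < 0 by rw [map_neg, hνd]; linarith))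
    obtain ⟨s, h1, h2⟩ := (a3.and self_mem_nhdsWithin).exists
    refine ⟨s, ?_, h2⟩
    simp only [zero_add, zero_smul, add_zero, hq1, smul_eq_mul] at h1
    have h2' : 0 < s⁻¹ := inv_pos.2 h2
    by_contra hcon
    push Not at hcon
    nlinarith
  obtain ⟨ht, hb⟩ := Nm.ex_spec hs1 hd0
  set t := N.ex (q₁ + s • -d) (-d)
  have hL : 0 < s + t := by linarith
  refine ⟨_, hb, (s + t) * (n / 8), by positivity, fun b' hb' hbb ξ hξ => ?_⟩
  set L := s + t with hL'
  set e := (L * (n / 8)) • q₁ - (b' - (q₁ + s • -d + t • -d)) with he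
  have he1 : N.p e ≤ L * (n / 4) := by
    have := N.sub_le ((L * (n / 8)) • q₁) (b' - (q₁ + s • -d + t • -d))
    rw [N.smul (by positivity), hq1] at this
    linarith
  set u := q - r • b' with hu
  have hue : u = r • (L • v + e) := by
    rw [hu, he, hL', hd, ← hqq]; module
  have hu1 : r * (L * (3 * n / 4)) ≤ N.p u := by
    rw [hue, N.smul hrp.le]
    have := N.sub_le (L • v + e) e
    rw [add_sub_cancel_right, N.smul hL.le] at this
    gcongr
    linarith
  have key : ∀ ε : ℝ, 0 < ε → ε * (n / 2) - 2 * |N.p (q + ε • v) - r| ≤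
      N.cv b' (q + ε • v) - N.cv b' q := by
    intro ε hε
    have e1 : (1 + ε / (r * L)) • u = (u + ε • v) + (ε / L) • e := by
      rw [hue]
      clear_value e L r
      match_scalars <;> field_simp
    have a1 := N.add_le (u + ε • v) ((ε / L) • e)
    rw [← e1, N.smul (by positivity), N.smul (by positivity)] at a1
    have a2 : ε / L * N.p e ≤ ε * (n / 4) := by
      calc ε / L * N.p e ≤ ε / L * (L * (n / 4)) := by gcongr
        _ = _ := by field_simp
    have a3 : ε * (3 * n / 4) ≤ ε / (r * L) * N.p u := by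
      calc ε * (3 * n / 4) = ε / (r * L) * (r * (L * (3 * n / 4))) := by field_simp
        _ ≤ _ := by gcongr
    have e2 : u + ε • v = (q + ε • v - N.p (q + ε • v) • b') + (N.p (q + ε • v) - r) • b' := by
      rw [hu]; module
    have a4 := N.add_le (q + ε • v - N.p (q + ε • v) • b') ((N.p (q + ε • v) - r) • b')
    rw [← e2, map_smul_eq_mul, hb', Real.norm_eq_abs] at a4
    have a5 := neg_abs_le (N.p (q + ε • v) - r)
    simp only [Nm.cv, ← hr, ← hu]
    nlinarith
  have a1 : HasDerivAt (fun s : ℝ => q + s • v) v 0 := by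
    simpa using ((hasDerivAt_id (0 : ℝ)).smul_const v).const_add q
  have a2 : HasDerivAt (fun s : ℝ => N.p (q + s • v)) (ν v) 0 :=
    HasFDerivAt.comp_hasDerivAt (0 : ℝ) (by simpa using hν) a1
  have a3 : HasDerivAt (fun s : ℝ => N.cv b' (q + s • v)) (ξ v) 0 :=
    HasFDerivAt.comp_hasDerivAt (l := N.cv b') (0 : ℝ) (by simpa using hξ) a1
  have t2 := ((a2.tendsto_slope_zero_right.abs).const_mul 2).const_sub (n / 2)
  have := le_of_tendsto_of_tendsto t2 a3.tendsto_slope_zero_right (by
    filter_upwards [self_mem_nhdsWithin] with ε hε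
    have hε' : 0 < ε := hε
    have := key ε hε'
    simp only [zero_add, zero_smul, add_zero, smul_eq_mul, ← hr, abs_mul, abs_inv,
      abs_of_pos hε']
    rw [← sub_nonneg] at this ⊢
    have e : ε⁻¹ * (N.cv b' (q + ε • v) - N.cv b' q) - (n / 2 - 2 * (ε⁻¹ * |N.p (q + ε • v) - r|)) =
      ε⁻¹ * (N.cv b' (q + ε • v) - N.cv b' q - (ε * (n / 2) - 2 * |N.p (q + ε • v) - r|)) := by
      field_simp
    rw [e]
    positivity)
  rw [hνv, abs_zero] at this
  intro h
  linarith

namespace Pair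

variable (P : Pair E)

/-- The inverse pair. -/
def symm : Pair E where
  N := P.N'
  N' := P.N
  F := P.F'
  F' := P.F
  homF t ht y := by
    conv_lhs => rw [← P.right y, ← P.homF t ht, P.left]
  normF y := by rw [← P.normF, P.right]
  isoF x y h := by
    rw [← P.isoF, P.right, P.right]
    rw [← P.normF, ← P.normF, P.right, P.right, h]
  left := P.right
  right := P.left

theorem F_zero : P.F 0 = 0 := by simpa using P.homF 0 le_rfl 0

theorem dist_le_aux {x y : E} (h : P.N.p x ≤ P.N.p y) :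
    P.N'.p (P.F x - P.F y) ≤ 3 * P.N.p (x - y) := by
  by_cases hy : y = 0
  · have hx : x = 0 := P.N.eq_zero (by simpa [hy] using h)
    simp [hx, hy]
  have hp := P.N.pos hy
  set s := P.N.p x / P.N.p y with hs
  have hs0 : 0 ≤ s := div_nonneg (P.N.nonneg _) hp.le
  have hs1 : s ≤ 1 := (div_le_one hp).2 h
  have h1 : P.N.p (s • y) = P.N.p x := by rw [P.N.smul hs0, hs, div_mul_cancel₀ _ hp.ne']
  have h2 := P.isoF x (s • y) h1.symm
  have h3 : P.N.p y - P.N.p x ≤ P.N.p (x - y) := by
    have := P.N.le_add_sub y x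
    rw [P.N.sub_comm] at this; linarith
  have h4 : (1 - s) * P.N.p y = P.N.p y - P.N.p x := by rw [hs]; field_simp
  have e1 : x - s • y = (x - y) + (1 - s) • y := by module
  have e2 : P.F x - P.F y = (P.F x - P.F (s • y)) - (1 - s) • P.F y := by
    rw [P.homF s hs0]; module
  have h5 := P.N.add_le (x - y) ((1 - s) • y)
  have h6 := P.N'.sub_le (P.F x - P.F (s • y)) ((1 - s) • P.F y)
  rw [← e1, P.N.smul (by linarith)] at h5
  rw [← e2, P.N'.smul (by linarith), P.normF] at h6
  linarith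

theorem dist_le (x y : E) : P.N'.p (P.F x - P.F y) ≤ 3 * P.N.p (x - y) := by
  rcases le_total (P.N.p x) (P.N.p y) with h | h
  · exact P.dist_le_aux h
  · rw [P.N'.sub_comm, P.N.sub_comm]; exact P.dist_le_aux h

theorem lip : LipschitzWith (3 * P.N.C / P.N'.c).toNNReal P.F := by
  refine LipschitzWith.of_dist_le_mul fun x y => ?_
  have := P.N.C_pos
  have := P.N'.c_pos
  rw [dist_eq_norm, dist_eq_norm, Real.coe_toNNReal _ (by positivity)]
  refine (P.N'.norm_le (P.dist_le x y)).trans ?_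
  calc 3 * P.N.p (x - y) / P.N'.c ≤ 3 * (P.N.C * ‖x - y‖) / P.N'.c := by gcongr; exact P.N.hi _
    _ = _ := by ring

/-- Segments in the second sphere come from segments in the first sphere. -/
theorem transversal {a b : E} (ha : P.N.p a = 1) (hb : P.N.p b = 1)
    (h : 2 ≤ P.N'.p (P.F a + P.F b)) : 2 ≤ P.N.p (a + b) := by
  have ha' : P.N'.p (P.F a) = 1 := by rw [P.normF, ha]
  have hb' : P.N'.p (P.F b) = 1 := by rw [P.normF, hb]
  have hle : ∀ t : ℝ, 0 ≤ t → t ≤ 1 → P.N'.p ((1 - t) • P.F a + t • P.F b) ≤ 1 := by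
    intro t h0 h1
    have := P.N'.add_le ((1 - t) • P.F a) (t • P.F b)
    rw [P.N'.smul (by linarith), P.N'.smul h0, ha', hb'] at this
    linarith
  have key : ∀ t : ℝ, 0 ≤ t → t < 1 → 2 - 2 * (1 - t) ≤ P.N.p (a + b) := by
    intro t h0 h1
    set y := (1 - t) • P.F a + t • P.F b with hy
    have hy1 : P.N'.p y = 1 := by
      have a1 := hle t h0 h1.le
      have a2 := hle (1 - t) (by linarith) (by linarith)
      have a3 := P.N'.add_le y ((1 - (1 - t)) • P.F a + (1 - t) • P.F b)
      have e : y + ((1 - (1 - t)) • P.F a + (1 - t) • P.F b) = P.F a + P.F b := by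
        rw [hy]; module
      rw [e] at a3
      linarith
    set x := P.F' y with hx
    have hxy : P.F x = y := P.right y
    have hx1 : P.N.p x = 1 := by rw [← P.normF, hxy, hy1]
    have hnx : P.N.p (-x) = 1 := by rw [P.N.neg, hx1]
    have c1 : P.N'.p (P.F (-x) - y) = 2 := by
      rw [← hxy, P.isoF _ _ (P.N.neg x), ← neg_add', P.N.neg, ← two_smul ℝ x,
        P.N.smul zero_le_two, hx1, mul_one]
    have e : P.F (-x) - y = (1 - t) • (P.F (-x) - P.F a) + t • (P.F (-x) - P.F b) := by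
      rw [hy]; module
    have c2 := P.N'.add_le ((1 - t) • (P.F (-x) - P.F a)) (t • (P.F (-x) - P.F b))
    rw [← e, c1, P.N'.smul (by linarith), P.N'.smul h0, P.isoF _ _ (hnx.trans ha.symm)] at c2
    have c3 := P.N'.sub_le (P.F (-x)) (P.F b)
    rw [P.normF, hnx, hb'] at c3
    have c4 : 2 ≤ P.N.p (-x - a) := by
      by_contra hcon
      push Not at hcon
      nlinarith
    have c5 : P.N.p (b - x) ≤ 2 * (1 - t) := by
      rw [← P.isoF _ _ (hb.trans hx1.symm), hxy]
      have : P.F b - y = (1 - t) • (P.F b - P.F a) := by rw [hy]; module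
      rw [this, P.N'.smul (by linarith)]
      have := P.N'.sub_le (P.F b) (P.F a)
      nlinarith
    have c6 := P.N.sub_le (b - x) (a + b)
    have e2 : b - x - (a + b) = -x - a := by abel
    rw [e2] at c6
    linarith
  refine le_of_forall_pos_le_add fun ε hε => ?_
  have := key (1 - min (ε / 2) 1) (by linarith [min_le_right (ε / 2) 1])
    (by linarith [lt_min (half_pos hε) zero_lt_one])
  linarith [min_le_left (ε / 2) 1]

theorem cv_F {a : E} (ha : P.N.p a = 1) (x : E) : P.N'.cv (P.F a) (P.F x) = P.N.cv a x := by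
  simp only [Nm.cv, P.normF]
  rw [← P.homF _ (P.N.nonneg x), P.isoF]
  rw [P.N.smul (P.N.nonneg x), ha, mul_one]

end Pair

end Vale.Agent.P084
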