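import Vale.Agent.P084.Count
import Vale.Agent.P084.Centroid

/-! Almost every momentum gives parallel chords mapped to parallel chords. -/

open MeasureTheory Filter Topology Set Metric Asymptotics
open scoped NNReal ENNReal RealInnerProductSpace

set_option linter.unusedSectionVars false

namespace Vale.Agent.P084

variable {E : Type*} [NormedAddCommGroup E] [InnerProductSpace ℝ E] [FiniteDimensional ℝ E]

theorem Nm.J_compact (N : Nm E) (w : E) : IsCompact {ψ | N.J w ψ} := by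
  refine (isCompact_closedBall (0 : E) (N.p w * N.C)).of_isClosed_subset ?_ ?_
  · have : {ψ | N.J w ψ} =
        (⋂ x, {ψ | ⟪ψ, x⟫ ≤ N.p w * N.p x}) ∩ {ψ | ⟪ψ, w⟫ = N.p w ^ 2} := by
      ext; simp [Nm.J]
    rw [this]
    exact (isClosed_iInter fun x => isClosed_le (by fun_prop) continuous_const).inter
      (isClosed_eq (by fun_prop) continuous_const)
  · intro ψ hψ
    have h1 := hψ.1 ψ
    rw [real_inner_self_eq_norm_sq] at h1
    have h2 := mul_le_mul_of_nonneg_left (N.hi ψ) (N.nonneg w)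
    rw [mem_closedBall, dist_zero_right]
    by_contra h
    push Not at h
    have h3 : 0 ≤ N.p w * N.C := mul_nonneg (N.nonneg w) N.C_pos.le
    nlinarith

theorem Nm.J_convex (N : Nm E) (w : E) : Convex ℝ {ψ | N.J w ψ} := by
  intro a ha b hb α β hα hβ hαβ
  refine ⟨fun x => ?_, ?_⟩
  · rw [inner_add_left, real_inner_smul_left, real_inner_smul_left]
    have h1 := mul_le_mul_of_nonneg_left (ha.1 x) hα
    have h2 := mul_le_mul_of_nonneg_left (hb.1 x) hβ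
    have : N.p w * N.p x = (α + β) * (N.p w * N.p x) := by rw [hαβ, one_mul]
    linarith
  · rw [inner_add_left, real_inner_smul_left, real_inner_smul_left, ha.2, hb.2, ← add_mul, hαβ,
      one_mul]

namespace Pair

variable {P : Pair E} {D : Set E}

theorem K_adj {v : E × E} (hv : v ∈ P.N.U) (hg : P.GoodPt D (P.x v)) (a : E) :
    P.K v (adj (P.H v) a) = a := by
  refine ext_inner_right ℝ fun k => ?_
  rw [K, inner_adj, inner_adj, H_G hv hg]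

theorem adj_K {v : E × E} (hv : v ∈ P.N.U) (hg : P.GoodPt D (P.x v)) (a : E) :
    adj (P.H v) (P.K v a) = a := by
  refine ext_inner_right ℝ fun k => ?_
  rw [inner_adj, inner_K_H hv hg]

theorem K_centroid (hD : ∀ x ∈ D, P.GoodPt D x) {w c p q : E}
    (hc : ∀ g : E →L[ℝ] E, g '' {ψ | P.N.J w ψ} = {ψ | P.N.J w ψ} → g c = c)
    (hp : (p, w) ∈ P.Γ D) (hq : (q, w) ∈ P.Γ D) (hW : P.W (p, w) = P.W (q, w)) :
    P.K (p, w) c = P.K (q, w) c := by
  have := hc (adj (P.H (q, w)) ∘L P.K (p, w)) (Subset.antisymm ?_ ?_)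
  · conv_rhs => rw [← this, ContinuousLinearMap.comp_apply, K_adj hq.1 (hD _ hq.2.1)]
  · rintro _ ⟨a, ha, rfl⟩
    exact J_adj hD hq (by rw [← hW]; exact J_K hD hp ha)
  · intro a ha
    refine ⟨adj (P.H (p, w)) (P.K (q, w) a), J_adj hD hp (by rw [hW]; exact J_K hD hq ha), ?_⟩
    rw [ContinuousLinearMap.comp_apply, K_adj hp.1 (hD _ hp.2.1), adj_K hq.1 (hD _ hq.2.1)]

theorem inner_K_aa (hD : ∀ x ∈ D, P.GoodPt D x) {v : E × E} (hv : v ∈ P.Γ D) {c : E}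
    (hc : P.N.J v.2 c) (k : E) : ⟪P.K v c, P.aa v k⟫ = ⟪c, k⟫ := by
  have hτ : P.t v + P.t (ng v) ≠ 0 := (τ_pos hv.1).ne'
  simp only [aa, _root_.smul_apply, _root_.add_apply, inner_add_right, inner_smul_right,
    inner_H_ng hD hv (J_K hD hv hc), inner_K_H hv.1 (hD _ hv.2.1)]
  field_simp
  ring

theorem aa_eq {v : E × E} (hv : v ∈ P.N.U) {e : E} (he : P.H v e = P.H (ng v) e) :
    P.aa v e = P.H (ng v) e := by
  have hτ : P.t v + P.t (ng v) ≠ 0 := (τ_pos hv).ne'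
  simp only [aa, _root_.smul_apply, _root_.add_apply, he]
  match_scalars
  field_simp
  ring

theorem K_mono (hD : ∀ x ∈ D, P.GoodPt D x) {w p q a : E} (hp : (p, w) ∈ P.Γ D)
    (hq : (q, w) ∈ P.Γ D) (ha : P.N.J w a) :
    0 ≤ ⟪P.K (q, w) a - P.K (p, w) a, P.W (q, w) - P.W (p, w)⟫ := by
  have j1 := J_K hD hp ha
  have j2 := J_K hD hq ha
  have a1 := j1.1 (P.W (q, w))
  have a2 := j2.1 (P.W (p, w))
  have a3 := j1.2
  have a4 := j2.2
  rw [norm_W hp.1, norm_W hq.1] at a1 a2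
  rw [norm_W hp.1] at a3
  rw [norm_W hq.1] at a4
  simp only at a1 a2 a3 a4
  rw [inner_sub_left, inner_sub_right, inner_sub_right]
  nlinarith

variable [MeasurableSpace E] [BorelSpace E] {μ : Measure E} [Measure.IsAddHaarMeasure μ]

theorem W_inv (hD : ∀ x ∈ D, P.GoodPt D x) {G' : Set E} (hG : Full μ G' P.N.B) {w : E}
    (hw : w ≠ 0) (hΓ : ∀ p ∈ G', (p, w) ∈ P.Γ D) {e : E}
    (he : ∀ p ∈ G', P.H (p, w) e = P.H (ng (p, w)) e) {p : E} (hp : p ∈ P.N.B)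
    (hpe : p + e ∈ P.N.B) : P.W (p + e, w) = P.W (p, w) := by
  refine eq_of_hasFDerivAt_zero (μ := μ) (g := fun p => P.W (p, w)) P.N.isOpen_B
    (fun x hx => (W_LL (v := (x, w)) ⟨hx, hw⟩).comp (g := fun p => (p, w))
      (LL.of_lip (LipschitzWith.prodMk_right w) x)) ?_
    fun t ht => P.N.convex_B.add_smul_mem hp hpe ht
  filter_upwards [hG] with y hy hyB
  exact ⟨_, W_slice hD (hΓ y (hy hyB)), by simp [he y (hy hyB)]⟩

theorem slice_diff {X : Type*} [NormedAddCommGroup X] [NormedSpace ℝ X] {G' : Set E} {w p : E}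
    (hΓ : ∀ p ∈ G', (p, w) ∈ P.Γ D) {g : E × E → X}
    (hg : DifferentiableWithinAt ℝ g (P.Γ D) (p, w)) :
    ∃ g' : E →L[ℝ] X, HasFDerivWithinAt (fun q => g (q, w)) g' G' p :=
  ⟨_, (DifferentiableWithinAt.comp (f := fun q => (q, w)) p hg
    (hasFDerivAt_prodMk_left (𝕜 := ℝ) p w).differentiableAt.differentiableWithinAt
      hΓ).hasFDerivWithinAt⟩

theorem curl (hD : ∀ x ∈ D, P.GoodPt D x) {G' : Set E} (hG : Full μ G' P.N.B) {w : E}
    (hΓ : ∀ p ∈ G', (p, w) ∈ P.Γ D) {p c : E} (hp : p ∈ G') (hc : P.N.J w c)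
    {c' : E →L[ℝ] E} (hc' : HasFDerivWithinAt (fun q => P.K (q, w) c) c' G' p) (h k : E) :
    ⟪c' h, P.aa (p, w) k⟫ = ⟪c' k, P.aa (p, w) h⟫ := by
  have hv := hΓ p hp
  have hdn := hG.dn P.N.isOpen_B hv.1.1
  obtain ⟨a', ha'⟩ := slice_diff hΓ (aa_diff hD hv)
  have hs := second_symm (μ := μ) (g := fun q => P.Q (q, w))
    ((Q_LL hv.1).comp (g := fun q => (q, w)) (LL.of_lip (LipschitzWith.prodMk_right w) p)) hG
    P.N.isOpen_B hv.1.1 (fun y hy => Q_slice hD (hΓ y hy)) ha' h k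
  have key : ∀ h k, ⟪P.K (p, w) c, a' h k⟫ + ⟪c' h, P.aa (p, w) k⟫ = 0 := by
    intro h k
    have b1 := hc'.inner ℝ
      ((ContinuousLinearMap.apply ℝ E k).hasFDerivAt.comp_hasFDerivWithinAt p ha')
    have b2 := hdn.eq b1 (hasFDerivWithinAt_const ⟪c, k⟫ p G') hp
      fun y hy => inner_K_aa hD (hΓ y hy) hc k
    simpa using ContinuousLinearMap.ext_iff.1 b2 h
  have k1 := key h k
  have k2 := key k h
  rw [hs] at k1
  linarith

theorem perf_slice (hD : ∀ x ∈ D, P.GoodPt D x) (h1 : Full (μ.prod μ) (P.G1 D) P.Ω) {ψ : E}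
    {G' : Set E} (hG : Full μ G' P.N.B) (hs : ∀ p ∈ G', (ψ, p) ∈ P.G1 D ∧
      ∀ ξ, P.H (P.κ (ψ, p)) (P.A ψ ξ) = P.H (ng (P.κ (ψ, p))) (P.A ψ ξ))
    {p q : E} (hp : p ∈ P.N.B) (hq : q ∈ P.N.B) :
    P.W (q, gr P.N.hs ψ) = P.W (p, gr P.N.hs ψ) := by
  obtain ⟨p₀, -, hp₀⟩ := hG.exists_mem P.N.isOpen_B subset_rfl ⟨p, hp⟩
  have hJ : P.N.J (gr P.N.hs ψ) ψ := J_κ (hs p₀ hp₀).1.1
  have hΓ : ∀ p ∈ G', (p, gr P.N.hs ψ) ∈ P.Γ D := fun p hp => (hs p hp).1.1.2.2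
  have hw : gr P.N.hs ψ ≠ 0 := (hΓ p₀ hp₀).1.2
  have hκ : ∀ p, P.κ (ψ, p) = (p, gr P.N.hs ψ) := fun _ => rfl
  simp only [hκ] at hs
  generalize hw' : gr P.N.hs ψ = w at hJ hΓ hw hκ hs ⊢
  suffices H : ∀ p ∈ G', ∀ h, P.H (p, w) h = P.H (ng (p, w)) h by
    simpa using W_inv hD hG hw hΓ (e := q - p) (fun y hy => H y hy _) hp (by simpa using hq)
  clear hp hq p q
  intro p hp h
  obtain ⟨c, hc, hc1, hc2⟩ := exists_centroid (P.N.J_compact w) (P.N.J_convex w) ⟨ψ, hJ⟩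
  have hv := hΓ p hp
  have hdn := hG.dn P.N.isOpen_B hv.1.1
  obtain ⟨K', hK'⟩ := slice_diff hΓ (K_diff hD hv)
  have hKa : ∀ a, HasFDerivWithinAt (fun q => P.K (q, w) a)
      (ContinuousLinearMap.apply ℝ E a ∘L K') G' p := fun a =>
    (ContinuousLinearMap.apply ℝ E a).hasFDerivAt.comp_hasFDerivWithinAt p hK'
  have L := ld hD (hs p hp).1 μ (h1.dn isOpen_Ω (G0_subset (hs p hp).1.1))
  rw [hκ] at L
  have hM : P.Dφ D (ψ, p) (0, h) = K' h ψ := by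
    have b1 := HasFDerivWithinAt.comp (f := fun q => (ψ, q)) p (φ_deriv hD (hs p hp).1.1)
      (hasFDerivAt_prodMk_right (𝕜 := ℝ) ψ p).hasFDerivWithinAt fun y hy => (hs y hy).1.1
    have b2 := hdn.eq b1 (hKa ψ) hp fun y _ => by rw [← hκ]; rfl
    simpa using ContinuousLinearMap.ext_iff.1 b2 h
  have c2 := L.c2 h
  rw [hM] at c2
  have hβ : ∀ a, P.N.J w a → 0 ≤ ⟪K' h a, P.symm.A (P.φ (ψ, p)) (K' h ψ)⟫ := by
    intro a ha
    have := hdn.mono_nonneg (hKa a) (W_slice hD hv).hasFDerivWithinAt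
      (fun y hy => K_mono hD hv (hΓ y hy) ha) h
    simp only [_root_.smul_apply, _root_.sub_apply, c2] at this
    rwa [← τ, smul_smul, inv_mul_cancel₀ (τ_pos hv.1).ne', one_smul] at this
  have c4 := L.c4 (adj (P.H (p, w)) (K' h ψ))
  rw [K_adj hv.1 (hD _ hv.2.1), ← aa_eq hv.1 ((hs p hp).2 _)] at c4
  have hce := hG.inv_eq_zero P.N.isOpen_B hv.1.1 (hKa c) (P.A ψ (adj (P.H (p, w)) (K' h ψ)))
    fun y hy t hyt => K_centroid hD hc1 (hΓ _ hyt) (hΓ _ hy) (W_inv hD hG hw hΓ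
      (fun z hz => by rw [map_smul, map_smul, (hs z hz).2]) (hΓ _ hy).1.1 (hΓ _ hyt).1.1)
  have hc0 := curl hD hG hΓ hp hc (hKa c) h (P.A ψ (adj (P.H (p, w)) (K' h ψ)))
  rw [hce, inner_zero_left] at hc0
  have hc3 : ⟪K' h c, P.symm.A (P.φ (ψ, p)) (K' h ψ)⟫ = 0 := by rw [c4]; exact hc0
  obtain ⟨l, hl, hl'⟩ := hc2 ψ hJ
  have b := hβ _ hl'
  rw [map_sub, map_smul, map_sub, inner_sub_left, real_inner_smul_left, inner_sub_left, hc3] at b
  have b2 : ⟪P.symm.A (P.φ (ψ, p)) (K' h ψ), K' h ψ⟫ ≤ 0 := by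
    rw [real_inner_comm]
    by_contra hcon
    push Not at hcon
    nlinarith
  rw [L.pA'.eq_zero b2, smul_zero] at c2
  exact sub_eq_zero.1 c2

variable (P) in
/-- All chords in the direction attached to `ψ` have parallel images. -/
def Perf (ψ : E) : Prop :=
  ∀ p ∈ P.N.B, ∀ q ∈ P.N.B, P.W (q, gr P.N.hs ψ) = P.W (p, gr P.N.hs ψ)

theorem slice_full {G : Set (E × E)} (h : Full (μ.prod μ) G P.Ω) :
    ∀ᵐ ψ ∂μ, ψ ∈ P.N.Bs → Full μ {p | (ψ, p) ∈ G} P.N.B := by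
  filter_upwards [Measure.ae_ae_of_ae_prod h] with ψ h1 hψ
  filter_upwards [h1] with p h2 hp using h2 ⟨hψ, hp⟩

theorem ae_perf [Nontrivial E] (hD : ∀ x ∈ D, P.GoodPt D x)
    (h1 : Full (μ.prod μ) (P.G1 D) P.Ω) :
    Full (μ.prod μ) {y | y ∈ P.G1 D ∧ P.Perf y.1} P.Ω := by
  have h2 : ∀ᵐ ψ ∂μ, ψ ∈ P.N.Bs → P.Perf ψ := by
    filter_upwards [slice_full (full_eq hD h1)] with ψ h hψ p hp q hq
    exact perf_slice hD h1 (h hψ) (fun _ h => h) hp hq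
  filter_upwards [h1, (Measure.quasiMeasurePreserving_fst (μ := μ) (ν := μ)).ae h2]
    with y a1 a2 hy using ⟨a1 hy, a2 hy.1⟩

end Pair

end Vale.Agent.P084
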