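import Vale.Agent.P084.Deriv
import Vale.Agent.P084.LinAlg

/-! The correspondence on phase space. -/

open MeasureTheory Filter Topology Set Metric Asymptotics
open scoped NNReal ENNReal RealInnerProductSpace

set_option linter.unusedSectionVars false

namespace Vale.Agent.P084

variable {E : Type*} [NormedAddCommGroup E] [InnerProductSpace ℝ E] [FiniteDimensional ℝ E]

namespace Pair

variable (P : Pair E)

/-- From (momentum, point) to (point, direction). -/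
noncomputable def κ (y : E × E) : E × E := (y.2, gr P.N.hs y.1)
/-- Image momentum. -/
noncomputable def φ (y : E × E) : E := P.K (P.κ y) y.1
/-- The phase map. -/
noncomputable def Φ (y : E × E) : E × E := (P.φ y, P.Q (P.κ y))
/-- The phase domain. -/
def Ω : Set (E × E) := P.N.Bs ×ˢ P.N.B
/-- Hessian of the conjugate function. -/
noncomputable def A (ψ : E) : E →L[ℝ] E := fderivWithin ℝ (gr P.N.hs) (DS P.N.hs) ψ
/-- Derivative of `κ`. -/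
noncomputable def Dκ (y : E × E) : E × E →L[ℝ] E × E :=
  (ContinuousLinearMap.snd ℝ E E).prod (P.A y.1 ∘L ContinuousLinearMap.fst ℝ E E)
/-- First good set. -/
def G0 (D : Set E) : Set (E × E) := {y | y.1 ∈ P.N.Bs ∧ y.1 ∈ AG P.N.hs ∧ P.κ y ∈ P.Γ D}
/-- Second good set. -/
def G1 (D : Set E) : Set (E × E) := {y | y ∈ P.G0 D ∧ P.φ y ∈ AG P.N'.hs}
/-- Derivative of `φ`. -/
noncomputable def Dφ (D : Set E) (y : E × E) : E × E →L[ℝ] E := fderivWithin ℝ P.φ (P.G0 D) y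

variable {P} {y : E × E} {D : Set E}

theorem isOpen_Ω : IsOpen P.Ω := P.N.isOpen_Bs.prod P.N.isOpen_B

theorem G0_subset : P.G0 D ⊆ P.Ω := fun _ hy => ⟨hy.1, hy.2.2.1.1⟩

theorem Dκ_apply (y u : E × E) : P.Dκ y u = (u.2, P.A y.1 u.1) := rfl

theorem κ_deriv (hy : y ∈ P.G0 D) : HasFDerivWithinAt P.κ (P.Dκ y) (P.G0 D) y :=
  hasFDerivWithinAt_snd.prodMk ((AG.hasFDerivWithinAt_gr hy.2.1).comp y hasFDerivWithinAt_fst
    fun _ hu => hu.2.1.1)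

theorem J_κ (hy : y ∈ P.G0 D) : P.N.J (P.κ y).2 y.1 := Nm.J_gr hy.2.1.1

section
variable (hD : ∀ x ∈ D, P.GoodPt D x) (hy : y ∈ P.G0 D)
include hD hy

theorem comp_κ {X : Type*} [NormedAddCommGroup X] [NormedSpace ℝ X] {g : E × E → X}
    (h : DifferentiableWithinAt ℝ g (P.Γ D) (P.κ y)) :
    DifferentiableWithinAt ℝ (fun u => g (P.κ u)) (P.G0 D) y :=
  h.comp y (κ_deriv hy).differentiableWithinAt fun _ hu => hu.2.2

theorem φ_deriv : HasFDerivWithinAt P.φ (P.Dφ D y) (P.G0 D) y :=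
  ((comp_κ hD hy (K_diff hD hy.2.2)).clm_apply differentiableWithinAt_fst).hasFDerivWithinAt

theorem Q_deriv : HasFDerivWithinAt (fun u => P.Q (P.κ u)) (fderiv ℝ P.Q (P.κ y) ∘L P.Dκ y)
    (P.G0 D) y := (Q_diff hD hy.2.2).hasFDerivAt.comp_hasFDerivWithinAt y (κ_deriv hy)

theorem W_deriv : HasFDerivWithinAt (fun u => P.W (P.κ u)) (fderiv ℝ P.W (P.κ y) ∘L P.Dκ y)
    (P.G0 D) y := (W_diff hD hy.2.2).hasFDerivAt.comp_hasFDerivWithinAt y (κ_deriv hy)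

theorem Φ_deriv : HasFDerivWithinAt P.Φ ((P.Dφ D y).prod (fderiv ℝ P.Q (P.κ y) ∘L P.Dκ y))
    (P.G0 D) y := (φ_deriv hD hy).prodMk (Q_deriv hD hy)

theorem J_φ : P.N'.J (P.W (P.κ y)) (P.φ y) := J_K hD hy.2.2 (J_κ hy)

theorem Φ_mem : P.Φ y ∈ P.symm.Ω := by
  refine ⟨?_, Q_lt hy.2.2.1⟩
  change P.N'.hs (P.φ y) < 1 / 2
  rw [(J_φ hD hy).hs_eq, norm_W hy.2.2.1, ← (J_κ hy).hs_eq]
  exact hy.1

theorem Dφ_W (hdn : Dn (P.G0 D) y) (u : E × E) :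
    ⟪P.Dφ D y u, P.W (P.κ y)⟫ = ⟪u.1, (P.κ y).2⟫ := by
  have h1 : HasFDerivWithinAt (fun a : E × E => P.N.hs a.1 - rl (P.W (P.κ y)) (P.φ a))
      (fderiv ℝ P.N.hs y.1 ∘L ContinuousLinearMap.fst ℝ E E - rl (P.W (P.κ y)) ∘L P.Dφ D y)
      (P.G0 D) y :=
    (hy.2.1.1.hasFDerivAt.comp_hasFDerivWithinAt y hasFDerivWithinAt_fst).sub
      ((rl (P.W (P.κ y))).hasFDerivAt.comp_hasFDerivWithinAt y (φ_deriv hD hy))
  have h2 := hdn.min_eq_zero h1 (fun a ha => by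
    have a1 := (J_φ hD ha).1 (P.W (P.κ y))
    have a2 := (J_φ hD hy).2
    rw [norm_W ha.2.2.1, norm_W hy.2.2.1] at a1
    rw [norm_W hy.2.2.1] at a2
    simp only [rl_apply, real_inner_comm _ (P.W (P.κ y)), (J_κ ha).hs_eq, (J_κ hy).hs_eq, a2]
    nlinarith [sq_nonneg (P.N.p (P.κ a).2 - P.N.p (P.κ y).2)])
  have := ContinuousLinearMap.ext_iff.1 (sub_eq_zero.1 h2) u
  simp only [ContinuousLinearMap.comp_apply, ContinuousLinearMap.coe_fst', rl_apply] at this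
  rw [real_inner_comm, ← this, real_inner_comm]
  exact (inner_gr _ _ _).symm

theorem Dφ_end (hdn : Dn (P.G0 D) y) {κ' : E × E → E × E} {κ'' : E × E →L[ℝ] E × E}
    (hκ : HasFDerivWithinAt κ' κ'' (P.G0 D) y) (hm : ∀ a ∈ P.G0 D, κ' a ∈ P.Γ D)
    (hφ : ∀ a ∈ P.G0 D, P.φ a = P.K (κ' a) a.1) {u : E × E}
    (hu : (κ'' u).1 + P.t (κ' y) • (κ'' u).2 = 0)
    (hw : ⟪P.Dφ D y u, P.W (κ' y)⟫ = ⟪u.1, (κ' y).2⟫) : P.Dφ D y u = P.K (κ' y) u.1 := by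
  have hv := hm y hy
  have g1 := hD _ hv.2.1
  have hx : HasFDerivWithinAt (fun a => P.x (κ' a)) (fderiv ℝ P.x (κ' y) ∘L κ'') (P.G0 D) y :=
    (x_hasFDerivAt hv.1 g1).differentiableAt.hasFDerivAt.comp_hasFDerivWithinAt y hκ
  have hx0 : fderiv ℝ P.x (κ' y) (κ'' u) = 0 := (fderiv_x_eq_zero_iff hv.1 g1 _).2 hu
  have hT := g1.dT.hasFDerivWithinAt.comp y hx fun a ha => (hm a ha).2.1
  have hν := g1.dν.hasFDerivWithinAt.comp y hx fun a ha => (hm a ha).2.1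
  have hM : DifferentiableWithinAt ℝ (fun a => (P.ν (κ' a) (κ' a).2)⁻¹ •
      (P.W (κ' a) - P.T (κ' a) (κ' a).2)) (P.G0 D) y :=
    ((((ν_diff hD hv).clm_apply differentiableWithinAt_snd).inv
      (ν_pos hv.1 g1).ne').smul ((W_diff hD hv).differentiableWithinAt.sub
        ((T_diff hD hv).clm_apply differentiableWithinAt_snd))).comp y
      hκ.differentiableWithinAt hm
  have ker : ∀ k, P.ν (κ' y) k = 0 → ⟪P.Dφ D y u, P.H (κ' y) k⟫ = ⟪u.1, k⟫ := by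
    intro k hk
    have b1 := (hT.clm_apply (hasFDerivWithinAt_const k y _)).add
      ((hν.clm_apply (hasFDerivWithinAt_const k y _)).smul hM.hasFDerivWithinAt)
    have b2 := (φ_deriv hD hy).inner ℝ b1
    have b3 : HasFDerivWithinAt (fun a : E × E => rl k a.1)
        (rl k ∘L ContinuousLinearMap.fst ℝ E E) (P.G0 D) y :=
      (rl k).hasFDerivAt.comp_hasFDerivWithinAt y hasFDerivWithinAt_fst
    have b4 := hdn.eq b2 b3 hy (fun a ha => by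
      have := inner_K_H (hm a ha).1 (hD _ (hm a ha).2.1) a.1 k
      rw [← hφ a ha] at this
      rw [rl_apply, real_inner_comm a.1 k, ← this]
      rfl)
    have b5 := ContinuousLinearMap.ext_iff.1 b4 u
    have hk' : fderiv ℝ P.N.p (P.x (κ' y)) k = 0 := hk
    simp [hx0, hk'] at b5
    rw [H, Hm_ker hk, real_inner_comm k]
    exact b5
  refine ext_inner_right ℝ fun h => ?_
  have hp := (ν_pos hv.1 g1).ne'
  set k := P.G (κ' y) h with hk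
  have h0 : P.ν (κ' y) (k - (P.ν (κ' y) k / P.ν (κ' y) (κ' y).2) • (κ' y).2) = 0 := by
    rw [map_sub, map_smul, smul_eq_mul, div_mul_cancel₀ _ hp, sub_self]
  have h1 := ker _ h0
  rw [map_sub, map_smul, H_w hv.1 g1, inner_sub_right, inner_sub_right, inner_smul_right,
    inner_smul_right, hw, sub_left_inj, hk, H_G hv.1 g1] at h1
  rw [h1, K, inner_adj]

theorem f2p (hdn : Dn (P.G0 D) y) (ξ : E) :
    P.Dφ D y (ξ, -(P.t (P.κ y) • P.A y.1 ξ)) = P.K (P.κ y) ξ :=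
  Dφ_end hD hy hdn (κ_deriv hy) (fun _ ha => ha.2.2) (fun _ _ => rfl) (by simp [Dκ_apply])
    (Dφ_W hD hy hdn _)

theorem f2m (hdn : Dn (P.G0 D) y) (ξ : E) :
    P.Dφ D y (ξ, P.t (ng (P.κ y)) • P.A y.1 ξ) = P.K (ng (P.κ y)) ξ :=
  Dφ_end hD hy hdn (κ' := fun a => ng (P.κ a)) (κ'' := ngL ∘L P.Dκ y)
    ((ng_hasFDerivAt (P.κ y)).comp_hasFDerivWithinAt y (κ_deriv hy))
    (fun _ ha => ng_Γ ha.2.2) (fun _ ha => (K_ng hD ha.2.2 (J_κ ha)).symm)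
    (by simp [Dκ_apply, ngL_apply])
    (by
      have := Dφ_W hD hy hdn (ξ, P.t (ng (P.κ y)) • P.A y.1 ξ)
      simp only [W_ng, ng_snd, inner_neg_right, this])

theorem Ξ_deriv : HasFDerivWithinAt (fun a => (P.φ a, P.x (P.κ a)))
    ((P.Dφ D y).prod (fderiv ℝ P.x (P.κ y) ∘L P.Dκ y)) (P.G0 D) y :=
  (φ_deriv hD hy).prodMk ((x_hasFDerivAt hy.2.2.1
    (hD _ hy.2.2.2.1)).differentiableAt.hasFDerivAt.comp_hasFDerivWithinAt y (κ_deriv hy))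

theorem Ξ_det (hdn : Dn (P.G0 D) y) :
    ((P.Dφ D y).prod (fderiv ℝ P.x (P.κ y) ∘L P.Dκ y)).det ≠ 0 := by
  have g1 := hD _ hy.2.2.2.1
  rw [ContinuousLinearMap.det, Ne, LinearMap.det_eq_zero_iff_ker_ne_bot, not_not,
    LinearMap.ker_eq_bot']
  rintro ⟨ξ, k⟩ h
  have h1 : P.Dφ D y (ξ, k) = 0 := congrArg Prod.fst h
  have h2 : fderiv ℝ P.x (P.κ y) (P.Dκ y (ξ, k)) = 0 := congrArg Prod.snd h
  rw [fderiv_x_eq_zero_iff hy.2.2.1 g1, Dκ_apply] at h2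
  have h3 : k = -(P.t (P.κ y) • P.A y.1 ξ) := eq_neg_of_add_eq_zero_left h2
  rw [h3, f2p hD hy hdn] at h1
  have h4 : ξ = 0 := by
    rw [← inner_self_eq_zero (𝕜 := ℝ), ← inner_K_H hy.2.2.1 g1, h1, inner_zero_left]
  simp [h3, h4]

end

section
variable (hD : ∀ x ∈ D, P.GoodPt D x) (hy : y ∈ P.G1 D)
include hD hy

theorem κ_Φ : P.symm.κ (P.Φ y) = P.Ψ (P.κ y) :=
  Prod.ext rfl ((J_φ hD hy.1).gr_eq hy.2.1)

theorem Φ_Φ : P.symm.Φ (P.Φ y) = y := by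
  have hv := hy.1.2.2
  have g1 := hD _ hv.2.1
  refine Prod.ext ?_ ?_
  · change adj (P.symm.G (P.symm.κ (P.Φ y))) (P.φ y) = y.1
    rw [κ_Φ hD hy, G_Ψ hv.1 g1]
    refine ext_inner_right ℝ fun k => ?_
    rw [inner_adj, φ, inner_K_H hv.1 g1]
  · change P.symm.Q (P.symm.κ (P.Φ y)) = y.2
    rw [κ_Φ hD hy, Q_Ψ hv.1]; rfl

variable [MeasurableSpace E] [BorelSpace E] (μ : Measure E) [Measure.IsAddHaarMeasure μ]
include μ

theorem ld (hdn : Dn (P.G1 D) y) :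
    LD (P.A y.1) (P.symm.A (P.φ y)) (P.H (P.κ y)) (P.H (ng (P.κ y))) (P.G (P.κ y))
      (P.G (ng (P.κ y))) (P.K (P.κ y)) (P.K (ng (P.κ y))) (P.t (P.κ y)) (P.t (ng (P.κ y)))
      (P.Dφ D y) (fderiv ℝ P.Q (P.κ y) ∘L P.Dκ y) (fderiv ℝ P.W (P.κ y) ∘L P.Dκ y) := by
  have hv := hy.1.2.2
  have hv' := Nm.ng_mem hv.1
  have g1 := hD _ hv.2.1
  have g2 := hD _ hv.2.2
  have hdn0 : Dn (P.G0 D) y := mem_of_superset hdn (closure_mono fun _ h => h.1)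
  have a1 := AG.hasFDerivWithinAt_gr hy.1.2.1
  have a2 := AG.hasFDerivWithinAt_gr hy.2
  refine ⟨⟨hess_symm (μ := μ) P.N.convexOn_hs a1, hess_nonneg (μ := μ) P.N.convexOn_hs
    hy.1.2.1.1 a1⟩, ⟨hess_symm (μ := μ) P.N'.convexOn_hs a2, hess_nonneg (μ := μ)
    P.N'.convexOn_hs hy.2.1 a2⟩, t_pos hv.1, t_pos hv', H_G hv.1 g1, G_H hv.1 g1, H_G hv' g2,
    G_H hv' g2, fun u v => inner_adj _ _ _, fun u v => inner_adj _ _ _,
    fun u => r1p hD hv _, fun u => r1m hD hv _, f2p hD hy.1 hdn0, f2m hD hy.1 hdn0, fun u => ?_⟩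
  have b1 := (W_deriv hD hy.1).mono (s := P.G1 D) fun _ h => h.1
  have b2 := a2.comp y ((φ_deriv hD hy.1).mono (s := P.G1 D) fun _ h => h.1)
    fun _ h => h.2.1
  have := hdn.eq b1 b2 hy fun a ha => ((J_φ hD ha.1).gr_eq ha.2.1).symm
  exact ContinuousLinearMap.ext_iff.1 this u

end

end Pair

end Vale.Agent.P084
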