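import Mathlib

/-! General analytic tools: sets that are full near a point, null preimages and null images. -/

open MeasureTheory Filter Topology Set Metric
open scoped NNReal ENNReal

namespace Vale.Agent.P084

section Dense

variable {V W : Type*} [NormedAddCommGroup V] [NormedSpace ℝ V]
  [NormedAddCommGroup W] [NormedSpace ℝ W]

/-- `s` is dense in a neighbourhood of `x`. -/
def Dn (s : Set V) (x : V) : Prop := closure s ∈ 𝓝 x

theorem Dn.seq {s : Set V} {x : V} (h : Dn s x) (v : V) :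
    ∃ d : ℕ → V, Tendsto d atTop (𝓝 0) ∧ (∀ᶠ n in atTop, x + d n ∈ s) ∧
      Tendsto (fun n : ℕ => ((n : ℝ) + 1) • d n) atTop (𝓝 v) := by
  have h0 : Tendsto (fun n : ℕ => (1 : ℝ) / ((n : ℝ) + 1)) atTop (𝓝 0) :=
    tendsto_one_div_add_atTop_nhds_zero_nat
  have hx : Tendsto (fun n : ℕ => x + ((1 : ℝ) / ((n : ℝ) + 1)) • v) atTop (𝓝 x) := by
    have := (h0.smul_const v).const_add x
    simpa using this
  have hc : ∀ n : ℕ, ∃ d : V, ‖d - ((1 : ℝ) / ((n : ℝ) + 1)) • v‖ ≤ (1 / ((n : ℝ) + 1)) ^ 2 ∧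
      (x + ((1 : ℝ) / ((n : ℝ) + 1)) • v ∈ closure s → x + d ∈ s) := by
    intro n
    by_cases hn : x + ((1 : ℝ) / ((n : ℝ) + 1)) • v ∈ closure s
    · obtain ⟨y, hy, hd⟩ := Metric.mem_closure_iff.1 hn ((1 / ((n : ℝ) + 1)) ^ 2) (by positivity)
      refine ⟨y - x, ?_, fun _ => by simpa using hy⟩
      rw [dist_comm, dist_eq_norm] at hd
      have : y - x - ((1 : ℝ) / ((n : ℝ) + 1)) • v = y - (x + ((1 : ℝ) / ((n : ℝ) + 1)) • v) := by
        abel
      rw [this]; exact hd.le
    · exact ⟨((1 : ℝ) / ((n : ℝ) + 1)) • v, by rw [sub_self, norm_zero]; positivity,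
        fun h' => (hn h').elim⟩
  choose d hd1 hd2 using hc
  have he : Tendsto (fun n : ℕ => ((n : ℝ) + 1) • (d n - ((1 : ℝ) / ((n : ℝ) + 1)) • v)) atTop
      (𝓝 0) := by
    refine squeeze_zero_norm (fun n => ?_) h0
    have hp : (0 : ℝ) < (n : ℝ) + 1 := by positivity
    rw [norm_smul, Real.norm_of_nonneg hp.le]
    calc ((n : ℝ) + 1) * ‖d n - ((1 : ℝ) / ((n : ℝ) + 1)) • v‖
        ≤ ((n : ℝ) + 1) * (1 / ((n : ℝ) + 1)) ^ 2 := by gcongr; exact hd1 n
      _ = 1 / ((n : ℝ) + 1) := by field_simp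
  have h3 : Tendsto (fun n : ℕ => ((n : ℝ) + 1) • d n) atTop (𝓝 v) := by
    have := he.add_const v
    rw [zero_add] at this
    refine this.congr fun n => ?_
    have hp : ((n : ℝ) + 1) ≠ 0 := by positivity
    rw [smul_sub, smul_smul, mul_one_div_cancel hp, one_smul, sub_add_cancel]
  refine ⟨d, ?_, ?_, h3⟩
  · have := h0.smul h3
    rw [zero_smul] at this
    refine this.congr fun n => ?_
    have hp : ((n : ℝ) + 1) ≠ 0 := by positivity
    rw [smul_smul, one_div_mul_cancel hp, one_smul]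
  · filter_upwards [hx.eventually h] with n hn using hd2 n hn

theorem Dn.unique {s : Set V} {x : V} (h : Dn s x) : UniqueDiffWithinAt ℝ s x := by
  refine ⟨?_, mem_of_mem_nhds h⟩
  have : tangentConeAt ℝ s x = univ := by
    refine eq_univ_of_forall fun v => ?_
    obtain ⟨d, h1, h2, h3⟩ := h.seq v
    exact mem_tangentConeAt_of_seq atTop _ d h1 h2 h3
  rw [this]; simp

theorem Dn.eq {s : Set V} {x : V} (h : Dn s x) {f g : V → W} {f' g' : V →L[ℝ] W}
    (hf : HasFDerivWithinAt f f' s x) (hg : HasFDerivWithinAt g g' s x) (hx : x ∈ s)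
    (hfg : ∀ y ∈ s, f y = g y) : f' = g' :=
  h.unique.eq hf (hg.congr hfg (hfg x hx))

theorem Dn.eq_ev {s : Set V} {x : V} (h : Dn s x) {f g : V → W} {f' g' : V →L[ℝ] W}
    (hf : HasFDerivWithinAt f f' s x) (hg : HasFDerivWithinAt g g' s x) (hx : f x = g x)
    (hfg : ∀ᶠ y in 𝓝[s] x, f y = g y) : f' = g' :=
  h.unique.eq hf (hg.congr_of_eventuallyEq hfg hx)

/-- At a minimum along a locally dense set the derivative vanishes. -/
theorem Dn.min_eq_zero {s : Set V} {x : V} (h : Dn s x) {g : V → ℝ} {g' : V →L[ℝ] ℝ}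
    (hg : HasFDerivWithinAt g g' s x) (hmin : ∀ y ∈ s, g x ≤ g y) : g' = 0 := by
  have key : ∀ v, 0 ≤ g' v := by
    intro v
    obtain ⟨d, h1, h2, h3⟩ := h.seq v
    refine ge_of_tendsto (hg.lim h1 h2 h3) ?_
    filter_upwards [h2] with n hn
    have := hmin _ hn
    exact smul_nonneg (by positivity) (by linarith)
  ext v
  have h1 := key v
  have h2 := key (-v)
  rw [map_neg] at h2
  simp only [_root_.zero_apply]
  linarith

/-- Monotone pairs have nonnegative derivative pairing. -/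
theorem Dn.mono_nonneg {E : Type*} [NormedAddCommGroup E] [InnerProductSpace ℝ E]
    {s : Set V} {x : V} (h : Dn s x) {f g : V → E} {f' g' : V →L[ℝ] E}
    (hf : HasFDerivWithinAt f f' s x) (hg : HasFDerivWithinAt g g' s x)
    (hm : ∀ y ∈ s, 0 ≤ inner ℝ (f y - f x) (g y - g x)) (v : V) :
    0 ≤ inner ℝ (f' v) (g' v) := by
  obtain ⟨d, h1, h2, h3⟩ := h.seq v
  refine ge_of_tendsto ((hf.lim h1 h2 h3).inner (hg.lim h1 h2 h3)) ?_
  filter_upwards [h2] with n hn
  rw [inner_smul_left, inner_smul_right]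
  have := hm _ hn
  simp only [conj_trivial]
  positivity

end Dense

section Full

variable {V W : Type*} [NormedAddCommGroup V] [NormedSpace ℝ V] [FiniteDimensional ℝ V]
  [MeasurableSpace V] [BorelSpace V] (μ : Measure V) [Measure.IsAddHaarMeasure μ]
  [NormedAddCommGroup W] [NormedSpace ℝ W]

/-- `s` contains almost all points of the open set `U`. -/
def Full (s U : Set V) : Prop := ∀ᵐ y ∂μ, y ∈ U → y ∈ s

variable {μ}

omit [NormedSpace ℝ V] [FiniteDimensional ℝ V] [BorelSpace V] in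
theorem Full.exists_mem {s U : Set V} (h : Full μ s U) {O : Set V} (hO : IsOpen O)
    (hOU : O ⊆ U) (hne : O.Nonempty) : ∃ y ∈ O, y ∈ s := by
  by_contra hcon
  push Not at hcon
  have h0 : μ O = 0 := by
    refine measure_mono_null (fun y hy => ?_) (ae_iff.1 h)
    simp only [mem_ofPred_eq, Classical.not_imp]
    exact ⟨hOU hy, hcon y hy⟩
  exact (hO.measure_pos μ hne).ne' h0

omit [NormedSpace ℝ V] [FiniteDimensional ℝ V] [BorelSpace V] in
theorem Full.dn {s U : Set V} (h : Full μ s U) (hU : IsOpen U) {x : V} (hx : x ∈ U) :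
    Dn s x := by
  refine mem_of_superset (hU.mem_nhds hx) fun y hy => ?_
  rw [_root_.mem_closure_iff]
  intro o ho hyo
  obtain ⟨z, hz, hzs⟩ := h.exists_mem (ho.inter hU) inter_subset_right ⟨y, hyo, hy⟩
  exact ⟨z, hz.1, hzs⟩

omit [FiniteDimensional ℝ V] in
/-- A function invariant under translation by multiples of `e` has zero derivative along `e`. -/
theorem Full.inv_eq_zero {s U : Set V} (h : Full μ s U) (hU : IsOpen U) {x : V} (hx : x ∈ U)
    {c : V → W} {c' : V →L[ℝ] W} (hc : HasFDerivWithinAt c c' s x) (e : V)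
    (hinv : ∀ y ∈ s, ∀ t : ℝ, y + t • e ∈ s → c (y + t • e) = c y) : c' e = 0 := by
  have key : ∀ η : ℝ, 0 < η → ‖c' e‖ ≤ η * (2 + ‖e‖) := by
    intro η hη
    have h1 := (hc.isLittleO.def hη)
    rw [eventually_nhdsWithin_iff] at h1
    obtain ⟨δ, hδ, hb⟩ := Metric.mem_nhds_iff.1 (h1.and (hU.mem_nhds hx))
    set t : ℝ := δ / (2 + ‖e‖) with ht
    have he : 0 < 2 + ‖e‖ := by positivity
    have htp : 0 < t := div_pos hδ he
    have htδ : t * (2 + ‖e‖) = δ := by rw [ht]; field_simp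
    have hs2 : ∀ᵐ y ∂μ, y + t • e ∈ U → y + t • e ∈ s :=
      (measurePreserving_add_right μ (t • e)).quasiMeasurePreserving.ae h
    have hfull : Full μ {y | y ∈ s ∧ y + t • e ∈ s} (ball x t) := by
      filter_upwards [h, hs2] with y h1 h2 hy
      have hy' : ‖y - x‖ < t := by simpa [dist_eq_norm] using hy
      have a1 : y ∈ ball x δ := by
        rw [mem_ball, dist_eq_norm]; nlinarith [norm_nonneg e]
      have a2 : y + t • e ∈ ball x δ := by
        rw [mem_ball, dist_eq_norm]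
        have : y + t • e - x = (y - x) + t • e := by abel
        rw [this]
        have := norm_add_le (y - x) (t • e)
        rw [norm_smul, Real.norm_of_nonneg htp.le] at this
        nlinarith
      exact ⟨h1 (hb a1).2, h2 (hb a2).2⟩
    obtain ⟨y, hy, hys, hys'⟩ := hfull.exists_mem isOpen_ball Subset.rfl (nonempty_ball.2 htp)
    have hy' : ‖y - x‖ < t := by simpa [dist_eq_norm] using hy
    have a1 : y ∈ ball x δ := by
      rw [mem_ball, dist_eq_norm]; nlinarith [norm_nonneg e]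
    have n2 : ‖y + t • e - x‖ ≤ t + t * ‖e‖ := by
      have : y + t • e - x = (y - x) + t • e := by abel
      rw [this]
      have := norm_add_le (y - x) (t • e)
      rw [norm_smul, Real.norm_of_nonneg htp.le] at this
      linarith
    have a2 : y + t • e ∈ ball x δ := by
      rw [mem_ball, dist_eq_norm]; nlinarith
    have b1 := (hb a1).1 hys
    have b2 := (hb a2).1 hys'
    rw [hinv y hys t hys'] at b2
    have e1 : t • c' e = (c y - c x - c' (y - x)) - (c y - c x - c' (y + t • e - x)) := by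
      have : y + t • e - x = (y - x) + t • e := by abel
      rw [this, map_add, map_smul]; abel
    have e2 : t * ‖c' e‖ ≤ η * ‖y - x‖ + η * ‖y + t • e - x‖ := by
      rw [← norm_smul_of_nonneg htp.le, e1]
      exact (norm_sub_le _ _).trans (add_le_add b1 b2)
    have e3 : t * ‖c' e‖ ≤ t * (η * (2 + ‖e‖)) := by nlinarith
    exact le_of_mul_le_mul_left e3 htp
  rw [← norm_le_zero_iff]
  refine le_of_forall_pos_le_add fun ε hε => ?_
  have he : 0 < 2 + ‖e‖ := by positivity
  have := key (ε / (2 + ‖e‖)) (div_pos hε he)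
  rwa [div_mul_cancel₀ _ he.ne', ← zero_add ε] at this

/-- Preimages of null sets under maps with invertible derivative are null. -/
theorem null_preimage {s : Set V} {g : V → V} {g' : V → V →L[ℝ] V}
    (hg : ∀ x ∈ s, HasFDerivWithinAt g (g' x) s x) (hdet : ∀ x ∈ s, (g' x).det ≠ 0)
    {Z : Set V} (hZ : μ Z = 0) : μ (s ∩ g ⁻¹' Z) = 0 := by
  rcases s.eq_empty_or_nonempty with rfl | hne
  · simp
  have : ∀ A : V →L[ℝ] V, ∃ δ : ℝ≥0, 0 < δ ∧ (A.det ≠ 0 → ∃ m : ℝ≥0, 0 < m ∧
      ∀ (t : Set V), ApproximatesLinearOn g A t δ → (m : ℝ≥0∞) * μ t ≤ μ (g '' t)) := by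
    intro A
    by_cases hA : A.det = 0
    · exact ⟨1, one_pos, fun h => (h hA).elim⟩
    have hp : 0 < |A.det| := abs_pos.2 hA
    let m : ℝ≥0 := Real.toNNReal (|A.det| / 2)
    have hm : (m : ℝ≥0∞) < ENNReal.ofReal |A.det| := by
      change ENNReal.ofReal (|A.det| / 2) < _
      exact (ENNReal.ofReal_lt_ofReal_iff hp).2 (by linarith)
    rcases ((mul_le_addHaar_image_of_lt_det μ A hm).and self_mem_nhdsWithin).exists with
      ⟨δ, h, h'⟩
    exact ⟨δ, h', fun _ => ⟨m, Real.toNNReal_pos.2 (by linarith), fun t ht => h t g ht⟩⟩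
  choose δ hδ hδ' using this
  obtain ⟨t, A, -, -, hcov, happ, hA⟩ :=
    exists_partition_approximatesLinearOn_of_hasFDerivWithinAt g s g' hg δ fun A => (hδ A).ne'
  have hn : ∀ n, μ (s ∩ t n ∩ g ⁻¹' Z) = 0 := by
    intro n
    obtain ⟨y, hy, hAy⟩ := hA hne n
    obtain ⟨m, hm, hmt⟩ := hδ' (A n) (by rw [hAy]; exact hdet y hy)
    have h1 := hmt (s ∩ t n ∩ g ⁻¹' Z) ((happ n).mono_set inter_subset_left)
    have h2 : μ (g '' (s ∩ t n ∩ g ⁻¹' Z)) = 0 :=
      measure_mono_null (by rintro _ ⟨x, hx, rfl⟩; exact hx.2) hZ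
    rw [h2, nonpos_iff_eq_zero, mul_eq_zero] at h1
    rcases h1 with h1 | h1
    · exact absurd (by exact_mod_cast h1) hm.ne'
    · exact h1
  refine measure_mono_null (t := ⋃ n, s ∩ t n ∩ g ⁻¹' Z) ?_ (measure_iUnion_null hn)
  intro x hx
  obtain ⟨n, hn⟩ := mem_iUnion.1 (hcov hx.1)
  exact mem_iUnion.2 ⟨n, ⟨hx.1, hn⟩, hx.2⟩

/-- Lipschitz images of null sets are null. -/
theorem null_image {s : Set V} {g : V → V} {K : ℝ≥0} (hg : LipschitzOnWith K g s)
    (hs : μ s = 0) : μ (g '' s) = 0 := by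
  have h1 : μ ≪ μH[Module.finrank ℝ V] := Measure.absolutelyContinuous_isAddHaarMeasure _ _
  have h2 : (μH[Module.finrank ℝ V] : Measure V) ≪ μ :=
    Measure.absolutelyContinuous_isAddHaarMeasure _ _
  apply h1
  have := hg.hausdorffMeasure_image_le (d := Module.finrank ℝ V) (by positivity)
  rw [h2 hs, mul_zero] at this
  exact nonpos_iff_eq_zero.1 this

/-- Almost every point pulls back to a good point under a map with Lipschitz left inverse. -/
theorem ae_comp_of_leftInverse {f g : V → V} {K : ℝ≥0} (hg : LipschitzWith K g)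
    (hgf : ∀ x, g (f x) = x) {p : V → Prop} (hp : ∀ᵐ y ∂μ, p y) : ∀ᵐ x ∂μ, p (f x) := by
  rw [ae_iff] at hp ⊢
  refine measure_mono_null ?_ (null_image (hg.lipschitzOnWith (s := {a | ¬p a})) hp)
  intro x hx
  exact ⟨f x, hx, hgf x⟩

omit [NormedAddCommGroup V] [NormedSpace ℝ V] [FiniteDimensional ℝ V] [BorelSpace V]
  [Measure.IsAddHaarMeasure μ] in
/-- A full set contains a measurable full set. -/
theorem Full.exists_measurable {s U : Set V} (h : Full μ s U) (hU : MeasurableSet U) :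
    ∃ t, t ⊆ s ∧ t ⊆ U ∧ MeasurableSet t ∧ Full μ t U := by
  have h0 := ae_iff.1 h
  refine ⟨U \ toMeasurable μ {y | ¬(y ∈ U → y ∈ s)}, ?_, sdiff_subset,
    hU.diff (measurableSet_toMeasurable _ _), ?_⟩
  · intro y hy
    by_contra hys
    exact hy.2 (subset_toMeasurable _ _ fun h' => hys (h' hy.1))
  · have : ∀ᵐ y ∂μ, y ∉ toMeasurable μ {y | ¬(y ∈ U → y ∈ s)} := by
      rw [← measure_eq_zero_iff_ae_notMem, measure_toMeasurable]; exact h0
    filter_upwards [this] with y hy hyU using ⟨hyU, hy⟩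

/-- Local form of Rademacher's theorem. -/
theorem ae_differentiableAt_of_locally [FiniteDimensional ℝ W] {g : V → W} {U : Set V}
    (hg : ∀ x ∈ U, ∃ K, ∃ t ∈ 𝓝 x, LipschitzOnWith K g t) :
    ∀ᵐ x ∂μ, x ∈ U → DifferentiableAt ℝ g x := by
  rw [ae_iff]
  apply measure_null_of_locally_null
  intro x hx
  simp only [mem_ofPred_eq, Classical.not_imp] at hx
  obtain ⟨K, t, ht, hK⟩ := hg x hx.1
  obtain ⟨o, hot, ho, hxo⟩ := _root_.mem_nhds_iff.1 ht
  refine ⟨o ∩ {a | ¬(a ∈ U → DifferentiableAt ℝ g a)}, inter_mem (mem_nhdsWithin_of_mem_nhds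
    (ho.mem_nhds hxo)) self_mem_nhdsWithin, ?_⟩
  have := (hK.mono hot).ae_differentiableWithinAt_of_mem (μ := μ)
  refine measure_mono_null ?_ (ae_iff.1 this)
  intro y hy h'
  exact hy.2 fun _ => (h' hy.1).differentiableAt (ho.mem_nhds hy.1)

end Full

end Vale.Agent.P084
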